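import Vale.Agent.P088.R2.H31.Spec

/-!
# P088, THEOREM S: Euclidean isometries, the Laplacian, touching balls
-/

open MeasureTheory Set Filter Topology Metric
open scoped ContDiff

noncomputable section

namespace Vale.Agent.P088.R2.H850

open Vale.Agent.P088.R2.H31

variable {n : ℕ}

/-- The Laplacian is the trace of the second derivative. -/
theorem lap_eq {f : E n → ℝ} {x : E n} (hf : ContDiffAt ℝ 2 f x) :
    lap f x = ∑ i, fderiv ℝ (fderiv ℝ f) x (ev i) (ev i) := by
  unfold lap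
  refine Finset.sum_congr rfl fun i _ => ?_
  have h1 : DifferentiableAt ℝ (fderiv ℝ f) x :=
    (hf.fderiv_right (m := 1) (by norm_num)).differentiableAt (by norm_num)
  unfold dj
  have h2 : (fun y => fderiv ℝ f y (ev i)) = fun y => (fderiv ℝ f y) ((fun _ => ev i) y) := rfl
  rw [fderiv_clm_apply h1 (differentiableAt_const _)]
  simp

theorem trace_inv (B : E n →L[ℝ] E n →L[ℝ] ℝ) (T : E n ≃ₗᵢ[ℝ] E n) :
    ∑ i, B (T (ev i)) (T (ev i)) = ∑ i, B (ev i) (ev i) := by
  have key : ∀ v : OrthonormalBasis (Fin n) ℝ (E n), ∑ i, B (v i) (v i) = ∑ i, B (ev i) (ev i) := by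
    intro v
    have h1 : ∀ w : OrthonormalBasis (Fin n) ℝ (E n), ∑ i, B (w i) (w i) =
        ∑ i, inner ℝ (w i) ((InnerProductSpace.toDual ℝ (E n)).symm.toContinuousLinearEquiv.toContinuousLinearMap.comp B (w i)) := by
      intro w
      refine Finset.sum_congr rfl fun i _ => ?_
      rw [real_inner_comm]
      exact (InnerProductSpace.toDual_symm_apply (𝕜 := ℝ) (x := w i) (y := B (w i))).symm
    have h2 : ∀ w : OrthonormalBasis (Fin n) ℝ (E n), ∑ i, B (w i) (w i) =
        LinearMap.trace ℝ (E n) ((InnerProductSpace.toDual ℝ (E n)).symm.toContinuousLinearEquiv.toContinuousLinearMap.comp B).toLinearMap := by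
      intro w
      rw [h1 w, LinearMap.trace_eq_sum_inner _ w]
      rfl
    rw [h2 v]
    have h3 := h2 (EuclideanSpace.basisFun (Fin n) ℝ)
    rw [← h3]
    simp
  have h := key ((EuclideanSpace.basisFun (Fin n) ℝ).map T)
  simpa using h

/-- Invariance of the Laplacian under isometries. -/
theorem lap_iso {f : E n → ℝ} (T : E n ≃ₗᵢ[ℝ] E n) (a : E n) {x : E n}
    (hf : ContDiffAt ℝ 2 f (T x + a)) :
    lap (fun y => f (T y + a)) x = lap f (T x + a) := by
  have hφ : ∀ y, HasFDerivAt (fun y => T y + a) (T.toContinuousLinearEquiv : E n →L[ℝ] E n) y :=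
    fun y => T.toContinuousLinearEquiv.hasFDerivAt.add_const a
  have hfx : ContDiffAt ℝ 2 (fun y => f (T y + a)) x := by
    refine ContDiffAt.comp x hf ?_
    exact (T.toContinuousLinearEquiv.contDiff.add contDiff_const).contDiffAt
  rw [lap_eq hfx, lap_eq hf]
  have h1 : ∀ᶠ y in 𝓝 x, fderiv ℝ (fun y => f (T y + a)) y =
      (fderiv ℝ f (T y + a)).comp (T.toContinuousLinearEquiv : E n →L[ℝ] E n) := by
    have h2 : ∀ᶠ z in 𝓝 (T x + a), DifferentiableAt ℝ f z :=
      (hf.eventually (by norm_num)).mono fun z hz => hz.differentiableAt (by norm_num)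
    have h3 : Tendsto (fun y => T y + a) (𝓝 x) (𝓝 (T x + a)) := (hφ x).continuousAt
    filter_upwards [h3.eventually h2] with y hy
    exact (hy.hasFDerivAt.comp y (hφ y)).fderiv
  have hd : DifferentiableAt ℝ (fderiv ℝ f) (T x + a) :=
    (hf.fderiv_right (m := 1) (by norm_num)).differentiableAt (by norm_num)
  have h4 : fderiv ℝ (fderiv ℝ (fun y => f (T y + a))) x =
      fderiv ℝ (fun y => (fderiv ℝ f (T y + a)).comp
        (T.toContinuousLinearEquiv : E n →L[ℝ] E n)) x := Filter.EventuallyEq.fderiv_eq h1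
  have h5 : HasFDerivAt (fun y => (fderiv ℝ f (T y + a)).comp
        (T.toContinuousLinearEquiv : E n →L[ℝ] E n))
      (((ContinuousLinearMap.compL ℝ (E n) (E n) ℝ).flip
        (T.toContinuousLinearEquiv : E n →L[ℝ] E n)).comp
        ((fderiv ℝ (fderiv ℝ f) (T x + a)).comp (T.toContinuousLinearEquiv : E n →L[ℝ] E n))) x :=
    (((ContinuousLinearMap.compL ℝ (E n) (E n) ℝ).flip
        (T.toContinuousLinearEquiv : E n →L[ℝ] E n)).hasFDerivAt).comp x
      (hd.hasFDerivAt.comp x (hφ x))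
  rw [h4, h5.fderiv]
  have := trace_inv (fderiv ℝ (fderiv ℝ f) (T x + a)) T
  simpa using this

/-- The Laplacian of a smooth function is continuous. -/
theorem cont_lap {f : E n → ℝ} {D : Set (E n)} (hD : IsOpen D) (hf : ContDiffOn ℝ 2 f D) :
    ContinuousOn (lap f) D := by
  intro x hx
  refine ContinuousAt.continuousWithinAt ?_
  have h : ContDiffAt ℝ 2 f x := hf.contDiffAt (hD.mem_nhds hx)
  unfold lap
  refine tendsto_finsetSum _ fun i _ => ?_
  have h1 : ContDiffAt ℝ 1 (dj i f) x := c2_dj h i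
  exact (h1.fderiv_right (m := 0) (by norm_num)).continuousAt.clm_apply continuousAt_const

/-- A rotation which maps a given vector to a multiple of a given unit vector. -/
theorem exists_rot (v e : E n) (he : ‖e‖ = 1) : ∃ T : E n ≃ₗᵢ[ℝ] E n, T v = ‖v‖ • e := by
  refine ⟨(Submodule.reflection (Submodule.span ℝ {v - ‖v‖ • e})ᗮ), ?_⟩
  refine Submodule.reflection_sub ?_
  rw [norm_smul, he, mul_one, norm_norm]

/-- A touching ball: `W` open, `x₁ ∉ W` a limit of points of `W`; then some ball in `W`, close to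
`x₁`, touches the complement of `W` at a point `x₀` close to `x₁`. -/
theorem touching {W : Set (E n)} (hW : IsOpen W) {x₁ : E n} {ρ : ℝ} (hρ : 0 < ρ)
    (hx₁ : x₁ ∉ W) (hcl : x₁ ∈ closure W) :
    ∃ z x₀ : E n, x₀ ∈ ball x₁ ρ ∧ x₀ ∉ W ∧ 0 < dist z x₀ ∧ dist z x₀ < ρ ∧
      ball z (dist z x₀) ⊆ W := by
  obtain ⟨z, hzW, hz⟩ := Metric.mem_closure_iff.1 hcl (ρ / 4) (by positivity)
  set K : Set (E n) := closedBall x₁ (ρ / 2) \ W with hK
  have hKc : IsCompact K := (isCompact_closedBall x₁ (ρ / 2)).diff hW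
  have hKn : x₁ ∈ K := ⟨mem_closedBall_self (by positivity), hx₁⟩
  obtain ⟨x₀, hx₀, hmin⟩ := hKc.exists_isMinOn ⟨x₁, hKn⟩
    (continuous_const.dist continuous_id : Continuous fun y => dist z y).continuousOn
  have h1 : dist z x₀ ≤ dist z x₁ := hmin hKn
  have h2 : dist z x₁ < ρ / 4 := by rwa [dist_comm]
  have hzx : z ≠ x₀ := fun h => hx₀.2 (h ▸ hzW)
  refine ⟨z, x₀, ?_, hx₀.2, dist_pos.2 hzx, by linarith, fun y hy => ?_⟩
  · rw [mem_ball]
    calc dist x₀ x₁ ≤ dist x₀ z + dist z x₁ := dist_triangle _ _ _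
      _ < ρ := by rw [dist_comm x₀ z]; linarith
  · by_contra hyW
    have h3 : y ∈ K := by
      refine ⟨?_, hyW⟩
      rw [mem_closedBall]
      rw [mem_ball] at hy
      calc dist y x₁ ≤ dist y z + dist z x₁ := dist_triangle _ _ _
        _ ≤ ρ / 2 := by linarith
    have h4 : dist z x₀ ≤ dist z y := hmin h3
    rw [mem_ball, dist_comm] at hy
    linarith

end Vale.Agent.P088.R2.H850
end
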