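import Vale.Agent.P088.R2.H509.CF

/-!
# P088, THEOREM S: the boundary step, local form (statement)
-/

open Bundle Manifold MeasureTheory Set Filter Topology
open scoped ContDiff Matrix

noncomputable section

namespace Vale.Agent.P088.R2.H850

open Vale.Agent.P088 Vale.Agent.P088.EYM Vale.Agent.P088.EYM.O

universe u

/-- (BDL) the boundary step, local form: `P` and `Q` are arbitrary off the open set `W`; on `W` the
metrics are conformal and there is a unit section which is parallel for both connections. -/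
def BDL_statement : Prop :=
  ∀ (n N : ℕ) [NeZero n] (M : Type u) [TopologicalSpace M] [ChartedSpace (EuclideanHalfSpace n) M]
    [IsManifold (𝓡∂ n) ∞ M] [T2Space M] [CompactSpace M] [ConnectedSpace M] [MeasurableSpace M]
    [BorelSpace M] (P Q : One n N M) (Γ W : Set M) (c : M → ℝ) (e : M → Fib N), 3 ≤ n →
    RelBd n Γ → SameD P Q Γ → IsOpen W →
    ContMDiffOn (𝓡∂ n) 𝓘(ℝ, ℝ) ∞ c W → (∀ x ∈ W, 0 < c x) →
    (∀ x ∈ W, ∀ v w : TangentSpace (𝓡∂ n) x, Q.g.inner x v w = c x * P.g.inner x v w) →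
    ContMDiffOn (𝓡∂ n) 𝓘(ℝ, Fib N) ∞ e W → (∀ x ∈ W, ‖e x‖ = 1) →
    (∀ x ∈ W, ∀ X : TangentSpace (𝓡∂ n) x, cov P.A e x X = 0) →
    (∀ x ∈ W, ∀ X : TangentSpace (𝓡∂ n) x, P.A.form x X = Q.A.form x X) →
    ∀ (p : M) (D : Set (E n)) (X : E n → E n) (om : E n → ℝ), p ∈ Γ → p ∈ W →
    H509.CF P p D X om → ∀ᶠ x in 𝓝 p, c x = 1

end Vale.Agent.P088.R2.H850
end
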