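import Vale.Agent.P088.R2.H850.J2

/-!
# P088, stage 3, row JET: the derivatives of `tr h √(det g) g⁻¹`
-/

set_option linter.all false

open MeasureTheory Set Filter Topology
open scoped ContDiff

noncomputable section

namespace Vale.Agent.P088.R2.H850

open Vale.Agent.P088 Vale.Agent.P088.EYM

variable {n N : ℕ} [NeZero n] {D : Set (E n)}

theorem gok_of_ok {L : LD n N} (h : L.Ok D) : GOk D L.g where
  smG := h.g_smooth
  symm := fun x hx j k => by
    have h1 := (h.g_pos x hx).isHermitian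
    have h2 := congrFun (congrFun h1 k) j
    rw [Matrix.conjTranspose_apply] at h2
    simpa using h2
  pos := h.g_pos

theorem van_sqrt (hD : RelOpen D) {f g : E n → ℝ} (hf : ContDiffOn ℝ ∞ f D)
    (hg : ContDiffOn ℝ ∞ g D) (pf : ∀ x ∈ D, 0 < f x) (pg : ∀ x ∈ D, 0 < g x) {k : ℕ}
    (h : Van D k (fun x => f x - g x)) : Van D k (fun x => √(f x) - √(g x)) := by
  have sf : ContDiffOn ℝ ∞ (fun x => √(f x)) D := hf.sqrt fun x hx => (pf x hx).ne'
  have sg : ContDiffOn ℝ ∞ (fun x => √(g x)) D := hg.sqrt fun x hx => (pg x hx).ne'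
  have pS : ∀ x ∈ D, 0 < √(f x) + √(g x) := fun x hx =>
    add_pos (Real.sqrt_pos.2 (pf x hx)) (Real.sqrt_pos.2 (pg x hx))
  have h3 := dme_mul_right hD ((sf.add sg).inv fun x hx => (pS x hx).ne') (hf.sub hg) h
  refine h3.congr hD fun x hx => ?_
  have e1 : f x = √(f x) ^ 2 := (Real.sq_sqrt (pf x hx).le).symm
  have e2 : g x = √(g x) ^ 2 := (Real.sq_sqrt (pg x hx).le).symm
  have e3 : f x - g x = (√(f x) + √(g x)) * (√(f x) - √(g x)) := by
    nlinarith only [e1, e2]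
  simp only [Pi.inv_apply, Pi.add_apply]
  rw [e3, ← mul_assoc, inv_mul_cancel₀ (pS x hx).ne', one_mul]

/-- the matrix `tr h √(det g) g⁻¹` -/
def sgE (L : LD n N) (x : E n) : Matrix (Fin n) (Fin n) ℝ :=
  ((trE (L.h x)).re * √(L.g x).det) • (L.g x)⁻¹

theorem sgE_apply (L : LD n N) (x : E n) (a b : Fin n) :
    sgE L x a b = (trE (L.h x)).re * GM L.g x a b := by
  rw [dme_GM_eq]
  simp only [sgE, Matrix.smul_apply, smul_eq_mul]
  ring

/-- the real part of the trace, continuous -/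
def trC : EndF N →L[ℝ] ℝ := LinearMap.toContinuousLinearMap (ymTr : EndF N →ₗ[ℝ] ℝ)

theorem trC_apply (T : EndF N) : trC T = (trE T).re := rfl

theorem tr_smooth {h : E n → EndF N} (hh : ContDiffOn ℝ ∞ h D) :
    ContDiffOn ℝ ∞ (fun x => (trE (h x)).re) D :=
  trC.contDiff.comp_contDiffOn hh

theorem sgE_smooth {L : LD n N} (h : L.Ok D) (a b : Fin n) :
    ContDiffOn ℝ ∞ (fun x => sgE L x a b) D := by
  refine ((tr_smooth h.h_smooth).mul ((dme_gok (gok_of_ok h)).smG a b)).congr fun x _ => ?_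
  exact sgE_apply L x a b

theorem jet_sgE (hD : RelOpen D) {W₁ W₂ : Model n N} (o₁ : W₁.toLD.Ok D) (o₂ : W₂.toLD.Ok D)
    (hJ : H.JetAll W₁ W₂ D) (k : ℕ) (a b : Fin n) :
    Van D k (fun x => sgE W₁.toLD x a b - sgE W₂.toLD x a b) := by
  have g₁ := gok_of_ok o₁
  have g₂ := gok_of_ok o₂
  have hi := dme_inv_van hD g₁ g₂ (hJ.g k) a b
  have hd := dme_van_det hD g₁.smG g₂.smG (hJ.g k)
  have hs : Van D k (fun x => √(W₁.g x).det - √(W₂.g x).det) :=
    van_sqrt hD (dme_smooth_det g₁.smG) (dme_smooth_det g₂.smG)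
      (fun x hx => (g₁.pos x hx).det_pos) (fun x hx => (g₂.pos x hx).det_pos) hd
  have ht : Van D k (fun x => (trE (W₁.h x)).re - (trE (W₂.h x)).re) := by
    refine (Van.clm hD trC (o₁.h_smooth.sub o₂.h_smooth) (hJ.h k)).congr hD fun x _ => ?_
    show trC (W₁.h x - W₂.h x) = trC (W₁.h x) - trC (W₂.h x)
    exact map_sub _ _ _
  have st₁ := tr_smooth (D := D) o₁.h_smooth
  have st₂ := tr_smooth (D := D) o₂.h_smooth
  have ss₁ := dme_smooth_s g₁
  have ss₂ := dme_smooth_s g₂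
  have si₁ := dme_smooth_inv g₁ a b
  have si₂ := dme_smooth_inv g₂ a b
  have k1 := dme_mul_left hD (st₁.sub st₂) (ss₁.mul si₁) ht
  have k2 := dme_mul_right hD st₂ ((ss₁.sub ss₂).mul si₁) (dme_mul_left hD (ss₁.sub ss₂) si₁ hs)
  have k3 := dme_mul_right hD st₂ (ss₂.mul (si₁.sub si₂)) (dme_mul_right hD ss₂ (si₁.sub si₂) hi)
  have k4 := Van.add hD (((st₁.sub st₂).mul (ss₁.mul si₁)))
    ((st₂.mul ((ss₁.sub ss₂).mul si₁)).add (st₂.mul (ss₂.mul (si₁.sub si₂)))) k1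
    (Van.add hD (st₂.mul ((ss₁.sub ss₂).mul si₁)) (st₂.mul (ss₂.mul (si₁.sub si₂))) k2 k3)
  refine k4.congr hD fun x hx => ?_
  simp only [sgE, Matrix.smul_apply, smul_eq_mul, Pi.mul_apply, Pi.sub_apply]
  ring

/-- all mixed derivatives vanish -/
theorem van_all (hD : RelOpen D) {F : Type*} [NormedAddCommGroup F] [NormedSpace ℝ F]
    {f : E n → F} (hf : ContDiffOn ℝ ∞ f D) (h : ∀ k, Van D k f) (l : List (Fin n)) :
    ContDiffOn ℝ ∞ (l.foldr pd f) D ∧ ∀ k, Van D k (l.foldr pd f) := by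
  induction l with
  | nil => exact ⟨hf, h⟩
  | cons j l ih =>
    exact ⟨hD.pd_smooth ih.1 j, fun k => Van.pd_any hD ih.1 (ih.2 (k + 1)) j⟩

end Vale.Agent.P088.R2.H850
end
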