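import Vale.Agent.P088.R2.H509.S3.Sc
import Vale.Agent.P088.R2.H850.J3

/-!
# P088, stage 3, boundary: equal tensors `σ` and equal Cauchy data of the frames give equal models
-/

set_option linter.all false

open Bundle Manifold MeasureTheory Set Filter Topology
open scoped ContDiff

noncomputable section

namespace Vale.Agent.P088.R2.H850

open Vale.Agent.P088 Vale.Agent.P088.EYM Vale.Agent.P088.TM
open Vale.Agent.P088.R2.H509.S3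

variable {n : ℕ} [NeZero n] {D : Set (E n)}

/-- `√(det g) g⁻¹` determines `g`, at one point. -/
theorem g_of_GM (hn : 3 ≤ n) {g₁ g₂ : E n → Matrix (Fin n) (Fin n) ℝ} (h₁ : GOk D g₁)
    (h₂ : GOk D g₂) {x : E n} (hx : x ∈ D) (h : GM g₁ x = GM g₂ x) : g₁ x = g₂ x := by
  have key : ∀ g : E n → Matrix (Fin n) (Fin n) ℝ, GOk D g →
      g x = √(g x).det • (GM g x)⁻¹ := fun g h => by
    have hp := (h.pos x hx).det_pos
    have hs : 0 < √(g x).det := Real.sqrt_pos.2 hp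
    have e : (GM g x)⁻¹ = (√(g x).det)⁻¹ • g x := by
      refine Matrix.inv_eq_left_inv ?_
      rw [dme_GM_eq, Matrix.smul_mul, Matrix.mul_smul, smul_smul, inv_mul_cancel₀ hs.ne',
        Matrix.mul_nonsing_inv _ hp.ne'.isUnit, one_smul]
    rw [e, smul_smul, mul_inv_cancel₀ hs.ne', one_smul]
  have hd : √(g₁ x).det = √(g₂ x).det := by
    have e1 := dme_det_GM hn h₁ hx
    have e2 := dme_det_GM hn h₂ hx
    rw [h, e2] at e1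
    exact ((pow_left_inj₀ (Real.sqrt_nonneg _) (Real.sqrt_nonneg _) (by omega)).1 e1).symm
  rw [key g₁ h₁, key g₂ h₂, h, hd]

theorem trE_one_smul (c : ℝ) : (trE (c • (1 : EndF 1))).re = c := by
  have h1 := trC.map_smul c (1 : EndF 1)
  rw [trC_apply, trC_apply] at h1
  rw [h1]
  have h2 : trE (1 : EndF 1) = 1 := by
    unfold trE
    have : ((1 : EndF 1) : Fib 1 →ₗ[ℂ] Fib 1) = LinearMap.id := rfl
    rw [this, LinearMap.trace_id]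
    simp
  rw [h2]
  simp

variable {W₁ W₂ : Model n 1} {ρ₁ ρ₂ : E n → ℝ}

theorem sgE_eq {W : Model n 1} {ρ : E n → ℝ} (h : RM W ρ D) {x : E n} (hx : x ∈ D) (j k : Fin n) :
    sgE W.toLD x j k = sg W.g ρ j k x := by
  rw [sgE_apply, h.h x hx, trE_one_smul]
  rfl

/-- the operators are equal -/
theorem dS_congr (hD : RelOpen D) {g₁ g₂ : E n → Matrix (Fin n) (Fin n) ℝ}
    (hσ : ∀ x ∈ D, ∀ j k, sg g₁ ρ₁ j k x = sg g₂ ρ₂ j k x) (f : E n → ℝ) {x : E n} (hx : x ∈ D) :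
    dS g₁ ρ₁ f x = dS g₂ ρ₂ f x := by
  unfold dS
  refine Finset.sum_congr rfl fun j _ => hD.pd_congr (fun y hy => ?_) hx j
  unfold fs
  exact Finset.sum_congr rfl fun k _ => by rw [hσ y hy j k]

theorem dS_inv {W : Model n 1} {ρ : E n → ℝ} (h : RM W ρ D) {x : E n} (hx : x ∈ D) :
    dS W.g ρ (fun y => (ρ y)⁻¹) x = 0 := by
  have hi : ContDiffOn ℝ ∞ (fun y => (ρ y)⁻¹) D := h.sm.inv fun y hy => (h.pos y hy).ne'
  rw [h.dS_eq hi hx]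
  have h1 : dG W.g (fun y => ρ y * (ρ y)⁻¹) x = 0 := by
    unfold dG
    refine Finset.sum_eq_zero fun j _ => ?_
    have e : EqOn (fx W.g (fun y => ρ y * (ρ y)⁻¹) j) (fun _ => (0 : ℝ)) D := by
      intro y hy
      unfold fx
      refine Finset.sum_eq_zero fun k _ => ?_
      have e2 : EqOn (fun y => ρ y * (ρ y)⁻¹) (fun _ => (1 : ℝ)) D := fun w hw =>
        mul_inv_cancel₀ (h.pos w hw).ne'
      rw [h.rel.pd_congr e2 hy k, pd_const, mul_zero]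
    rw [h.rel.pd_congr e hx j, pd_const]
  rw [h1, mul_zero]

/-- Equal tensors and equal frames give equal models. -/
theorem rm_eqOn (hn : 3 ≤ n) (h₁ : RM W₁ ρ₁ D) (h₂ : RM W₂ ρ₂ D)
    (hσ : ∀ x ∈ D, ∀ j k, sg W₁.g ρ₁ j k x = sg W₂.g ρ₂ j k x)
    (hρ : ∀ x ∈ D, ρ₁ x = ρ₂ x) : EqOnM W₁ W₂ D := by
  have hR : RelOpen D := h₁.rel
  refine ⟨fun x hx => ?_, fun x hx j => ?_, fun x hx => ?_, fun x hx a => ?_⟩
  · refine g_of_GM hn (gok_of_ok h₁.mod.ok) (gok_of_ok h₂.mod.ok) hx ?_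
    ext j k
    have h1 := hσ x hx j k
    unfold sg at h1
    rw [hρ x hx] at h1
    exact mul_left_cancel₀ (pow_ne_zero 2 (h₂.pos x hx).ne') h1
  · rw [h₁.B x hx j, h₂.B x hx j, hρ x hx, hR.pd_congr (fun y hy => hρ y hy) hx j]
  · rw [h₁.h x hx, h₂.h x hx, hρ x hx]
  · rw [h₁.c a x hx, h₂.c a x hx]

/-- The difference of the two functions `1 / ρ_j` is a solution. -/
theorem sol_inv (h₁ : RM W₁ ρ₁ D) (h₂ : RM W₂ ρ₂ D)
    (hσ : ∀ x ∈ D, ∀ j k, sg W₁.g ρ₁ j k x = sg W₂.g ρ₂ j k x) :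
    Sol W₁.toLD D (fun y => (cf (fun y => (ρ₁ y)⁻¹) y) - cf (fun y => (ρ₂ y)⁻¹) y) := by
  have hR : RelOpen D := h₁.rel
  have i₁ : ContDiffOn ℝ ∞ (fun y => (ρ₁ y)⁻¹) D := h₁.sm.inv fun y hy => (h₁.pos y hy).ne'
  have i₂ : ContDiffOn ℝ ∞ (fun y => (ρ₂ y)⁻¹) D := h₂.sm.inv fun y hy => (h₂.pos y hy).ne'
  have L₁ : ∀ x ∈ D, Lop W₁.toLD (cf fun y => (ρ₁ y)⁻¹) x = 0 := fun x hx => by
    rw [h₁.lop_dS i₁ hx, dS_inv h₁ hx, zero_div, map_zero]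
  have L₂ : ∀ x ∈ D, Lop W₁.toLD (cf fun y => (ρ₂ y)⁻¹) x = 0 := fun x hx => by
    rw [h₁.lop_dS i₂ hx, dS_congr hR hσ _ hx, dS_inv h₂ hx, zero_div, map_zero]
  refine ⟨(cf_smooth i₁).sub (cf_smooth i₂), fun x hx => ?_⟩
  rw [CNear_Lop_sub hR h₁.mod.ok (cf_smooth i₁) (cf_smooth i₂) hx, L₁ x hx, L₂ x hx, sub_zero]

theorem rho_of_cf {x : E n} (h : (cf (fun y => (ρ₁ y)⁻¹) x) - cf (fun y => (ρ₂ y)⁻¹) x = 0) :
    ρ₁ x = ρ₂ x := by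
  have h1 := sub_eq_zero.1 h
  have h2 := congrArg (fun v : Fib 1 => (v 0).re) h1
  simp only [cf_apply, io_re] at h2
  exact inv_injective h2

/-- **Interior version**: equal tensors on a connected open set and equal frames on a nonempty
open subset give equal models. -/
theorem rm_eq_int (hn : 3 ≤ n) (hD : IsOpen D) (hc : IsPreconnected D) (h₁ : RM W₁ ρ₁ D)
    (h₂ : RM W₂ ρ₂ D) (hσ : ∀ x ∈ D, ∀ j k, sg W₁.g ρ₁ j k x = sg W₂.g ρ₂ j k x)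
    {U : Set (E n)} (hU : IsOpen U) (hUD : U ⊆ D) (hUn : U.Nonempty)
    (hρ : ∀ x ∈ U, ρ₁ x = ρ₂ x) :
    (∀ x ∈ D, ρ₁ x = ρ₂ x) ∧ EqOnM W₁ W₂ D := by
  have h3 : ∀ x ∈ D, ρ₁ x = ρ₂ x := fun x hx => rho_of_cf <|
    fLinInt n 1 W₁.toLD D hD h₁.rel.subset h₁.mod.ok hc _ (sol_inv h₁ h₂ hσ) U hU hUD hUn
      (fun y hy => by
        show io (ρ₁ y)⁻¹ - io (ρ₂ y)⁻¹ = 0
        rw [hρ y hy, sub_self]) x hx
  exact ⟨h3, rm_eqOn hn h₁ h₂ hσ h3⟩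

/-- Interior version, with the matrices `sgE`. -/
theorem rm_eq_intE (hn : 3 ≤ n) (hD : IsOpen D) (hc : IsPreconnected D) (h₁ : RM W₁ ρ₁ D)
    (h₂ : RM W₂ ρ₂ D) (hσ : ∀ x ∈ D, sgE W₁.toLD x = sgE W₂.toLD x)
    {U : Set (E n)} (hU : IsOpen U) (hUD : U ⊆ D) (hUn : U.Nonempty)
    (hρ : ∀ x ∈ U, ρ₁ x = ρ₂ x) : EqOnM W₁ W₂ D :=
  (rm_eq_int hn hD hc h₁ h₂ (fun x hx j k => by
    rw [← sgE_eq h₁ hx, ← sgE_eq h₂ hx, hσ x hx]) hU hUD hUn hρ).2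

/-- Unique continuation for `div σ grad u = 0`: equal on a nonempty open set, equal. -/
theorem ucp_dS {W : Model n 1} {ρ : E n → ℝ} (hD : IsOpen D) (hc : IsPreconnected D)
    (h : RM W ρ D) {u v : E n → ℝ} (hu : ContDiffOn ℝ ∞ u D) (hv : ContDiffOn ℝ ∞ v D)
    (hu0 : ∀ x ∈ D, dS W.g ρ u x = 0) (hv0 : ∀ x ∈ D, dS W.g ρ v x = 0)
    {U : Set (E n)} (hU : IsOpen U) (hUD : U ⊆ D) (hUn : U.Nonempty) (he : ∀ x ∈ U, u x = v x) :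
    ∀ x ∈ D, u x = v x := by
  have hsol : Sol W.toLD D (fun y => cf u y - cf v y) := by
    refine ⟨(cf_smooth hu).sub (cf_smooth hv), fun x hx => ?_⟩
    rw [CNear_Lop_sub h.rel h.mod.ok (cf_smooth hu) (cf_smooth hv) hx, h.lop_dS hu hx,
      h.lop_dS hv hx, hu0 x hx, hv0 x hx, sub_self]
  intro x hx
  have h1 := fLinInt n 1 W.toLD D hD h.rel.subset h.mod.ok hc _ hsol U hU hUD hUn
    (fun y hy => by
      show io (u y) - io (v y) = 0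
      rw [he y hy, sub_self]) x hx
  have h2 := congrArg (fun v : Fib 1 => (v 0).re) (sub_eq_zero.1 h1)
  simpa only [cf_apply, io_re] using h2

/-- **Equal tensors and equal Cauchy data of the frames give equal models.** -/
theorem rm_eq (hn : 3 ≤ n) {z : E n} (hz : z 0 = 0) {r : ℝ} (hr : 0 < r)
    (h₁ : RM W₁ ρ₁ (HB z r)) (h₂ : RM W₂ ρ₂ (HB z r))
    (hσ : ∀ x ∈ HB z r, ∀ j k, sg W₁.g ρ₁ j k x = sg W₂.g ρ₂ j k x)
    (hv : ∀ x ∈ HB z r, x 0 = 0 → ρ₁ x = ρ₂ x)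
    (hd : ∀ x ∈ HB z r, x 0 = 0 → ∀ k, pd k ρ₁ x = pd k ρ₂ x) :
    (∀ x ∈ HB z r, ρ₁ x = ρ₂ x) ∧ EqOnM W₁ W₂ (HB z r) := by
  have hR : RelOpen (HB z r) := h₁.rel
  have i₁ : ContDiffOn ℝ ∞ (fun y => (ρ₁ y)⁻¹) (HB z r) :=
    h₁.sm.inv fun y hy => (h₁.pos y hy).ne'
  have i₂ : ContDiffOn ℝ ∞ (fun y => (ρ₂ y)⁻¹) (HB z r) :=
    h₂.sm.inv fun y hy => (h₂.pos y hy).ne'
  have L₁ : ∀ x ∈ HB z r, Lop W₁.toLD (cf fun y => (ρ₁ y)⁻¹) x = 0 := fun x hx => by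
    rw [h₁.lop_dS i₁ hx, dS_inv h₁ hx, zero_div, map_zero]
  have L₂ : ∀ x ∈ HB z r, Lop W₁.toLD (cf fun y => (ρ₂ y)⁻¹) x = 0 := fun x hx => by
    rw [h₁.lop_dS i₂ hx, dS_congr hR hσ _ hx, dS_inv h₂ hx, zero_div, map_zero]
  have hsol : Sol W₁.toLD (HB z r) (fun y => (cf (fun y => (ρ₁ y)⁻¹) y) -
      cf (fun y => (ρ₂ y)⁻¹) y) := by
    refine ⟨(cf_smooth i₁).sub (cf_smooth i₂), fun x hx => ?_⟩
    rw [CNear_Lop_sub hR h₁.mod.ok (cf_smooth i₁) (cf_smooth i₂) hx, L₁ x hx, L₂ x hx, sub_zero]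
  have hval : ∀ x ∈ HB z r, (cf (fun y => (ρ₁ y)⁻¹) x) - cf (fun y => (ρ₂ y)⁻¹) x = 0 := by
    refine fLinBd n 1 W₁.toLD z r hr hz h₁.mod.ok _ hsol fun x hx hx0 => ⟨?_, ?_⟩
    · show io (ρ₁ x)⁻¹ - io (ρ₂ x)⁻¹ = 0
      rw [hv x hx hx0, sub_self]
    · rw [CNear_flux_sub hR W₁.toLD (cf_smooth i₁) (cf_smooth i₂) 0 hx, h₁.flux_cf i₁ hx,
        h₁.flux_cf i₂ hx, ← map_sub, ← mul_sub]
      have e : fx W₁.g (fun y => ρ₁ y * (ρ₁ y)⁻¹) 0 x - fx W₁.g (fun y => ρ₁ y * (ρ₂ y)⁻¹) 0 x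
          = 0 := by
        unfold fx
        rw [← Finset.sum_sub_distrib]
        refine Finset.sum_eq_zero fun k _ => ?_
        have k1 : pd k (fun y => ρ₁ y * (ρ₁ y)⁻¹) x =
            pd k ρ₁ x * (ρ₁ x)⁻¹ + ρ₁ x * pd k (fun y => (ρ₁ y)⁻¹) x := pdm hR h₁.sm i₁ hx k
        have k2 : pd k (fun y => ρ₁ y * (ρ₂ y)⁻¹) x =
            pd k ρ₁ x * (ρ₂ x)⁻¹ + ρ₁ x * pd k (fun y => (ρ₂ y)⁻¹) x := pdm hR h₁.sm i₂ hx k
        rw [k1, k2, pdi hR h₁.sm h₁.pos hx k, pdi hR h₂.sm h₂.pos hx k, hv x hx hx0,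
          hd x hx hx0 k, sub_self]
      rw [e, mul_zero, map_zero]
  have hρ : ∀ x ∈ HB z r, ρ₁ x = ρ₂ x := by
    intro x hx
    have h1 := sub_eq_zero.1 (hval x hx)
    have h2 := congrArg (fun v : Fib 1 => (v 0).re) h1
    simp only [cf_apply, io_re] at h2
    exact inv_injective h2
  refine ⟨hρ, ⟨fun x hx => ?_, fun x hx j => ?_, fun x hx => ?_, fun x hx a => ?_⟩⟩
  · refine g_of_GM hn (gok_of_ok h₁.mod.ok) (gok_of_ok h₂.mod.ok) hx ?_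
    ext j k
    have h1 := hσ x hx j k
    unfold sg at h1
    rw [hρ x hx] at h1
    exact mul_left_cancel₀ (pow_ne_zero 2 (h₂.pos x hx).ne') h1
  · rw [h₁.B x hx j, h₂.B x hx j, hρ x hx, hR.pd_congr (fun y hy => hρ y hy) hx j]
  · rw [h₁.h x hx, h₂.h x hx, hρ x hx]
  · rw [h₁.c a x hx, h₂.c a x hx]

/-- The Cauchy data of the frames, from the jets. -/
theorem cauchy_rho {z : E n} {r : ℝ} (h₁ : RM W₁ ρ₁ (HB z r)) (h₂ : RM W₂ ρ₂ (HB z r))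
    (hJ : PJet z r W₁ W₂) :
    (∀ x ∈ HB z r, x 0 = 0 → ρ₁ x = ρ₂ x) ∧
    ∀ x ∈ HB z r, x 0 = 0 → ∀ k, pd k ρ₁ x = pd k ρ₂ x := by
  have hR : RelOpen (HB z r) := h₁.rel
  have hone : ∀ {W : Model n 1} {ρ : E n → ℝ}, RM W ρ (HB z r) → ∀ x ∈ HB z r,
      W.h x = 1 → ρ x = 1 := by
    intro W ρ h x hx h1
    have h2 := h.h x hx
    rw [h1] at h2
    have h3 := congrArg (fun T : EndF 1 => (trE T).re) h2
    simp only [trE_one_smul] at h3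
    have h4 := trE_one_smul 1
    rw [one_smul] at h4
    rw [h4] at h3
    have h5 := h.pos x hx
    nlinarith
  have hv : ∀ x ∈ HB z r, x 0 = 0 → ρ₁ x = ρ₂ x := fun x hx hx0 => by
    obtain ⟨a, b⟩ := hJ.h1 x hx hx0
    rw [hone h₁ x hx a, hone h₂ x hx b]
  refine ⟨hv, fun x hx hx0 k => ?_⟩
  have hV : Van (HB z r) 2 (fun x => ρ₁ x ^ 2 - ρ₂ x ^ 2) := by
    refine (Van.clm hR trC (h₁.mod.ok.h_smooth.sub h₂.mod.ok.h_smooth) (hJ.jet.h 2)).congr hR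
      fun y hy => ?_
    have e1 : trC (W₁.h y - W₂.h y) = trC (W₁.h y) - trC (W₂.h y) := map_sub _ _ _
    show trC (W₁.h y - W₂.h y) = _
    rw [e1, trC_apply, trC_apply, h₁.h y hy, h₂.h y hy, trE_one_smul, trE_one_smul]
  have h3 := van_one.1 (Van.pd_any hR ((h₁.sm.pow 2).sub (h₂.sm.pow 2)) hV k) x hx hx0
  have h4 : pd k (fun x => ρ₁ x ^ 2 - ρ₂ x ^ 2) x =
      pd k (fun x => ρ₁ x ^ 2) x - pd k (fun x => ρ₂ x ^ 2) x :=
    hR.pd_sub (h₁.sm.pow 2) (h₂.sm.pow 2) hx k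
  have h5 : ∀ {W : Model n 1} {ρ : E n → ℝ}, RM W ρ (HB z r) →
      pd k (fun x => ρ x ^ 2) x = 2 * ρ x * pd k ρ x := by
    intro W ρ h
    have h6 : (fun x => ρ x ^ 2) = fun x => ρ x * ρ x := by
      funext y
      ring
    rw [h6, pdm hR h.sm h.sm hx k]
    ring
  rw [h4, h5 h₁, h5 h₂, hv x hx hx0] at h3
  have h7 := h₂.pos x hx
  have h8 : 2 * ρ₂ x * (pd k ρ₁ x - pd k ρ₂ x) = 0 := by linarith
  rcases mul_eq_zero.1 h8 with h9 | h9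
  · linarith
  · linarith

end Vale.Agent.P088.R2.H850
end
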