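import Vale.Agent.P088.R2.H509.S3.Tv
import Vale.Agent.P088.R2.H455.S4.Core4
import Vale.Agent.P088.TM.Br2

/-!
# P088, stage 4: the fields of a boundary model on `V n`
-/

set_option linter.all false

open Bundle Manifold MeasureTheory Set Filter Topology
open scoped ContDiff Matrix

noncomputable section

namespace Vale.Agent.P088.R2.H850

open Vale.Agent.P088 Vale.Agent.P088.EYM
open Vale.Agent.P088.R2.H509.S3 (em)
open Vale.Agent.P088.LR (V MF)
open Vale.Agent.P088.LR.H158 (SmC)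
open Vale.Agent.P088.HY.T3 (Eb)

variable {n N : ℕ} [NeZero n]

/-- `G_i = h B_i - B_i^* h`. -/
def gE (L : LD n N) (i : Fin n) (y : E n) : EndF N :=
  L.h y * L.B i y - ContinuousLinearMap.adjoint (L.B i y) * L.h y

/-- On `Eb 0 r ∩ {x_0 ≥ 0}` the fields `(s, P, G)` are those of the local data `L` at `z + x`. -/
structure FV (L : LD n N) (z : E n) (r : ℝ) (s : MF n)
    (P : V n → Matrix (Fin N) (Fin N) ℂ) (G : Fin n → V n → Matrix (Fin N) (Fin N) ℂ) : Prop where
  s : ∀ x ∈ Eb (0 : V n) r, 0 ≤ x 0 → ∀ i j, s x i j = gg L.g i j (em z x)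
  P : ∀ x ∈ Eb (0 : V n) r, 0 ≤ x 0 → P x = S.ofE (L.h (em z x))
  G : ∀ i, ∀ x ∈ Eb (0 : V n) r, 0 ≤ x 0 → G i x = S.ofE (gE L i (em z x))

end Vale.Agent.P088.R2.H850
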