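import Vale.Agent.P088.R2.H850.AlN

/-!
# P088, stage 4: passage from `E n` (half space, endomorphisms) to `V n` (matrices)
-/

set_option linter.all false

open Bundle Manifold MeasureTheory Set Filter Topology
open scoped ContDiff Matrix

noncomputable section

namespace Vale.Agent.P088.R2.H850

open Vale.Agent.P088 Vale.Agent.P088.EYM
open Vale.Agent.P088.R2.H509.S3 (em me em_me me_em continuous_me has_me meL_ev)
open Vale.Agent.P088.LR (V MF pdm)
open Vale.Agent.P088.PJ (TP kp)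
open Vale.Agent.P088.S4 (pdv MoV)

variable {n N : ℕ} [NeZero n]

/-- The derivative in `V n` is the one sided derivative in `E n`. -/
theorem pdV {W : Type*} [NormedAddCommGroup W] [NormedSpace ℝ W] {z : E n} {O : Set (V n)}
    {D : Set (E n)} (hO : IsOpen O) (hD : RelOpen D) {F : V n → W} {f : E n → W}
    (hF : ContDiffOn ℝ ∞ F O) (he : ∀ x ∈ O, em z x ∈ D → F x = f (em z x)) {x : V n}
    (hx : x ∈ O) (hxD : em z x ∈ D) (i : Fin n) : LR.pd i F x = EYM.pd i f (em z x) := by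
  have hR : RelOpen ((me z ⁻¹' O) ∩ D) := hD.univ_inter (hO.preimage (continuous_me z))
  have hm : em z x ∈ (me z ⁻¹' O) ∩ D := ⟨by
    show me z (em z x) ∈ O
    rw [me_em]
    exact hx, hxD⟩
  have h1 : EqOn f (fun y => F (me z y)) ((me z ⁻¹' O) ∩ D) := fun y hy => by
    have := he (me z y) hy.1 (by rw [em_me]; exact hy.2)
    rw [em_me] at this
    exact this.symm
  rw [hR.pd_congr h1 hm i]
  have hd : DifferentiableAt ℝ F (me z (em z x)) := by
    rw [me_em]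
    exact ((hF x hx).contDiffAt (hO.mem_nhds hx)).differentiableAt (by simp)
  have h2 : HasFDerivAt (fun y => F (me z y))
      ((fderiv ℝ F (me z (em z x))).comp R2.H509.S3.meL) (em z x) :=
    hd.hasFDerivAt.comp (em z x) (has_me z (em z x))
  rw [EYM.pd_of_has (hD.subset hxD) h2.hasFDerivWithinAt i, ContinuousLinearMap.comp_apply,
    meL_ev, me_em]
  rfl

theorem pdV_smooth {W : Type*} [NormedAddCommGroup W] [NormedSpace ℝ W] {O : Set (V n)}
    (hO : IsOpen O) {F : V n → W} (hF : ContDiffOn ℝ ∞ F O) (i : Fin n) :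
    ContDiffOn ℝ ∞ (LR.pd i F) O := by
  have h1 : ContDiffOn ℝ ∞ (fderiv ℝ F) O := hF.fderiv_of_isOpen hO (by simp)
  exact h1.clm_apply contDiffOn_const

/-! ### Matrices of endomorphisms -/

theorem ofE_add (A B : EndF N) : S.ofE (A + B) = S.ofE A + S.ofE B := rfl

theorem ofE_sub (A B : EndF N) : S.ofE (A - B) = S.ofE A - S.ofE B := rfl

theorem ofE_zero : S.ofE (0 : EndF N) = 0 := rfl

theorem ofE_neg (A : EndF N) : S.ofE (-A) = -S.ofE A := rfl

theorem ofE_smul (c : ℂ) (A : EndF N) : S.ofE (c • A) = c • S.ofE A := rfl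

theorem ofE_rsmul (c : ℝ) (A : EndF N) : S.ofE (c • A) = (c : ℂ) • S.ofE A := by
  ext a b
  show (c • A (eN N b)) a = (c : ℂ) * (A (eN N b)) a
  rw [← Complex.real_smul]
  rfl

theorem ofE_mul (A B : EndF N) : S.ofE (A * B) = S.ofE A * S.ofE B := S.toE_inj (by
  rw [S.toE_ofE, S.toE_mul, S.toE_ofE, S.toE_ofE])

theorem ofE_one : S.ofE (1 : EndF N) = 1 := S.toE_inj (by rw [S.toE_ofE, S.toE_one])

theorem ofE_adj (A : EndF N) : S.ofE (ContinuousLinearMap.adjoint A) = (S.ofE A)ᴴ :=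
  S.toE_inj (by rw [S.toE_ofE, S.toE_star, S.toE_ofE])

theorem ofE_inj {A B : EndF N} (h : S.ofE A = S.ofE B) : A = B := by
  rw [← S.toE_ofE A, h, S.toE_ofE]

theorem ofE_sum {ι : Type*} (s : Finset ι) (A : ι → EndF N) :
    S.ofE (∑ i ∈ s, A i) = ∑ i ∈ s, S.ofE (A i) := by
  classical
  induction s using Finset.induction_on with
  | empty => rfl
  | insert a s ha ih => rw [Finset.sum_insert ha, Finset.sum_insert ha, ofE_add, ih]

theorem ofE_app (A : EndF N) (v : Fib N) (a : Fin N) :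
    (A v) a = (S.ofE A *ᵥ WithLp.ofLp v) a := by
  conv_lhs => rw [← S.toE_ofE A]
  rfl

/-- `U = ofE (f ∘ em)` on the part of `O` over `D`. -/
structure Tr (z : E n) (O : Set (V n)) (D : Set (E n)) (U : V n → Matrix (Fin N) (Fin N) ℂ)
    (f : E n → EndF N) : Prop where
  sm : ∀ a b, ContDiffOn ℝ ∞ (fun x => U x a b) O
  sf : ContDiffOn ℝ ∞ f D
  eq : ∀ x ∈ O, em z x ∈ D → U x = S.ofE (f (em z x))

section

variable {z : E n} {O : Set (V n)} {D : Set (E n)} {U U₁ U₂ : V n → Matrix (Fin N) (Fin N) ℂ}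
  {f f₁ f₂ : E n → EndF N}

theorem Tr.pdm (h : Tr z O D U f) (hO : IsOpen O) (hD : RelOpen D) (i : Fin n) :
    Tr z O D (LR.pdm i U) (EYM.pd i f) where
  sm := fun a b => pdV_smooth hO (h.sm a b) i
  sf := hD.pd_smooth h.sf i
  eq := fun x hx hxD => by
    ext a b
    show LR.pd i (fun y => U y a b) x = S.ent a b (EYM.pd i f (em z x))
    rw [← hD.pd_clm (S.ent a b) h.sf hxD i]
    exact pdV hO hD (h.sm a b) (fun y hy hyD => by rw [h.eq y hy hyD]; rfl) hx hxD i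

theorem Tr.mul (h₁ : Tr z O D U₁ f₁) (h₂ : Tr z O D U₂ f₂) :
    Tr z O D (fun x => U₁ x * U₂ x) (fun y => f₁ y * f₂ y) where
  sm := fun a b => by
    simp only [Matrix.mul_apply]
    exact ContDiffOn.sum fun c _ => (h₁.sm a c).mul (h₂.sm c b)
  sf := smooth_mul h₁.sf h₂.sf
  eq := fun x hx hxD => by rw [h₁.eq x hx hxD, h₂.eq x hx hxD, ofE_mul]

theorem Tr.add (h₁ : Tr z O D U₁ f₁) (h₂ : Tr z O D U₂ f₂) :
    Tr z O D (fun x => U₁ x + U₂ x) (fun y => f₁ y + f₂ y) where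
  sm := fun a b => (h₁.sm a b).add (h₂.sm a b)
  sf := h₁.sf.add h₂.sf
  eq := fun x hx hxD => by rw [h₁.eq x hx hxD, h₂.eq x hx hxD, ofE_add]

theorem Tr.sub (h₁ : Tr z O D U₁ f₁) (h₂ : Tr z O D U₂ f₂) :
    Tr z O D (fun x => U₁ x - U₂ x) (fun y => f₁ y - f₂ y) where
  sm := fun a b => (h₁.sm a b).sub (h₂.sm a b)
  sf := h₁.sf.sub h₂.sf
  eq := fun x hx hxD => by rw [h₁.eq x hx hxD, h₂.eq x hx hxD, ofE_sub]

theorem Tr.sum {ι : Type*} (s : Finset ι) {U : ι → V n → Matrix (Fin N) (Fin N) ℂ}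
    {f : ι → E n → EndF N} (h : ∀ i ∈ s, Tr z O D (U i) (f i)) :
    Tr z O D (fun x => ∑ i ∈ s, U i x) (fun y => ∑ i ∈ s, f i y) where
  sm := fun a b => by
    simp only [Matrix.sum_apply]
    exact ContDiffOn.sum fun i hi => (h i hi).sm a b
  sf := ContDiffOn.sum fun i hi => (h i hi).sf
  eq := fun x hx hxD => by
    rw [ofE_sum]
    exact Finset.sum_congr rfl fun i hi => (h i hi).eq x hx hxD

theorem Tr.smul {s : V n → ℝ} {g : E n → ℝ} (hs : ContDiffOn ℝ ∞ s O)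
    (hg : ContDiffOn ℝ ∞ g D) (he : ∀ x ∈ O, em z x ∈ D → s x = g (em z x))
    (h : Tr z O D U f) : Tr z O D (fun x => (s x : ℂ) • U x) (fun y => g y • f y) where
  sm := fun a b => by
    show ContDiffOn ℝ ∞ (fun x => (s x : ℂ) * U x a b) O
    exact (Complex.ofRealCLM.contDiff.comp_contDiffOn hs).mul (h.sm a b)
  sf := hg.smul h.sf
  eq := fun x hx hxD => by rw [h.eq x hx hxD, he x hx hxD, ofE_rsmul]

/-- The fields of local data on the part of `O` over `D`. -/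
structure FW (L : LD n N) (z : E n) (O : Set (V n)) (D : Set (E n)) (s : MF n)
    (P : V n → Matrix (Fin N) (Fin N) ℂ) (G : Fin n → V n → Matrix (Fin N) (Fin N) ℂ) :
    Prop where
  ss : ∀ i j, ContDiffOn ℝ ∞ (fun x => s x i j) O
  sP : ∀ a b, ContDiffOn ℝ ∞ (fun x => P x a b) O
  sG : ∀ i a b, ContDiffOn ℝ ∞ (fun x => G i x a b) O
  s : ∀ x ∈ O, em z x ∈ D → ∀ i j, s x i j = gg L.g i j (em z x)
  P : ∀ x ∈ O, em z x ∈ D → P x = S.ofE (L.h (em z x))
  G : ∀ i, ∀ x ∈ O, em z x ∈ D → G i x = S.ofE (gE L i (em z x))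

variable {L : LD n N} {s : MF n} {P : V n → Matrix (Fin N) (Fin N) ℂ}
  {G : Fin n → V n → Matrix (Fin N) (Fin N) ℂ}

theorem FW.trP (h : FW L z O D s P G) (ok : L.Ok D) : Tr z O D P L.h := ⟨h.sP, ok.h_smooth, h.P⟩

theorem FW.trG (h : FW L z O D s P G) (ok : L.Ok D) (i : Fin n) : Tr z O D (G i) (gE L i) :=
  ⟨h.sG i, gE_smooth ok i, h.G i⟩

theorem FW.trs (h : FW L z O D s P G) (hD : RelOpen D) (ok : L.Ok D) (i j : Fin n)
    (hU : Tr z O D U f) : Tr z O D (fun x => (s x i j : ℂ) • U x) (fun y => gg L.g i j y • f y) :=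
  Tr.smul (h.ss i j) (gg_sm hD ok i j) (fun x hx hxD => h.s x hx hxD i j) hU

theorem FW.trk (h : FW L z O D s P G) (hD : RelOpen D) (ok : L.Ok D) (i : Fin n) :
    Tr z O D (kp s G i) (fun y => ∑ j, gg L.g i j y • gE L j y) :=
  Tr.sum Finset.univ fun j _ => h.trs hD ok i j (h.trG ok j)

theorem FW.trT (h : FW L z O D s P G) (hD : RelOpen D) (ok : L.Ok D) (i j : Fin n) :
    Tr z O D (TP s P i j) (fun y => gg L.g i j y • L.h y) :=
  h.trs hD ok i j (h.trP ok)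

theorem FW.dq (h : FW L z O D s P G) (hO : IsOpen O) (hD : RelOpen D) (ok : L.Ok D)
    (hfr : ∀ v : Fib N, Sol L D (fun _ => v)) {x : V n} (hx : x ∈ O) (hxD : em z x ∈ D) :
    ∑ i, pdm i (kp s G i) x = 0 := by
  have h1 : ∀ i, pdm i (kp s G i) x =
      S.ofE (EYM.pd i (fun y => ∑ j, gg L.g i j y • gE L j y) (em z x)) := fun i =>
    ((h.trk hD ok i).pdm hO hD i).eq x hx hxD
  rw [Finset.sum_congr rfl fun i _ => h1 i, ← ofE_sum, dqE hD ok hfr hxD, ofE_zero]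

theorem ofE_inv {A : EndF N} (hA : IsUnit A) : S.ofE (Ring.inverse A) = (S.ofE A)⁻¹ := by
  refine (Matrix.inv_eq_right_inv ?_).symm
  rw [← ofE_mul, Ring.mul_inverse_cancel _ hA, ofE_one]

theorem FW.pe (h : FW L z O D s P G) (hO : IsOpen O) (hD : RelOpen D) (ok : L.Ok D)
    (hfr : ∀ v : Fib N, Sol L D (fun _ => v)) {x : V n} (hx : x ∈ O) (hxD : em z x ∈ D) :
    ∑ i, pdm i (fun y => ∑ j, (s y i j : ℂ) • pdm j P y) x =
    (1 / 2 : ℂ) • ∑ i, ∑ j, (s x i j : ℂ) •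
      ((pdm i P x - G i x) * (P x)⁻¹ * (pdm j P x + G j x)) := by
  have h1 : ∀ i, pdm i (fun y => ∑ j, (s y i j : ℂ) • pdm j P y) x =
      S.ofE (EYM.pd i (fun y => ∑ j, gg L.g i j y • EYM.pd j L.h y) (em z x)) := fun i =>
    ((Tr.sum Finset.univ fun j _ => h.trs hD ok i j ((h.trP ok).pdm hO hD j)).pdm hO hD i).eq
      x hx hxD
  rw [Finset.sum_congr rfl fun i _ => h1 i, ← ofE_sum, peE hD ok hfr hxD, ofE_rsmul, ofE_sum]
  have e0 : ((1 / 2 : ℝ) : ℂ) = (1 / 2 : ℂ) := by norm_num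
  rw [e0]
  congr 1
  refine Finset.sum_congr rfl fun i _ => ?_
  rw [ofE_sum]
  refine Finset.sum_congr rfl fun j _ => ?_
  rw [ofE_rsmul, ofE_mul, ofE_mul, ofE_sub, ofE_add, ofE_inv (h_unit ok hxD), ← h.s x hx hxD i j,
    ← h.P x hx hxD, ← h.G i x hx hxD, ← h.G j x hx hxD,
    ← ((h.trP ok).pdm hO hD i).eq x hx hxD, ← ((h.trP ok).pdm hO hD j).eq x hx hxD]

theorem FW.mo (h : FW L z O D s P G) (hO : IsOpen O) (hD : RelOpen D) (ok : L.Ok D)
    (hfr : ∀ v : Fib N, Sol L D (fun _ => v)) {Y : V n → Matrix (Fin N) (Fin N) ℂ}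
    {F : E n → EndF N} (hY : Tr z O D Y F) (hs : ∀ v : Fib N, Sol L D (fun y => F y v)) {x : V n}
    (hx : x ∈ O) (hxD : em z x ∈ D) : LR.U.MoC (TP s P) (kp s G) Y x = 0 := by
  have h1 : ∀ i, pdm i (fun y => ∑ j, TP s P i j y * pdm j Y y) x =
      S.ofE (EYM.pd i (fun y => ∑ j, gg L.g i j y • (L.h y * EYM.pd j F y)) (em z x)) := by
    intro i
    have e1 : (fun y => ∑ j, TP s P i j y * pdm j Y y) =
        fun y => ∑ j, (s y i j : ℂ) • (P y * pdm j Y y) := by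
      funext y
      refine Finset.sum_congr rfl fun j _ => ?_
      show ((s y i j : ℂ) • P y) * pdm j Y y = _
      rw [Matrix.smul_mul]
    rw [e1]
    exact ((Tr.sum Finset.univ fun j _ => h.trs hD ok i j
      ((h.trP ok).mul (hY.pdm hO hD j))).pdm hO hD i).eq x hx hxD
  have h2 : ∀ i, kp s G i x * pdm i Y x =
      S.ofE ((∑ j, gg L.g i j (em z x) • gE L j (em z x)) * EYM.pd i F (em z x)) := by
    intro i
    rw [ofE_mul, ← (h.trk hD ok i).eq x hx hxD, ← (hY.pdm hO hD i).eq x hx hxD]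
  have h3 := moF hD ok hfr hY.sf hs hxD
  show ∑ i, pdm i (fun y => ∑ j, TP s P i j y * pdm j Y y) x + ∑ i, kp s G i x * pdm i Y x = 0
  rw [Finset.sum_congr rfl fun i _ => h1 i, Finset.sum_congr rfl fun i _ => h2 i, ← ofE_sum,
    ← ofE_sum, ← ofE_add, h3, ofE_zero]

end

/-! ### Columns -/

/-- `u = c ∘ em` on the part of `O` over `D`, vector functions. -/
structure TrV (z : E n) (O : Set (V n)) (D : Set (E n)) (u : V n → Fin N → ℂ)
    (c : E n → Fib N) : Prop where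
  sm : ∀ a, ContDiffOn ℝ ∞ (fun x => u x a) O
  sf : ContDiffOn ℝ ∞ c D
  eq : ∀ x ∈ O, em z x ∈ D → u x = WithLp.ofLp (c (em z x))

section

variable {z : E n} {O : Set (V n)} {D : Set (E n)} {U : V n → Matrix (Fin N) (Fin N) ℂ}
  {f : E n → EndF N} {u : V n → Fin N → ℂ} {c : E n → Fib N}

/-- the component, as a real linear map -/
def cpt (a : Fin N) : Fib N →L[ℝ] ℂ := (EuclideanSpace.proj (𝕜 := ℂ) a).restrictScalars ℝ

theorem TrV.pdv (h : TrV z O D u c) (hO : IsOpen O) (hD : RelOpen D) (i : Fin n) :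
    TrV z O D (S4.pdv i u) (EYM.pd i c) where
  sm := fun a => pdV_smooth hO (h.sm a) i
  sf := hD.pd_smooth h.sf i
  eq := fun x hx hxD => by
    funext a
    show LR.pd i (fun y => u y a) x = cpt a (EYM.pd i c (em z x))
    rw [← hD.pd_clm (cpt a) h.sf hxD i]
    exact pdV hO hD (h.sm a) (fun y hy hyD => by rw [h.eq y hy hyD]; rfl) hx hxD i

theorem TrV.app (h : Tr z O D U f) (h' : TrV z O D u c) :
    TrV z O D (fun x => U x *ᵥ u x) (fun y => f y (c y)) where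
  sm := fun a => by
    show ContDiffOn ℝ ∞ (fun x => ∑ b, U x a b * u x b) O
    exact ContDiffOn.sum fun b _ => (h.sm a b).mul (h'.sm b)
  sf := smooth_eval h.sf h'.sf
  eq := fun x hx hxD => by
    rw [h.eq x hx hxD, h'.eq x hx hxD]
    funext a
    exact (ofE_app _ _ a).symm

theorem TrV.sum {ι : Type*} (s : Finset ι) {u : ι → V n → Fin N → ℂ} {c : ι → E n → Fib N}
    (h : ∀ i ∈ s, TrV z O D (u i) (c i)) :
    TrV z O D (fun x => ∑ i ∈ s, u i x) (fun y => ∑ i ∈ s, c i y) where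
  sm := fun a => by
    simp only [Finset.sum_apply]
    exact ContDiffOn.sum fun i hi => (h i hi).sm a
  sf := ContDiffOn.sum fun i hi => (h i hi).sf
  eq := fun x hx hxD => by
    funext a
    rw [Finset.sum_apply]
    have h1 : (WithLp.ofLp (∑ i ∈ s, c i (em z x)) : Fin N → ℂ) a =
        ∑ i ∈ s, (c i (em z x)) a := by
      simp
    rw [h1]
    exact Finset.sum_congr rfl fun i hi => congrFun ((h i hi).eq x hx hxD) a

variable {L : LD n N} {s : MF n} {P : V n → Matrix (Fin N) (Fin N) ℂ}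
  {G : Fin n → V n → Matrix (Fin N) (Fin N) ℂ}

/-- the operator on columns -/
theorem FW.mov (h : FW L z O D s P G) (hO : IsOpen O) (hD : RelOpen D) (ok : L.Ok D)
    (hfr : ∀ v : Fib N, Sol L D (fun _ => v)) (hu : TrV z O D u c) {x : V n}
    (hx : x ∈ O) (hxD : em z x ∈ D) :
    MoV (TP s P) (kp s G) u x = WithLp.ofLp (L.h (em z x) (Lop L c (em z x))) := by
  have h1 : ∀ i, S4.pdv i (fun y => ∑ j, TP s P i j y *ᵥ S4.pdv j u y) x =
      WithLp.ofLp (EYM.pd i (fun y => ∑ j, gg L.g i j y • L.h y (EYM.pd j c y)) (em z x)) := by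
    intro i
    have e1 : (fun y => ∑ j, gg L.g i j y • L.h y (EYM.pd j c y)) =
        fun y => ∑ j, (gg L.g i j y • L.h y) (EYM.pd j c y) := rfl
    rw [e1]
    exact ((TrV.sum Finset.univ fun j _ => TrV.app (h.trT hD ok i j)
      (hu.pdv hO hD j)).pdv hO hD i).eq x hx hxD
  have h2 : ∀ i, kp s G i x *ᵥ S4.pdv i u x =
      WithLp.ofLp ((∑ j, gg L.g i j (em z x) • gE L j (em z x)) (EYM.pd i c (em z x))) := by
    intro i
    exact (TrV.app (h.trk hD ok i) (hu.pdv hO hD i)).eq x hx hxD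
  have h3 := moE hD ok hfr hu.sf hxD
  show ∑ i, S4.pdv i (fun y => ∑ j, TP s P i j y *ᵥ S4.pdv j u y) x +
    ∑ i, kp s G i x *ᵥ S4.pdv i u x = _
  rw [Finset.sum_congr rfl fun i _ => h1 i, Finset.sum_congr rfl fun i _ => h2 i, ← h3]
  funext a
  simp

end

/-! ### `L1` -/

section

variable {z : E n} {O : Set (V n)} {D : Set (E n)} {L : LD n N} {s : MF n}
  {P : V n → Matrix (Fin N) (Fin N) ℂ} {G : Fin n → V n → Matrix (Fin N) (Fin N) ℂ}

theorem FW.l1 (h : FW L z O D s P G) (hO : IsOpen O) (hD : RelOpen D) (ok : L.Ok D)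
    (hfr : ∀ v : Fib N, Sol L D (fun _ => v)) {E' : Set (V n)} (hE : E' ⊆ O)
    (hE' : ∀ x ∈ E', em z x ∈ D) (ps : ∀ x ∈ O, (s x).PosDef) (hP : ∀ x ∈ O, (P x)ᴴ = P x)
    (pP : ∀ x ∈ O, ∀ v : Fin N → ℂ, v ≠ 0 → 0 < (star v ⬝ᵥ (P x *ᵥ v)).re)
    (hG : ∀ i, ∀ x ∈ O, (G i x)ᴴ = -G i x) : S4.L1 O E' s P G :=
  ⟨h.ss, h.sP, h.sG, ps, hP, pP, hG, fun x hx => h.dq hO hD ok hfr (hE hx) (hE' x hx),
    fun x hx => h.pe hO hD ok hfr (hE hx) (hE' x hx)⟩

theorem FW.hP (h : FW L z O D s P G) (ok : L.Ok D) {x : V n} (hx : x ∈ O) (hxD : em z x ∈ D) :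
    (P x)ᴴ = P x := by
  rw [h.P x hx hxD, ← ofE_adj, ok.h_adj _ hxD]

theorem FW.hG (h : FW L z O D s P G) (ok : L.Ok D) (i : Fin n) {x : V n} (hx : x ∈ O)
    (hxD : em z x ∈ D) : (G i x)ᴴ = -G i x := by
  rw [h.G i x hx hxD, ← ofE_adj, gE_skew ok i hxD, ofE_neg]

theorem inner_ofE (A : EndF N) (v : Fin N → ℂ) :
    (inner ℂ (WithLp.toLp 2 v : Fib N) (A (WithLp.toLp 2 v)) : ℂ) = star v ⬝ᵥ (S.ofE A *ᵥ v) := by
  rw [EuclideanSpace.inner_eq_star_dotProduct, dotProduct_comm]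
  congr 1
  funext a
  exact ofE_app A _ a

theorem FW.pP (h : FW L z O D s P G) (ok : L.Ok D) {x : V n} (hx : x ∈ O) (hxD : em z x ∈ D)
    {v : Fin N → ℂ} (hv : v ≠ 0) : 0 < (star v ⬝ᵥ (P x *ᵥ v)).re := by
  rw [h.P x hx hxD, ← inner_ofE]
  refine ok.h_pos _ hxD _ fun h0 => hv ?_
  have := congrArg WithLp.ofLp h0
  exact this

theorem sgg_eq (g : E n → Matrix (Fin n) (Fin n) ℝ) (y : E n) :
    (Matrix.of fun i j => gg g i j y) = √(g y).det • (g y)⁻¹ := by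
  ext i j
  rfl

theorem FW.ps (h : FW L z O D s P G) (ok : L.Ok D) {x : V n} (hx : x ∈ O) (hxD : em z x ∈ D) :
    (s x).PosDef := by
  have e : s x = √(L.g (em z x)).det • (L.g (em z x))⁻¹ := by
    rw [← sgg_eq]
    ext i j
    exact h.s x hx hxD i j
  rw [e]
  exact (ok.g_pos _ hxD).inv.smul (Real.sqrt_pos.2 (ok.g_pos _ hxD).det_pos)

/-- the boundary case -/
theorem FV.fw {r : ℝ} (hr : 0 < r) (hz : z 0 = 0) (h : FV L z r s P G)
    (ss : ∀ i j, ContDiffOn ℝ ∞ (fun x => s x i j) (Vale.Agent.P088.HY.T3.Eb 0 r))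
    (sP : ∀ a b, ContDiffOn ℝ ∞ (fun x => P x a b) (Vale.Agent.P088.HY.T3.Eb 0 r))
    (sG : ∀ i a b, ContDiffOn ℝ ∞ (fun x => G i x a b) (Vale.Agent.P088.HY.T3.Eb 0 r)) :
    FW L z (Vale.Agent.P088.HY.T3.Eb 0 r) (HB z r) s P G := by
  have key : ∀ x : V n, em z x ∈ HB z r → 0 ≤ x 0 := fun x hx => by
    have := hx.2
    rw [← R2.H509.S3.em_zero hz x]
    exact this
  exact ⟨ss, sP, sG, fun x hx hxD i j => h.s x hx (key x hxD) i j,
    fun x hx hxD => h.P x hx (key x hxD), fun i x hx hxD => h.G i x hx (key x hxD)⟩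

end

end Vale.Agent.P088.R2.H850
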