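import Vale.Agent.P088.R2.H850.FV

/-!
# P088, stage 4: the equations of the fields `(s, P, G)` of local data with constant solutions
-/

set_option linter.all false

open Bundle Manifold MeasureTheory Set Filter Topology
open scoped ContDiff Matrix

noncomputable section

namespace Vale.Agent.P088.R2.H850

open Vale.Agent.P088 Vale.Agent.P088.EYM

variable {n N : ℕ} [NeZero n] {D : Set (E n)} {L : LD n N}

theorem gE_smooth (ok : L.Ok D) (i : Fin n) : ContDiffOn ℝ ∞ (gE L i) D :=
  (smooth_mul ok.h_smooth (ok.B_smooth i)).sub (smooth_mul (smooth_adj (ok.B_smooth i)) ok.h_smooth)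

theorem gE_skew (ok : L.Ok D) (i : Fin n) {x : E n} (hx : x ∈ D) :
    ContinuousLinearMap.adjoint (gE L i x) = -gE L i x := by
  have h1 := ok.h_adj x hx
  have h2 : ContinuousLinearMap.adjoint (gE L i x) =
      ContinuousLinearMap.adjoint (L.h x * L.B i x) -
        ContinuousLinearMap.adjoint (ContinuousLinearMap.adjoint (L.B i x) * L.h x) :=
    map_sub ContinuousLinearMap.adjoint _ _
  rw [h2, adj_mulE, adj_mulE, h1, ContinuousLinearMap.adjoint_adjoint]
  unfold gE
  rw [neg_sub]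

/-- `∂_i h - G_i = 2 B_i^* h` -/
theorem pd_sub_gE (ok : L.Ok D) (i : Fin n) {x : E n} (hx : x ∈ D) :
    pd i L.h x - gE L i x = (2 : ℝ) • (ContinuousLinearMap.adjoint (L.B i x) * L.h x) := by
  rw [ok.compat x hx i, two_smul]
  unfold gE
  abel

/-- `∂_i h + G_i = 2 h B_i` -/
theorem pd_add_gE (ok : L.Ok D) (i : Fin n) {x : E n} (hx : x ∈ D) :
    pd i L.h x + gE L i x = (2 : ℝ) • (L.h x * L.B i x) := by
  rw [ok.compat x hx i, two_smul]
  unfold gE
  abel

theorem adj_smul (r : ℝ) (T : EndF N) : ContinuousLinearMap.adjoint (r • T) =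
    r • ContinuousLinearMap.adjoint T := adjRE.map_smul r T

theorem adj_W (j : Fin n) (x : E n) : ContinuousLinearMap.adjoint (dcvW L j x) =
    ∑ k, gg L.g j k x • ContinuousLinearMap.adjoint (L.B k x) := by
  have h1 : adjRE (dcvW L j x) = ∑ k, GM L.g x j k • adjRE (L.B k x) := by
    unfold dcvW
    rw [map_sum]
    exact Finset.sum_congr rfl fun k _ => adjRE.map_smul _ _
  exact h1

theorem GM_app (g : E n → Matrix (Fin n) (Fin n) ℝ) (x : E n) (i j : Fin n) :
    GM g x i j = gg g i j x := rfl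

theorem gg_symm (hD : RelOpen D) (ok : L.Ok D) {x : E n} (hx : x ∈ D) (i j : Fin n) :
    gg L.g i j x = gg L.g j i x := (dcv_gok hD ok.g_smooth ok.g_pos).symm x hx i j

theorem gg_sm (hD : RelOpen D) (ok : L.Ok D) (i j : Fin n) : ContDiffOn ℝ ∞ (gg L.g i j) D :=
  (dcv_gok hD ok.g_smooth ok.g_pos).smG i j

/-- `Z = ∑ g_ij B_i^* h B_j` -/
def ZE (L : LD n N) (x : E n) : EndF N :=
  ∑ i, ContinuousLinearMap.adjoint (L.B i x) * L.h x * dcvW L i x

theorem ZE_eq (hD : RelOpen D) (ok : L.Ok D) {x : E n} (hx : x ∈ D) :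
    ∑ i, ContinuousLinearMap.adjoint (dcvW L i x) * L.h x * L.B i x = ZE L x := by
  unfold ZE
  simp only [adj_W, Finset.sum_mul, smul_mul_assoc]
  simp only [dcvW, GM_app, Finset.mul_sum, mul_smul_comm]
  rw [Finset.sum_comm]
  exact Finset.sum_congr rfl fun i _ => Finset.sum_congr rfl fun j _ => by
    rw [gg_symm hD ok hx j i]

theorem sum_hW (hD : RelOpen D) (ok : L.Ok D) (hfr : ∀ v : Fib N, Sol L D (fun _ => v)) {x : E n}
    (hx : x ∈ D) : ∑ i, pd i (fun y => L.h y * dcvW L i y) x = ZE L x := by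
  have h1 := dcv_frame hD ok hfr hx
  have h2 : ∀ i, pd i (fun y => L.h y * dcvW L i y) x =
      L.h x * (pd i (dcvW L i) x + L.B i x * dcvW L i x) +
        ContinuousLinearMap.adjoint (L.B i x) * L.h x * dcvW L i x := by
    intro i
    rw [hD.pd_mul ok.h_smooth (dcvW_smooth hD ok i) hx i, ok.compat x hx i, mul_add, add_mul,
      ← mul_assoc]
    abel
  rw [Finset.sum_congr rfl fun i _ => h2 i, Finset.sum_add_distrib, ← Finset.mul_sum, h1, mul_zero,
    zero_add]
  rfl

theorem sum_Wh (hD : RelOpen D) (ok : L.Ok D) (hfr : ∀ v : Fib N, Sol L D (fun _ => v)) {x : E n}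
    (hx : x ∈ D) :
    ∑ i, pd i (fun y => ContinuousLinearMap.adjoint (dcvW L i y) * L.h y) x = ZE L x := by
  have h1 := congrArg (fun T => ContinuousLinearMap.adjoint T) (dcv_frame hD ok hfr hx)
  simp only [map_sum, map_add, map_zero] at h1
  have h2 : ∀ i, pd i (fun y => ContinuousLinearMap.adjoint (dcvW L i y) * L.h y) x =
      (ContinuousLinearMap.adjoint (pd i (dcvW L i) x) +
        ContinuousLinearMap.adjoint (L.B i x * dcvW L i x)) * L.h x +
        ContinuousLinearMap.adjoint (dcvW L i x) * L.h x * L.B i x := by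
    intro i
    rw [hD.pd_mul (smooth_adj (dcvW_smooth hD ok i)) ok.h_smooth hx i,
      hD.pd_adj (dcvW_smooth hD ok i) hx i, ok.compat x hx i, adj_mulE, mul_add, add_mul]
    simp only [mul_assoc]
    abel
  rw [Finset.sum_congr rfl fun i _ => h2 i, Finset.sum_add_distrib, ← Finset.sum_mul, h1, zero_mul,
    zero_add, ZE_eq hD ok hx]

theorem kE_eq (i : Fin n) (y : E n) : ∑ j, gg L.g i j y • gE L j y =
    L.h y * dcvW L i y - ContinuousLinearMap.adjoint (dcvW L i y) * L.h y := by
  unfold gE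
  rw [adj_W]
  simp only [dcvW, GM_app, smul_sub, Finset.sum_sub_distrib, Finset.sum_mul, Finset.mul_sum,
    smul_mul_assoc, mul_smul_comm]

/-- `∑ ∂_i κ_i = 0` -/
theorem dqE (hD : RelOpen D) (ok : L.Ok D) (hfr : ∀ v : Fib N, Sol L D (fun _ => v)) {x : E n}
    (hx : x ∈ D) : ∑ i, pd i (fun y => ∑ j, gg L.g i j y • gE L j y) x = 0 := by
  have h1 : ∀ i, pd i (fun y => ∑ j, gg L.g i j y • gE L j y) x =
      pd i (fun y => L.h y * dcvW L i y) x -
        pd i (fun y => ContinuousLinearMap.adjoint (dcvW L i y) * L.h y) x := by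
    intro i
    rw [show (fun y => ∑ j, gg L.g i j y • gE L j y) = fun y => L.h y * dcvW L i y -
      ContinuousLinearMap.adjoint (dcvW L i y) * L.h y from funext fun y => kE_eq i y]
    exact hD.pd_sub (smooth_mul ok.h_smooth (dcvW_smooth hD ok i))
      (smooth_mul (smooth_adj (dcvW_smooth hD ok i)) ok.h_smooth) hx i
  rw [Finset.sum_congr rfl fun i _ => h1 i, Finset.sum_sub_distrib, sum_hW hD ok hfr hx,
    sum_Wh hD ok hfr hx, sub_self]

theorem h_unit (ok : L.Ok D) {x : E n} (hx : x ∈ D) : IsUnit (L.h x) := by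
  have hi : Function.Injective (L.h x) := by
    rw [injective_iff_map_eq_zero]
    intro v hv
    by_contra hne
    have := ok.h_pos x hx v hne
    rw [hv, inner_zero_right] at this
    simp at this
  have h2 : Function.Injective (L.h x : Fib N →ₗ[ℂ] Fib N) := hi
  have h3 : IsUnit (L.h x : Fib N →ₗ[ℂ] Fib N) :=
    (LinearMap.isUnit_iff_ker_eq_bot _).2 (LinearMap.ker_eq_bot.2 h2)
  obtain ⟨u, hu⟩ := h3
  refine ⟨⟨L.h x, LinearMap.toContinuousLinearMap (↑u⁻¹ : Fib N →ₗ[ℂ] Fib N), ?_, ?_⟩, rfl⟩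
  · ext1 v
    show L.h x ((↑u⁻¹ : Fib N →ₗ[ℂ] Fib N) v) = v
    have h4 : ((u : Fib N →ₗ[ℂ] Fib N) * (↑u⁻¹ : Fib N →ₗ[ℂ] Fib N)) v = v := by
      rw [Units.mul_inv]
      rfl
    rw [hu] at h4
    exact h4
  · ext1 v
    show (↑u⁻¹ : Fib N →ₗ[ℂ] Fib N) (L.h x v) = v
    have h4 : ((↑u⁻¹ : Fib N →ₗ[ℂ] Fib N) * (u : Fib N →ₗ[ℂ] Fib N)) v = v := by
      rw [Units.inv_mul]
      rfl
    rw [hu] at h4
    exact h4

/-- the equation of `P` -/
theorem peE (hD : RelOpen D) (ok : L.Ok D) (hfr : ∀ v : Fib N, Sol L D (fun _ => v)) {x : E n}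
    (hx : x ∈ D) : ∑ i, pd i (fun y => ∑ j, gg L.g i j y • pd j L.h y) x =
      (1 / 2 : ℝ) • ∑ i, ∑ j, gg L.g i j x •
        ((pd i L.h x - gE L i x) * Ring.inverse (L.h x) * (pd j L.h x + gE L j x)) := by
  have h0 : ∀ i, EqOn (fun y => ∑ j, gg L.g i j y • pd j L.h y) (fun y => L.h y * dcvW L i y +
      ContinuousLinearMap.adjoint (dcvW L i y) * L.h y) D := by
    intro i y hy
    show ∑ j, gg L.g i j y • pd j L.h y = L.h y * dcvW L i y +
      ContinuousLinearMap.adjoint (dcvW L i y) * L.h y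
    rw [adj_W]
    simp only [dcvW, GM_app, Finset.sum_mul, Finset.mul_sum, smul_mul_assoc, mul_smul_comm]
    rw [← Finset.sum_add_distrib]
    refine Finset.sum_congr rfl fun j _ => ?_
    rw [ok.compat y hy j, smul_add]
    abel
  have h1 : ∀ i, pd i (fun y => ∑ j, gg L.g i j y • pd j L.h y) x =
      pd i (fun y => L.h y * dcvW L i y) x +
        pd i (fun y => ContinuousLinearMap.adjoint (dcvW L i y) * L.h y) x := by
    intro i
    rw [hD.pd_congr (h0 i) hx i]
    exact hD.pd_add (smooth_mul ok.h_smooth (dcvW_smooth hD ok i))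
      (smooth_mul (smooth_adj (dcvW_smooth hD ok i)) ok.h_smooth) hx i
  rw [Finset.sum_congr rfl fun i _ => h1 i, Finset.sum_add_distrib, sum_hW hD ok hfr hx,
    sum_Wh hD ok hfr hx]
  have h2 : ∀ i j, (pd i L.h x - gE L i x) * Ring.inverse (L.h x) * (pd j L.h x + gE L j x) =
      (4 : ℝ) • (ContinuousLinearMap.adjoint (L.B i x) * L.h x * L.B j x) := by
    intro i j
    rw [pd_sub_gE ok i hx, pd_add_gE ok j hx, smul_mul_assoc, smul_mul_assoc, mul_smul_comm,
      smul_smul]
    have h3 : ContinuousLinearMap.adjoint (L.B i x) * L.h x * Ring.inverse (L.h x) *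
        (L.h x * L.B j x) = ContinuousLinearMap.adjoint (L.B i x) * L.h x * L.B j x := by
      rw [mul_assoc (ContinuousLinearMap.adjoint (L.B i x)) (L.h x),
        Ring.mul_inverse_cancel _ (h_unit ok hx), mul_one, ← mul_assoc]
    rw [h3]
    norm_num
  have h4 : (1 / 2 : ℝ) • ∑ i, ∑ j, gg L.g i j x •
      ((pd i L.h x - gE L i x) * Ring.inverse (L.h x) * (pd j L.h x + gE L j x)) =
      (2 : ℝ) • ZE L x := by
    unfold ZE
    simp only [h2, dcvW, GM_app, Finset.mul_sum, mul_smul_comm, Finset.smul_sum, smul_smul]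
    refine Finset.sum_congr rfl fun i _ => Finset.sum_congr rfl fun j _ => ?_
    congr 1
    ring
  rw [h4, two_smul]

/-- the operator `M` on sections -/
theorem moE (hD : RelOpen D) (ok : L.Ok D) (hfr : ∀ v : Fib N, Sol L D (fun _ => v))
    {u : E n → Fib N} (hu : ContDiffOn ℝ ∞ u D) {x : E n} (hx : x ∈ D) :
    ∑ i, pd i (fun y => ∑ j, gg L.g i j y • L.h y (pd j u y)) x +
      ∑ i, (∑ j, gg L.g i j x • gE L j x) (pd i u x) = L.h x (Lop L u x) := by
  rw [dcv_lop hD ok hfr hu hx]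
  have hU : ∀ i, ContDiffOn ℝ ∞ (dcvF L i u) D := fun i => dcvF_smooth hD ok i hu
  have h1 : ∀ i, pd i (fun y => ∑ j, gg L.g i j y • L.h y (pd j u y)) x =
      L.h x (pd i (dcvF L i u) x) + (ContinuousLinearMap.adjoint (L.B i x) * L.h x) (dcvF L i u x) +
        L.h x (L.B i x (dcvF L i u x)) := by
    intro i
    have e1 : (fun y => ∑ j, gg L.g i j y • L.h y (pd j u y)) = fun y => L.h y (dcvF L i u y) := by
      funext y
      unfold dcvF
      rw [map_sum]
      refine Finset.sum_congr rfl fun j _ => ?_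
      exact (ContinuousLinearMap.map_smul_of_tower (L.h y) _ _).symm
    rw [e1, hD.pd_eval ok.h_smooth (hU i) (by simp) (by simp) hx i, ok.compat x hx i]
    show L.h x (pd i (dcvF L i u) x) + ((ContinuousLinearMap.adjoint (L.B i x) * L.h x)
      (dcvF L i u x) + (L.h x * L.B i x) (dcvF L i u x)) = _
    rw [← add_assoc]
    rfl
  have h2 : ∀ i, (∑ j, gg L.g i j x • gE L j x) (pd i u x) = L.h x (dcvW L i x (pd i u x)) -
      (ContinuousLinearMap.adjoint (dcvW L i x) * L.h x) (pd i u x) := by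
    intro i
    rw [kE_eq]
    rfl
  rw [Finset.sum_congr rfl fun i _ => h1 i, Finset.sum_congr rfl fun i _ => h2 i,
    Finset.sum_add_distrib, Finset.sum_add_distrib, Finset.sum_sub_distrib]
  have h3 : ∑ i, (ContinuousLinearMap.adjoint (dcvW L i x) * L.h x) (pd i u x) =
      ∑ i, (ContinuousLinearMap.adjoint (L.B i x) * L.h x) (dcvF L i u x) := by
    have e1 : ∀ i, (ContinuousLinearMap.adjoint (dcvW L i x) * L.h x) (pd i u x) =
        ∑ k, gg L.g i k x • ContinuousLinearMap.adjoint (L.B k x) (L.h x (pd i u x)) := by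
      intro i
      rw [adj_W]
      show (∑ k, gg L.g i k x • ContinuousLinearMap.adjoint (L.B k x)) (L.h x (pd i u x)) = _
      simp only [sum_apply, smul_apply]
    have e2 : ∀ i, (ContinuousLinearMap.adjoint (L.B i x) * L.h x) (dcvF L i u x) =
        ∑ k, gg L.g i k x • ContinuousLinearMap.adjoint (L.B i x) (L.h x (pd k u x)) := by
      intro i
      show ContinuousLinearMap.adjoint (L.B i x) (L.h x (dcvF L i u x)) = _
      unfold dcvF
      rw [map_sum, map_sum]
      refine Finset.sum_congr rfl fun k _ => ?_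
      have e3 : L.h x (GM L.g x i k • pd k u x) = GM L.g x i k • L.h x (pd k u x) :=
        ContinuousLinearMap.map_smul_of_tower _ _ _
      rw [e3]
      exact ContinuousLinearMap.map_smul_of_tower _ _ _
    rw [Finset.sum_congr rfl fun i _ => e1 i, Finset.sum_congr rfl fun i _ => e2 i,
      Finset.sum_comm]
    refine Finset.sum_congr rfl fun i _ => Finset.sum_congr rfl fun k _ => ?_
    rw [gg_symm hD ok hx k i]
  have h4 : ∑ i, L.h x (dcvW L i x (pd i u x)) = L.h x (∑ j, ∑ k, GM L.g x j k •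
      L.B j x (pd k u x)) := by
    rw [← map_sum]
    congr 1
    simp only [dcvW_apply]
    rw [Finset.sum_comm]
    refine Finset.sum_congr rfl fun i _ => Finset.sum_congr rfl fun k _ => ?_
    rw [GM_app, GM_app, gg_symm hD ok hx k i]
  have h5 : ∑ i, L.h x (L.B i x (dcvF L i u x)) = L.h x (∑ j, ∑ k, GM L.g x j k •
      L.B j x (pd k u x)) := by
    rw [← map_sum]
    congr 1
    refine Finset.sum_congr rfl fun i _ => ?_
    unfold dcvF
    rw [map_sum]
    exact Finset.sum_congr rfl fun k _ => ContinuousLinearMap.map_smul_of_tower _ _ _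
  rw [h3, h4, h5]
  unfold LopR
  have e9 : L.h x (∑ j, pd j (fun y => ∑ k, GM L.g y j k • pd k u y) x) =
      ∑ i, L.h x (pd i (dcvF L i u) x) := map_sum _ _ _
  rw [two_smul, map_add, map_add, e9]
  abel

/-- the operator `M` on endomorphisms -/
theorem moF (hD : RelOpen D) (ok : L.Ok D) (hfr : ∀ v : Fib N, Sol L D (fun _ => v))
    {F : E n → EndF N} (hF : ContDiffOn ℝ ∞ F D) (hs : ∀ v : Fib N, Sol L D (fun y => F y v))
    {x : E n} (hx : x ∈ D) :
    ∑ i, pd i (fun y => ∑ j, gg L.g i j y • (L.h y * pd j F y)) x +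
      ∑ i, (∑ j, gg L.g i j x • gE L j x) * pd i F x = 0 := by
  ext1 v
  have h0 := moE hD ok hfr (hs v).1 hx
  rw [(hs v).2 x hx, map_zero] at h0
  have hv : ∀ j, ∀ y ∈ D, pd j (fun y => F y v) y = pd j F y v := by
    intro j y hy
    rw [hD.pd_eval hF (contDiffOn_const (c := v)) (m := ∞) (m' := ∞) (by simp) (by simp) hy j,
      pd_const, map_zero, zero_add]
  have h1 : ∀ i, pd i (fun y => ∑ j, gg L.g i j y • L.h y (pd j (fun y => F y v) y)) x =
      pd i (fun y => ∑ j, gg L.g i j y • (L.h y * pd j F y)) x v := by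
    intro i
    have hsm : ContDiffOn ℝ ∞ (fun y => ∑ j, gg L.g i j y • (L.h y * pd j F y)) D :=
      ContDiffOn.sum fun j _ => (gg_sm hD ok i j).smul (smooth_mul ok.h_smooth (hD.pd_smooth hF j))
    have e1 := hD.pd_eval hsm (contDiffOn_const (c := v)) (m := ∞) (m' := ∞) (by simp) (by simp)
      hx i
    rw [pd_const, map_zero, zero_add] at e1
    rw [← e1]
    refine hD.pd_congr (fun y hy => ?_) hx i
    simp only [sum_apply, smul_apply]
    refine Finset.sum_congr rfl fun j _ => ?_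
    rw [hv j y hy]
    rfl
  have h2 : ∀ i, (∑ j, gg L.g i j x • gE L j x) (pd i (fun y => F y v) x) =
      ((∑ j, gg L.g i j x • gE L j x) * pd i F x) v := by
    intro i
    rw [hv i x hx]
    rfl
  rw [Finset.sum_congr rfl fun i _ => h1 i, Finset.sum_congr rfl fun i _ => h2 i] at h0
  simpa only [add_apply, sum_apply, zero_apply] using h0

end Vale.Agent.P088.R2.H850
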