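import Vale.Agent.P088.TM.H275N
import Vale.Agent.P088.R2.H509.S3.Bm
import Vale.Agent.P088.H4.H823F

/-!
# P088, stage 3, row JET: all derivatives of the boundary models of two manifolds agree
-/

set_option linter.all false

open Bundle Manifold MeasureTheory Set Filter Topology
open scoped ContDiff

noncomputable section

namespace Vale.Agent.P088.R2.H850

open Vale.Agent.P088 Vale.Agent.P088.EYM Vale.Agent.P088.TM
open Vale.Agent.P088.R2.H509.S3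

universe u

variable {n N : ℕ} [NeZero n] {M₁ M₂ : Type u}
  [TopologicalSpace M₁] [ChartedSpace (EuclideanHalfSpace n) M₁] [IsManifold (𝓡∂ n) ∞ M₁]
  [TopologicalSpace M₂] [ChartedSpace (EuclideanHalfSpace n) M₂] [IsManifold (𝓡∂ n) ∞ M₂]
  [MeasurableSpace M₁] [MeasurableSpace M₂]
  {P : One n N M₁} {Q : One n N M₂} {G : Gl M₁ M₂} {e₁ : E n → M₁} {e₂ : E n → M₂}
  {L₁ L₂ : LD n N} {D₀ : Set (E n)}
  [T2Space M₁] [CompactSpace M₁] [ConnectedSpace M₁] [BorelSpace M₁]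
  [T2Space M₂] [CompactSpace M₂] [ConnectedSpace M₂] [BorelSpace M₂]

/-- The hypotheses of the boundary determination, and its conclusion. -/
structure PJet (z : E n) (r : ℝ) (W₁ W₂ : Model n N) : Prop where
  h1 : ∀ x ∈ HB z r, x 0 = 0 → W₁.h x = 1 ∧ W₂.h x = 1
  c : ∀ x ∈ HB z r, x 0 = 0 → ∀ a, W₁.c a x = W₂.c a x
  fv : ∀ x ∈ HB z r, x 0 = 0 → ∀ v : Fib N,
    flux W₁.toLD 0 (fun _ => v) x = flux W₂.toLD 0 (fun _ => v) x
  fc : ∀ x ∈ HB z r, x 0 = 0 → ∀ a, flux W₁.toLD 0 (W₁.c a) x = flux W₂.toLD 0 (W₂.c a) x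
  jet : H.JetAll W₁ W₂ (HB z r)

/-- All derivatives of two boundary models agree. -/
theorem pcJet (hP : PC P Q G e₁ e₂ L₁ L₂ D₀) (hG : G.Ok n N) (hS : SameD P Q G) (hn : 3 ≤ n)
    (hN : 0 < N) {z : E n} {r₀ : ℝ} {j0 : Fin N}
    {s : Fin N → (M₁ → Fib N) × (M₂ → Fib N)} {t : Fin n → (M₁ → Fib N) × (M₂ → Fib N)}
    {W₁ W₂ : Model n N} {X₁ Y₁ X₂ Y₂ : E n → E n} {S₁ S₂ : E n → EndF N} {D₁ D₂ : Set (E n)}
    (hs : ∀ j, s j ∈ PP P Q G) (ht : ∀ a, t a ∈ PP P Q G)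
    (b1 : BdM e₁ L₁ D₀ z r₀ j0 W₁ D₁ X₁ Y₁ S₁ (fun j => (s j).1) (fun a => (t a).1))
    (b2 : BdM e₂ L₂ D₀ z r₀ j0 W₂ D₂ X₂ Y₂ S₂ (fun j => (s j).2) (fun a => (t a).2))
    {r : ℝ} (hr : 0 < r) (hrr : r < r₀) : PJet z r W₁ W₂ := by
  obtain ⟨⟨C, hC⟩, hdat⟩ := pcERel hP hG hS b1 b2 r hr hrr
  have hHB : HB z r ⊆ HB z r₀ := inter_subset_inter_left _ (Metric.ball_subset_ball hrr.le)
  have hcomb : ∀ (v : Fib N) (F : Finset (Fin N)), (∑ j ∈ F, v j • s j) ∈ PP P Q G := by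
    intro v F
    induction F using Finset.induction_on with
    | empty =>
      have := pp_lin hG 0 0 (hs ⟨0, hN⟩) (hs ⟨0, hN⟩)
      simpa using this
    | insert j F hj ih =>
      rw [Finset.sum_insert hj]
      have := pp_lin hG (v j) 1 (hs j) ih
      simpa using this
  have d1const : ∀ v : Fib N, ∀ y ∈ HB z r₀,
      Ring.inverse (S₁ (Y₁ y)) ((∑ j, v j • s j).1 (e₁ (Y₁ y))) = v := by
    intro v y hy
    have hx := b1.pull.diffeo.mapsY hy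
    have h1 := b1.frame _ hx v
    have h2 : (∑ j, v j • s j).1 (e₁ (Y₁ y)) = S₁ (Y₁ y) v := by
      rw [h1]
      simp [Prod.fst_sum, Finset.sum_apply]
    rw [h2]
    show (Ring.inverse (S₁ (Y₁ y)) * S₁ (Y₁ y)) v = v
    rw [Ring.inverse_mul_cancel _ (b1.pull.unit _ hx)]
    rfl
  have d2const : ∀ v : Fib N, ∀ y ∈ HB z r₀,
      Ring.inverse (S₂ (Y₂ y)) ((∑ j, v j • s j).2 (e₂ (Y₂ y))) = v := by
    intro v y hy
    have hx := b2.pull.diffeo.mapsY hy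
    have h1 := b2.frame _ hx v
    have h2 : (∑ j, v j • s j).2 (e₂ (Y₂ y)) = S₂ (Y₂ y) v := by
      rw [h1]
      simp [Prod.snd_sum, Finset.sum_apply]
    rw [h2]
    show (Ring.inverse (S₂ (Y₂ y)) * S₂ (Y₂ y)) v = v
    rw [Ring.inverse_mul_cancel _ (b2.pull.unit _ hx)]
    rfl
  have d1coord : ∀ a, ∀ y ∈ HB z r₀,
      Ring.inverse (S₁ (Y₁ y)) ((t a).1 (e₁ (Y₁ y))) = W₁.c a y := by
    intro a y hy
    have hx := b1.pull.diffeo.mapsY hy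
    rw [b1.coord _ hx a, b1.pull.diffeo.inv2 y hy]
    show (Ring.inverse (S₁ (Y₁ y)) * S₁ (Y₁ y)) _ = _
    rw [Ring.inverse_mul_cancel _ (b1.pull.unit _ hx)]
    rfl
  have d2coord : ∀ a, ∀ y ∈ HB z r₀,
      Ring.inverse (S₂ (Y₂ y)) ((t a).2 (e₂ (Y₂ y))) = W₂.c a y := by
    intro a y hy
    have hx := b2.pull.diffeo.mapsY hy
    rw [b2.coord _ hx a, b2.pull.diffeo.inv2 y hy]
    show (Ring.inverse (S₂ (Y₂ y)) * S₂ (Y₂ y)) _ = _
    rw [Ring.inverse_mul_cancel _ (b2.pull.unit _ hx)]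
    rfl
  have hR := CNear_relHB z r
  have hfluxv : ∀ x ∈ HB z r, x 0 = 0 → ∀ v : Fib N,
      flux W₁.toLD 0 (fun _ => v) x = flux W₂.toLD 0 (fun _ => v) x := by
    intro x hx hx0 v
    have h1 := (hdat _ (hcomb v Finset.univ) x hx hx0).2
    rw [CNear_flux_congr hR W₁.toLD (fun y hy => d1const v y (hHB hy)) 0 hx,
      CNear_flux_congr hR W₂.toLD (fun y hy => d2const v y (hHB hy)) 0 hx] at h1
    exact h1
  have hc : ∀ x ∈ HB z r, x 0 = 0 → ∀ a, W₁.c a x = W₂.c a x := by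
    intro x hx hx0 a
    have h1 := (hdat _ (ht a) x hx hx0).1
    have h2 := d1coord a x (hHB hx)
    have h3 := d2coord a x (hHB hx)
    rw [← h2, ← h3]
    exact h1
  have hfluxc : ∀ x ∈ HB z r, x 0 = 0 → ∀ a,
      flux W₁.toLD 0 (W₁.c a) x = flux W₂.toLD 0 (W₂.c a) x := by
    intro x hx hx0 a
    have h1 := (hdat _ (ht a) x hx hx0).2
    rw [CNear_flux_congr hR W₁.toLD (fun y hy => d1coord a y (hHB hy)) 0 hx,
      CNear_flux_congr hR W₂.toLD (fun y hy => d2coord a y (hHB hy)) 0 hx] at h1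
    exact h1
  have hh : ∀ x ∈ HB z r, x 0 = 0 → W₁.h x = 1 ∧ W₂.h x = 1 := fun x hx hx0 =>
    ⟨pcH_eq hP.b1 b1 (hHB hx) hx0, pcH_eq hP.b2 b2 (hHB hx) hx0⟩
  have m1 : H.IsMod j0 W₁ (HB z r) :=
    ⟨cERel_okMono b1.model.ok hHB, fun v => cERel_solMono (b1.model.frame v) hHB,
      fun a => cERel_solMono (b1.model.sol a) hHB, fun a x hx => b1.model.re a x (hHB hx)⟩
  have m2 : H.IsMod j0 W₂ (HB z r) :=
    ⟨cERel_okMono b2.model.ok hHB, fun v => cERel_solMono (b2.model.frame v) hHB,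
      fun a => cERel_solMono (b2.model.sol a) hHB, fun a x hx => b2.model.re a x (hHB hx)⟩
  exact ⟨hh, hc, hfluxv, hfluxc,
    H.dAll n N j0 W₁ W₂ z r C hn hr b1.z0 m1 m2 hh hc hfluxv hfluxc hC⟩

end Vale.Agent.P088.R2.H850
end
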