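import Vale.Agent.P088.R2.H850.SpN

/-!
# P088, stage 4: frames and coordinates near a boundary point, with normalised normal derivatives
-/

set_option linter.all false

open Bundle Manifold MeasureTheory Set Filter Topology
open scoped ContDiff Matrix

noncomputable section

namespace Vale.Agent.P088.R2.H850

open Vale.Agent.P088 Vale.Agent.P088.EYM Vale.Agent.P088.TM

universe u

section Span

variable {n N : ℕ} [NeZero n] {M₁ M₂ : Type u}
  [TopologicalSpace M₁] [ChartedSpace (EuclideanHalfSpace n) M₁] [IsManifold (𝓡∂ n) ∞ M₁]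
  [TopologicalSpace M₂] [ChartedSpace (EuclideanHalfSpace n) M₂] [IsManifold (𝓡∂ n) ∞ M₂]
  [MeasurableSpace M₁] [MeasurableSpace M₂]
  {P : One n N M₁} {Q : One n N M₂} {G : Gl M₁ M₂} {e₁ : E n → M₁} {e₂ : E n → M₂}
  {L₁ L₂ : LD n N} {D₀ : Set (E n)}

/-- The normal derivatives at `z` of the solutions which vanish near `z` fill the fibre. -/
def Sp (P : One n N M₁) (Q : One n N M₂) (G : Gl M₁ M₂) (e₁ : E n → M₁) (e₂ : E n → M₂)
    (z : E n) (r : ℝ) : Prop :=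
  ∀ v : Fib N, ∃ u ∈ Zr P Q G e₁ e₂ (HB z r), nd e₁ u z = v

theorem Sp.mono {z : E n} {r r' : ℝ} (h : Sp P Q G e₁ e₂ z r) (hr : r' ≤ r) :
    Sp P Q G e₁ e₂ z r' := by
  intro v
  obtain ⟨u, hu, huv⟩ := h v
  exact ⟨u, ⟨hu.1, fun y hy h0 => hu.2 y ⟨Metric.ball_subset_ball hr hy.1, hy.2⟩ h0⟩, huv⟩

variable [T2Space M₁] [CompactSpace M₁] [ConnectedSpace M₁] [BorelSpace M₁]
  [T2Space M₂] [CompactSpace M₂] [ConnectedSpace M₂] [BorelSpace M₂]

/-- Equality of the fluxes of a pair of solutions which vanish on the flat part. -/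
theorem nd_two (hP : PC P Q G e₁ e₂ L₁ L₂ D₀) (hG : G.Ok n N) (hS : SameD P Q G)
    {u : (M₁ → Fib N) × (M₂ → Fib N)} {z : E n} {r : ℝ} (hr : 0 < r) (hz0 : z 0 = 0)
    (hsub : HB z r ⊆ D₀) (hu : u ∈ Zr P Q G e₁ e₂ (HB z r)) :
    gg L₁.g 0 0 z • pd 0 (fun y => u.1 (e₁ y)) z = gg L₂.g 0 0 z • pd 0 (fun y => u.2 (e₂ y)) z := by
  have b1 := hP.b1
  have b2 := hP.b2
  have hro : RelOpen (HB z r) := cStart_relOpen_HB z r
  have hzm : z ∈ HB z r := ⟨Metric.mem_ball_self hr, by show 0 ≤ z 0; rw [hz0]⟩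
  obtain ⟨hs1, hs2⟩ := pp_sol hP hu.1
  obtain ⟨f, f', hff, hPu, hQu⟩ := id hu.1
  have hfl := aFlux n N L₁ L₂ z r hr hz0 (cStart_Ok_mono b1.ok hsub)
    (cStart_Ok_mono b2.ok hsub) (fun y hy _ => by rw [b1.h1 y (hsub hy), b2.h1 y (hsub hy)]) _ _
    (cStart_Sol_mono hs1 hsub) (cStart_Sol_mono hs2 hsub) (fun c hc => by
      obtain ⟨hc1, hc2, hc3⟩ := hc
      have hK : IsCompact (tsupport c ∩ Hs n) := IsCompact.inter_right hc2 isClosed_Hs
      obtain ⟨w, w', hww, hw, hw', hwD, hwD', -, hws, hws'⟩ := hP.lift hG hro hsub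
        hc1.contDiffOn hK (fun y hy => ⟨hc3 hy.1, hy.2⟩) (fun y hy hyK => by
          by_contra hne'
          exact hyK ⟨subset_tsupport _ hne', hy.2⟩)
      have hwsD : tsupport w ⊆ e₁ '' (HB z r) :=
        hws.trans (image_mono fun y hy => ⟨hc3 hy.1, hy.2⟩)
      have hwsD' : tsupport w' ⊆ e₂ '' (HB z r) :=
        hws'.trans (image_mono fun y hy => ⟨hc3 hy.1, hy.2⟩)
      have e1 := PC.dataE hG hS hu.1 hww
      have e2 := b1.en (HB z r) hro hsub w u.1 hw hPu.smooth (Or.inl hwsD)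
      have e3 := b2.en (HB z r) hro hsub w' u.2 hw' hQu.smooth (Or.inl hwsD')
      have e4 : En L₁ (HB z r) c (fun y => u.1 (e₁ y)) =
          En L₁ (HB z r) (fun y => w (e₁ y)) (fun y => u.1 (e₁ y)) :=
        cStart_En_congr hro fun y hy => (hwD y hy).symm
      have e5 : En L₂ (HB z r) c (fun y => u.2 (e₂ y)) =
          En L₂ (HB z r) (fun y => w' (e₂ y)) (fun y => u.2 (e₂ y)) :=
        cStart_En_congr hro fun y hy => (hwD' y hy).symm
      rw [e4, e5, ← e2, ← e3]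
      exact e1) z hzm hz0
  rwa [cStart_flux hro (hs1.1.mono hsub) (fun y hy h0 => (hu.2 y hy h0).1) hzm hz0,
    cStart_flux hro (hs2.1.mono hsub) (fun y hy h0 => (hu.2 y hy h0).2) hzm hz0] at hfl

/-- Frames and coordinates near a boundary point: `N` frame solutions, `n N` coordinate
solutions. -/
theorem pcStartN (hP : PC P Q G e₁ e₂ L₁ L₂ D₀) (hG : G.Ok n N) (hS : SameD P Q G)
    {z : E n} {R : ℝ} (hz0 : z 0 = 0) (hR : 0 < R) (hsub : HB z R ⊆ D₀)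
    (hSp : Sp P Q G e₁ e₂ z R) :
    ∃ (r : ℝ) (s : Fin N → (M₁ → Fib N) × (M₂ → Fib N))
      (t : Fin n → Fin N → (M₁ → Fib N) × (M₂ → Fib N)), 0 < r ∧ r ≤ R ∧
      (∀ j, s j ∈ PP P Q G) ∧ (∀ a j, t a j ∈ PP P Q G) ∧
      (∀ y ∈ HB z r, y 0 = 0 →
        (∀ j, (s j).1 (e₁ y) = EuclideanSpace.single j 1 ∧
          (s j).2 (e₂ y) = EuclideanSpace.single j 1) ∧
        ∀ a j, (t a j).1 (e₁ y) = EuclideanSpace.single j (y a : ℂ) ∧
          (t a j).2 (e₂ y) = EuclideanSpace.single j (y a : ℂ)) ∧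
      (∀ j, pd 0 (fun y => (s j).1 (e₁ y)) z = 0) ∧
      (∀ a j, pd 0 (fun y => (t a j).1 (e₁ y)) z =
        if a = 0 then EuclideanSpace.single j 1 else 0) ∧
      ∀ j, 0 < (pd 0 (fun y => (t 0 j).2 (e₂ y)) z j).re := by
  have b1 := hP.b1
  have b2 := hP.b2
  have hzm : z ∈ HB z R := ⟨Metric.mem_ball_self hR, by show 0 ≤ z 0; rw [hz0]⟩
  have hzD : z ∈ D₀ := hsub hzm
  -- solutions with prescribed values
  have hρR : Metric.closedBall z (R / 2) ∩ Hs n ⊆ D₀ := fun y hy =>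
    hsub ⟨Metric.mem_ball.2 ((Metric.mem_closedBall.1 hy.1).trans_lt (by linarith only [hR])), hy.2⟩
  have hex : ∀ c : E n → Fib N, ContDiff ℝ ∞ c → ∃ t ∈ PP P Q G, ∀ y ∈ HB z (R / 4), y 0 = 0 →
      t.1 (e₁ y) = c y ∧ t.2 (e₂ y) = c y := by
    intro c hc
    obtain ⟨g, g', hg, hg1, -⟩ := hP.data hG (by positivity : 0 < R / 2) hρR hc
    obtain ⟨v₁, -, v₂, -, hv₁, -, hv₂, -, -⟩ := hS g g g' g' hg hg
    refine ⟨(v₁, v₂), ⟨g, g', hg, hv₁, hv₂⟩, fun y hy hy0 => ?_⟩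
    have hyD : y ∈ D₀ := hρR ⟨Metric.mem_closedBall.2
      ((Metric.mem_ball.1 hy.1).le.trans (by linarith only [hR])), hy.2⟩
    have hy' : y ∈ HB z (R / 2 / 2) := ⟨Metric.ball_subset_ball (by linarith only [hR]) hy.1, hy.2⟩
    exact ⟨(hv₁.boundary _ ((b1.bd y hyD).2 hy0)).trans (hg1 y hy').1,
      (hv₂.boundary _ ((b2.bd y hyD).2 hy0)).trans (hg1 y hy').2⟩
  -- with prescribed normal derivative
  have hex' : ∀ (c : E n → Fib N) (v : Fib N), ContDiff ℝ ∞ c → ∃ t ∈ PP P Q G,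
      (∀ y ∈ HB z (R / 4), y 0 = 0 → t.1 (e₁ y) = c y ∧ t.2 (e₂ y) = c y) ∧
      pd 0 (fun y => t.1 (e₁ y)) z = v := by
    intro c v hc
    obtain ⟨t, ht, htv⟩ := hex c hc
    obtain ⟨w, hw, hwv⟩ := hSp (v - nd e₁ t z)
    refine ⟨(1 : ℂ) • t + (1 : ℂ) • w, pp_lin hG 1 1 ht hw.1, fun y hy hy0 => ?_, ?_⟩
    · obtain ⟨h1, h2⟩ := htv y hy hy0
      obtain ⟨h3, h4⟩ := hw.2 y ⟨Metric.ball_subset_ball (by linarith only [hR]) hy.1, hy.2⟩ hy0
      constructor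
      · show (1 : ℂ) • t.1 (e₁ y) + (1 : ℂ) • w.1 (e₁ y) = c y
        rw [h1, h3, one_smul, smul_zero, add_zero]
      · show (1 : ℂ) • t.2 (e₂ y) + (1 : ℂ) • w.2 (e₂ y) = c y
        rw [h2, h4, one_smul, smul_zero, add_zero]
    · have h1 := nd_lin hP 1 1 ht hw.1 hzD
      have h2 : (1 : ℂ) • nd e₁ t z + (1 : ℂ) • nd e₁ w z = v := by
        rw [one_smul, one_smul, hwv]
        abel
      exact h1.trans h2
  have hcs : ∀ (a : Fin n) (j : Fin N), ContDiff ℝ ∞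
      (fun y : E n => (EuclideanSpace.single j ((y a : ℝ) : ℂ) : Fib N)) := by
    intro i j0
    have h1 : ContDiff ℝ ∞ (fun y : E n => ((y i : ℝ) : ℂ)) :=
      Complex.ofRealCLM.contDiff.comp (EuclideanSpace.proj (𝕜 := ℝ) i).contDiff
    have h2 : (fun y : E n => (EuclideanSpace.single j0 ((y i : ℝ) : ℂ) : Fib N)) =
        fun y : E n => ((y i : ℝ) : ℂ) • (EuclideanSpace.single j0 (1 : ℂ) : Fib N) := by
      funext y
      ext k
      by_cases hk : k = j0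
      · subst hk; simp
      · simp only [ne_eq, hk, not_false_eq_true, PiLp.single_eq_of_ne, Complex.coe_smul, PiLp.smul_apply, smul_zero]
    rw [h2]
    exact h1.smul contDiff_const
  choose s hs1 hs2 hs3 using fun j : Fin N =>
    hex' (fun _ => (EuclideanSpace.single j (1 : ℂ) : Fib N)) 0 contDiff_const
  choose t ht1 ht2 ht3 using fun (a : Fin n) (j : Fin N) =>
    hex' (fun y : E n => (EuclideanSpace.single j ((y a : ℝ) : ℂ) : Fib N))
      (if a = 0 then EuclideanSpace.single j 1 else 0) (hcs a j)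
  refine ⟨R / 4, s, t, by positivity, by linarith only [hR], hs1, ht1,
    fun y hy hy0 => ⟨fun j => hs2 j y hy hy0, fun a j => ht2 a j y hy hy0⟩, hs3, ht3, ?_⟩
  intro j
  have hR4 : 0 < R / 4 := by positivity
  have hsub4 : HB z (R / 4) ⊆ D₀ := fun y hy =>
    hsub ⟨Metric.ball_subset_ball (by linarith only [hR]) hy.1, hy.2⟩
  have hZ : t 0 j ∈ Zr P Q G e₁ e₂ (HB z (R / 4)) := by
    refine ⟨ht1 0 j, fun y hy hy0 => ?_⟩
    obtain ⟨h1, h2⟩ := ht2 0 j y hy hy0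
    have h3 : (EuclideanSpace.single j ((y 0 : ℝ) : ℂ) : Fib N) = 0 := by
      rw [hy0]
      simp
    rw [h3] at h1 h2
    exact ⟨h1, h2⟩
  have h1 := nd_two hP hG hS hR4 hz0 hsub4 hZ
  rw [ht3 0 j, if_pos rfl] at h1
  have hg1 : 0 < gg L₁.g 0 0 z := cStart_gg_pos (b1.ok.g_pos z hzD)
  have hg2 : 0 < gg L₂.g 0 0 z := cStart_gg_pos (b2.ok.g_pos z hzD)
  have h5 := congrArg (fun v : Fib N => (v j).re) h1
  have h6 : ∀ (b : ℝ) (v : Fib N), ((b • v) j).re = b * (v j).re := by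
    intro b v
    show (b • v j).re = _
    rw [Complex.real_smul, Complex.re_ofReal_mul]
  simp only [h6] at h5
  have h7 : 0 < gg L₂.g 0 0 z * (pd 0 (fun y => (t 0 j).2 (e₂ y)) z j).re := by
    rw [← h5]
    simpa using hg1
  exact (mul_pos_iff_of_pos_left hg2).1 h7

end Span

end Vale.Agent.P088.R2.H850
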