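import Vale.Agent.P088.R2.H850.FiN
import Vale.Agent.P088.R2.H850.J2
import Vale.Agent.P088.R2.H850.StN

/-!
# P088, stage 4: the columns of the coordinate solutions in the boundary models
-/

set_option linter.all false

open Bundle Manifold MeasureTheory Set Filter Topology
open scoped ContDiff Matrix

noncomputable section

namespace Vale.Agent.P088.R2.H850

open Vale.Agent.P088 Vale.Agent.P088.EYM Vale.Agent.P088.TM
open Vale.Agent.P088.R2.H509.S3 (BdM pcSide pcERel pcH_eq)

universe u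

section

variable {n N : ℕ} [NeZero n]

/-- The derivatives at `z` of an endomorphism which is `f(y) • 1` on the flat part. -/
theorem pd_flat {D : Set (E n)} (hD : RelOpen D) {T : E n → EndF N} (hT : ContDiffOn ℝ ∞ T D)
    {f : E n → ℝ} (hf : ContDiffOn ℝ ∞ f D) {z : E n} {ρ : ℝ} (hρ : 0 < ρ) (hz0 : z 0 = 0)
    (hz : z ∈ D) (hfl : ∀ y ∈ D, y ∈ HB z ρ → y 0 = 0 → T y = f y • (1 : EndF N)) {i : Fin n}
    (hi : i ≠ 0) : pd i T z = pd i f z • (1 : EndF N) := by
  have hD' : RelOpen (Metric.ball z ρ ∩ D) := hD.univ_inter Metric.isOpen_ball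
  have hz' : z ∈ Metric.ball z ρ ∩ D := ⟨Metric.mem_ball_self hρ, hz⟩
  have hs : Metric.ball z ρ ∩ D ⊆ D := inter_subset_right
  have sF : ContDiffOn ℝ ∞ (fun y => f y • (1 : EndF N)) (Metric.ball z ρ ∩ D) :=
    (hf.mono hs).smul contDiffOn_const
  have h1 := dc_pd_tan hD' ((hT.mono hs).sub sF) (fun x hx hx0 => by
    show T x - f x • (1 : EndF N) = 0
    rw [hfl x hx.2 ⟨hx.1, hD.subset hx.2⟩ hx0, sub_self]) hi z hz' hz0
  rw [hD'.pd_sub (hT.mono hs) sF hz' i, sub_eq_zero,
    hD'.pd_smul (hf.mono hs) contDiffOn_const hz' i, pd_const, smul_zero, zero_add] at h1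
  exact h1

theorem pd_col {D : Set (E n)} (hD : RelOpen D) {T : E n → EndF N} (hT : ContDiffOn ℝ ∞ T D)
    {z : E n} (hz : z ∈ D) (i : Fin n) (v : Fib N) : pd i (fun y => T y v) z = pd i T z v := by
  rw [hD.pd_eval hT (contDiffOn_const (c := v)) (m := ∞) (m' := ∞) (by simp) (by simp) hz i,
    pd_const, map_zero, zero_add]

/-- Equal values and fluxes on the flat part, for models with the same jets. -/
theorem van2_of_cauchy {D : Set (E n)} (hD : RelOpen D) {W₁ W₂ : Model n N}
    (o₁ : W₁.toLD.Ok D) (o₂ : W₂.toLD.Ok D) (hJ : H.JetAll W₁ W₂ D) {c c' : E n → Fib N}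
    (hc : ContDiffOn ℝ ∞ c D) (hc' : ContDiffOn ℝ ∞ c' D)
    (h0 : ∀ x ∈ D, x 0 = 0 → c x = c' x)
    (h1 : ∀ x ∈ D, x 0 = 0 → flux W₁.toLD 0 c x = flux W₂.toLD 0 c' x) :
    Van D 2 (fun x => c x - c' x) := by
  rw [show (2 : ℕ) = 1 + 1 from rfl, van_succ, van_one]
  have hv : ∀ x ∈ D, x 0 = 0 → c x - c' x = 0 := fun x hx hx0 => sub_eq_zero.2 (h0 x hx hx0)
  refine ⟨hv, fun x hx hx0 => ?_⟩
  have e1 := h1 x hx hx0
  have eg : ∀ k, gg W₁.g 0 k x = gg W₂.g 0 k x := fun k =>
    sub_eq_zero.1 (van_one.1 (van_gg hD o₁ o₂ hJ 1 0 k) x hx hx0)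
  have eB : ∀ k, W₁.B k x = W₂.B k x := fun k =>
    sub_eq_zero.1 (van_one.1 (hJ.B 1 k) x hx hx0)
  have e2 : ∑ k, gg W₂.g 0 k x • pd k (fun x => c x - c' x) x = 0 := by
    have e3 : ∀ k, gg W₂.g 0 k x • pd k (fun x => c x - c' x) x =
        gg W₁.g 0 k x • nab W₁.toLD k c x - gg W₂.g 0 k x • nab W₂.toLD k c' x := by
      intro k
      rw [hD.pd_sub hc hc' hx k, eg k, ← smul_sub]
      congr 1
      unfold nab
      rw [eB k, h0 x hx hx0]
      abel
    rw [Finset.sum_congr rfl fun k _ => e3 k, Finset.sum_sub_distrib]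
    unfold flux at e1
    rw [e1, sub_self]
  have e4 : ∀ k, k ≠ 0 → pd k (fun x => c x - c' x) x = 0 := fun k hk =>
    dc_pd_tan hD (hc.sub hc') hv hk x hx hx0
  rw [Finset.sum_eq_single 0 (fun k _ hk => by rw [e4 k hk, smul_zero])
    (fun h => absurd (Finset.mem_univ _) h)] at e2
  exact (smul_eq_zero.1 e2).resolve_left
    ((dcv_gok hD o₂.g_smooth o₂.g_pos).pos x hx).diag_pos.ne'

end

section One

variable {n N : ℕ} [NeZero n] {M : Type u}

theorem frA (s : Fin N → M → Fib N) (x : M) (v : Fib N) : fr s x v = ∑ j, v j • s j x := by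
  unfold fr
  rw [_root_.sum_apply]
  simp only [rk_apply, inner_eN]

theorem frE (s : Fin N → M → Fib N) (x : M) (j : Fin N) : fr s x (eN N j) = s j x := by
  rw [frA, Finset.sum_eq_single j]
  · simp [eN]
  · intro k _ hk
    simp [eN, hk]
  · intro h
    exact absurd (Finset.mem_univ _) h

theorem frS {e : E n → M} {s : Fin N → M → Fib N} {D : Set (E n)}
    (h : ∀ j, ContDiffOn ℝ ∞ (fun y => s j (e y)) D) : ContDiffOn ℝ ∞ (fun y => fr s (e y)) D := by
  have h1 : (fun y => fr s (e y)) = fun y => ∑ j, rk (eN N j) (s j (e y)) := by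
    funext y
    rfl
  rw [h1]
  exact ContDiffOn.sum fun j _ => (rk (eN N j)).contDiff.comp_contDiffOn (h j)

/-- The matrix of the solutions `τ_j` in the model. -/
def yE (e : E n → M) (Y : E n → E n) (S : E n → EndF N) (τ : Fin N → M → Fib N) (y : E n) :
    EndF N := Ring.inverse (S (Y y)) * fr τ (e (Y y))

theorem yE_apply (e : E n → M) (Y : E n → E n) (S : E n → EndF N) (τ : Fin N → M → Fib N)
    (y : E n) (v : Fib N) :
    yE e Y S τ y v = Ring.inverse (S (Y y)) ((∑ j, v j • τ j) (e (Y y))) := by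
  show Ring.inverse (S (Y y)) (fr τ (e (Y y)) v) = _
  congr 1
  rw [frA, Finset.sum_apply]
  rfl

variable {e : E n → M} {L : LD n N} {D₀ : Set (E n)}

/-- **The derivatives at the centre.** -/
theorem bdm_jac {z : E n} {r ρ : ℝ} {j0 : Fin N} {W : Model n N}
    {D : Set (E n)} {X Y : E n → E n} {S : E n → EndF N} {s : Fin N → M → Fib N}
    {t : Fin n → Fin N → M → Fib N} (h : BdM e L D₀ z r j0 W D X Y S s (fun a => t a j0))
    (hst : ∀ a j, ContDiffOn ℝ ∞ (fun y => t a j (e y)) D₀) (hρ : 0 < ρ)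
    (hvt : ∀ y ∈ HB z ρ, y 0 = 0 → ∀ a j, t a j (e y) = EuclideanSpace.single j (y a : ℂ))
    (hns : ∀ j, pd 0 (fun y => s j (e y)) z = 0)
    (hnt : ∀ a j, pd 0 (fun y => t a j (e y)) z = if a = 0 then EuclideanSpace.single j 1 else 0)
    (a i : Fin n) : pd i (yE e Y S (t a)) z = if a = i then 1 else 0 := by
  have hz0 := h.z0
  have hzm : z ∈ HB z r := ⟨Metric.mem_ball_self h.rpos, by show 0 ≤ z 0; rw [hz0]⟩
  obtain ⟨hzD, hXz, hYz, hSz⟩ := h.bd z hzm hz0
  have hD := h.rel
  have hHB : RelOpen (HB z r) := relHB z r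
  have hzH : z ∈ Hs n := hzm.2
  have hd := h.pull.diffeo
  have sT : ∀ a, ContDiffOn ℝ ∞ (fun y => fr (t a) (e y)) D := fun a =>
    (frS (hst a)).mono h.sub
  -- the frame
  have dS : ∀ i, pd i S z = 0 := by
    intro i
    by_cases hi : i = 0
    · subst hi
      refine endF_ext fun j => ?_
      rw [← pd_col hD h.pull.smS hzD 0, zero_apply]
      have e1 : EqOn (fun y => S y (eN N j)) (fun y => s j (e y)) D := fun y hy => by
        show S y (eN N j) = s j (e y)
        rw [h.frame y hy, ← frA, frE]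
      rw [hD.pd_congr e1 hzD 0]
      exact hns j
    · have e1 := pd_flat hD h.pull.smS (contDiffOn_const (c := (1 : ℝ))) hρ hz0 hzD
        (fun y hy _ hy0 => by
          rw [one_smul]
          exact (h.bd y (h.bdD y hy hy0) hy0).2.2.2) hi
      rw [e1, pd_const, zero_smul]
  -- the coordinate solutions
  have dT : ∀ a i, pd i (fun y => fr (t a) (e y)) z = if a = i then 1 else 0 := by
    intro a i
    by_cases hi : i = 0
    · subst hi
      refine endF_ext fun j => ?_
      rw [← pd_col hD (sT a) hzD 0]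
      have e1 : (fun y => fr (t a) (e y) (eN N j)) = fun y => t a j (e y) := by
        funext y
        exact frE _ _ _
      rw [e1, hnt a j]
      by_cases ha : a = 0
      · rw [if_pos ha, if_pos ha]
        rfl
      · rw [if_neg ha, if_neg ha, zero_apply]
    · have e1 := pd_flat hD (sT a) (dc_smooth_coord a) hρ hz0 hzD (fun y hy hyρ hy0 => by
        refine endF_ext fun j => ?_
        rw [frE, hvt y hyρ hy0 a j]
        show EuclideanSpace.single j (y a : ℂ) = (y a : ℝ) • (EuclideanSpace.single j (1 : ℂ) : Fib N)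
        ext k
        by_cases hk : k = j
        · subst hk; simp
        · simp [hk]) hi
      rw [e1, dc_pd_coord hzH]
      by_cases ha : a = i
      · rw [if_pos ha, if_pos ha.symm, one_smul]
      · rw [if_neg ha, if_neg (Ne.symm ha), zero_smul]
  -- the inverse of the frame
  have sR : ContDiffOn ℝ ∞ (fun x => Ring.inverse (S x)) D :=
    smooth_ringInverse h.pull.smS h.pull.unit
  have dR : ∀ i, pd i (fun x => Ring.inverse (S x)) z = 0 := by
    intro i
    have e1 : pd i (fun y => Ring.inverse (S y) * S y) z = 0 := by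
      rw [hD.pd_congr (g := fun _ => (1 : EndF N))
        (fun y hy => Ring.inverse_mul_cancel _ (h.pull.unit y hy)) hzD i, pd_const]
    rw [hD.pd_mul sR h.pull.smS hzD i, dS i, mul_zero, zero_add, hSz, mul_one] at e1
    exact e1
  have dP : ∀ a i, pd i (fun x => Ring.inverse (S x) * fr (t a) (e x)) z = if a = i then 1 else 0 := by
    intro a i
    rw [hD.pd_mul sR (sT a) hzD i, dR i, zero_mul, add_zero, hSz, Ring.inverse_one, one_mul, dT a i]
  -- the coordinates
  have sP : ∀ a, ContDiffOn ℝ ∞ (fun x => Ring.inverse (S x) * fr (t a) (e x)) D := fun a =>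
    smooth_mul sR (sT a)
  have dX : ∀ i k, pd i (fun x => X x k) z = if i = k then 1 else 0 := by
    intro i k
    have e1 : EqOn (fun x => X x k)
        (fun x => dcvRe j0 ((Ring.inverse (S x) * fr (t k) (e x)) (eN N j0))) D := by
      intro x hx
      have h1 := h.coord x hx k
      have h2 : (Ring.inverse (S x) * fr (t k) (e x)) (eN N j0) = W.c k (X x) := by
        show Ring.inverse (S x) (fr (t k) (e x) (eN N j0)) = _
        rw [frE, h1]
        show (Ring.inverse (S x) * S x) (W.c k (X x)) = _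
        rw [Ring.inverse_mul_cancel _ (h.pull.unit x hx)]
        rfl
      show X x k = dcvRe j0 ((Ring.inverse (S x) * fr (t k) (e x)) (eN N j0))
      rw [h2]
      exact (h.model.re k (X x) (hd.mapsX hx)).symm
    rw [hD.pd_congr e1 hzD i, hD.pd_clm (dcvRe j0)
      (smooth_eval (sP k) (contDiffOn_const (c := eN N j0))) hzD i, pd_col hD (sP k) hzD i, dP k i]
    by_cases hk : k = i
    · rw [if_pos hk, if_pos hk.symm]
      show (((1 : EndF N) (eN N j0)) j0).re = 1
      show ((EuclideanSpace.single j0 (1 : ℂ) : Fib N) j0).re = 1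
      simp
    · rw [if_neg hk, if_neg (Ne.symm hk)]
      rw [zero_apply, map_zero]
  -- the chain rule
  have sY : ContDiffOn ℝ ∞ (yE e Y S (t a)) (HB z r) := by
    have h1 : ContDiffOn ℝ ∞ (fun y => (fun x => Ring.inverse (S x) * fr (t a) (e x)) (Y y))
        (HB z r) := (sP a).comp hd.smY hd.mapsY
    exact h1
  have h1 := hD.pd_comp hHB hd.smX hd.mapsX sY hzD i
  have h2 : EqOn (fun x => yE e Y S (t a) (X x)) (fun x => Ring.inverse (S x) * fr (t a) (e x)) D :=
    fun x hx => by
      show Ring.inverse (S (Y (X x))) * fr (t a) (e (Y (X x))) = _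
      rw [hd.inv1 x hx]
  rw [hD.pd_congr h2 hzD i, dP a i, hXz] at h1
  rw [h1, Finset.sum_eq_single i (fun k _ hk => by
    rw [dX i k, if_neg (Ne.symm hk), zero_smul]) (fun h => absurd (Finset.mem_univ _) h),
    dX i i, if_pos rfl, one_smul]

end One

end Vale.Agent.P088.R2.H850
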