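import Vale.Agent.P088.TM.H275BC
import Vale.Agent.P088.R2.H31.GSpec
import Vale.Agent.P088.R2.H850.Iso
import Vale.Agent.P088.R2.H509.CF

/-!
# P088, THEOREM S: flat coordinates as local immersions; the inverse function theorem
-/

set_option linter.all false

open Bundle Manifold MeasureTheory Set Filter Topology Metric
open scoped ContDiff Matrix

noncomputable section

namespace Vale.Agent.P088.R2.H850

open Vale.Agent.P088 Vale.Agent.P088.EYM Vale.Agent.P088.EYM.O Vale.Agent.P088.R2.G31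
open Vale.Agent.P088.R2.H509

universe u

variable {n N : ℕ} [NeZero n] {M : Type u} [TopologicalSpace M]
  [ChartedSpace (EuclideanHalfSpace n) M] [IsManifold (𝓡∂ n) ∞ M] [MeasurableSpace M]

variable {P : One n N M} {p : M} {D : Set (E n)} {X : E n → E n} {om : E n → ℝ}

/-- The bilinear form of the metric. -/
theorem cf_form (h : CF P p D X om) {x : E n} (hx : x ∈ D) (hx0 : 0 < x 0)
    (hX : DifferentiableAt ℝ X x) (v w : E n) :
    ∑ i, ∑ j, (P.loc p).g x i j * (v i * w j) =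
      (om (X x)) ^ (4 / ((n : ℝ) - 2)) * inner ℝ (fderiv ℝ X x v) (fderiv ℝ X x w) := by
  rw [h.met x hx]
  have e1 : (inner ℝ (fderiv ℝ X x v) (fderiv ℝ X x w) : ℝ) =
      ∑ k, ((Jac X x).mulVec (fun j => v j)) k * ((Jac X x).mulVec (fun j => w j)) k := by
    rw [PiLp.inner_apply]
    refine Finset.sum_congr rfl fun k _ => ?_
    rw [← cCont_jac hx0 hX v k, ← cCont_jac hx0 hX w k]
    simp [mul_comm]
  rw [e1]
  have e2 : ∑ k, ((Jac X x).mulVec (fun j => v j)) k * ((Jac X x).mulVec (fun j => w j)) k =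
      ∑ i, ∑ j, ((Jac X x).transpose * Jac X x) i j * (v i * w j) := by
    simp only [Matrix.mulVec, dotProduct, Matrix.mul_apply, Matrix.transpose_apply,
      Finset.sum_mul_sum]
    rw [Finset.sum_comm]
    refine Finset.sum_congr rfl fun i _ => ?_
    rw [Finset.sum_comm]
    refine Finset.sum_congr rfl fun j _ => ?_
    rw [Finset.sum_mul]
    refine Finset.sum_congr rfl fun k _ => ?_
    ring
  rw [e2, Finset.mul_sum]
  refine Finset.sum_congr rfl fun i _ => ?_
  rw [Finset.mul_sum]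
  refine Finset.sum_congr rfl fun j _ => ?_
  rw [Matrix.smul_apply, smul_eq_mul]
  ring

theorem cf_inj (h : CF P p D X om) {x : E n} (hx : x ∈ D) (hx0 : 0 < x 0)
    (hX : DifferentiableAt ℝ X x) : Function.Injective (fderiv ℝ X x) := by
  rw [injective_iff_map_eq_zero]
  intro v hv
  by_contra hv0
  have h1 := cf_form h hx hx0 hX v v
  rw [hv, inner_zero_left, mul_zero] at h1
  have h2 : ((P.loc p).g x).PosDef := ((TM.fLoc n N M).2.1 P p).g_pos x (h.sub hx)
  have h3 := h2.dotProduct_mulVec_pos (x := fun j => v j)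
    (fun h4 => hv0 (by ext j; exact congrFun h4 j))
  have h5 : star (fun j => v j) ⬝ᵥ ((P.loc p).g x).mulVec (fun j => v j) =
      ∑ i, ∑ j, (P.loc p).g x i j * (v i * v j) := by
    simp only [dotProduct, Matrix.mulVec, Pi.star_apply, star_trivial, Finset.mul_sum]
    refine Finset.sum_congr rfl fun i _ => Finset.sum_congr rfl fun j _ => ?_
    ring
  rw [h5, h1] at h3
  exact lt_irrefl _ h3

/-- The inverse function theorem. -/
theorem ift {X : E n → E n} {D₀ : Set (E n)} (hD₀o : IsOpen D₀) (hXs : ContDiffOn ℝ ∞ X D₀)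
    (hinj : ∀ y ∈ D₀, Function.Injective (fderiv ℝ X y)) {x : E n} (hxD₀ : x ∈ D₀) :
    ∃ (D' : Set (E n)) (Y : E n → E n) (R : ℝ), 0 < R ∧ IsOpen D' ∧ D' ⊆ D₀ ∧ x ∈ D' ∧
      MapsTo X D' (ball (X x) R) ∧ MapsTo Y (ball (X x) R) D' ∧ (∀ y ∈ D', Y (X y) = y) ∧
      (∀ z ∈ ball (X x) R, X (Y z) = z) ∧ ContDiffOn ℝ ∞ Y (ball (X x) R) := by
  have hXat : ∀ y ∈ D₀, ContDiffAt ℝ ∞ X y := fun y hy => hXs.contDiffAt (hD₀o.mem_nhds hy)
  have hXd : ∀ y ∈ D₀, DifferentiableAt ℝ X y := fun y hy =>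
    (hXat y hy).differentiableAt (by norm_num)
  have hequiv : ∀ y ∈ D₀, ∃ A : E n ≃L[ℝ] E n, (A : E n →L[ℝ] E n) = fderiv ℝ X y := by
    intro y hy
    refine ⟨(LinearEquiv.ofInjectiveEndo (fderiv ℝ X y : E n →ₗ[ℝ] E n)
      (hinj y hy)).toContinuousLinearEquiv, ?_⟩
    ext v
    rfl
  obtain ⟨A, hA⟩ := hequiv x hxD₀
  have hder : HasFDerivAt X (A : E n →L[ℝ] E n) x := by
    rw [hA]
    exact (hXd x hxD₀).hasFDerivAt
  have hxe := (hXat x hxD₀).mem_toOpenPartialHomeomorph_source hder (by norm_num)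
  have hec : ∀ y, ((hXat x hxD₀).toOpenPartialHomeomorph X hder (by norm_num)) y = X y :=
    fun y => rfl
  generalize (hXat x hxD₀).toOpenPartialHomeomorph X hder (by norm_num) = e at hxe hec
  have hT₀o : IsOpen (e.target ∩ e.symm ⁻¹' D₀) := e.symm.isOpen_inter_preimage hD₀o
  have hxT : X x ∈ e.target ∩ e.symm ⁻¹' D₀ := by
    rw [← hec x]
    refine ⟨e.map_source hxe, ?_⟩
    rw [mem_preimage, e.left_inv hxe]
    exact hxD₀
  obtain ⟨R, hR, hRs⟩ := Metric.isOpen_iff.1 hT₀o _ hxT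
  refine ⟨(e.source ∩ e ⁻¹' ball (X x) R) ∩ D₀, e.symm, R, hR,
    (e.isOpen_inter_preimage isOpen_ball).inter hD₀o, inter_subset_right,
    ⟨⟨hxe, ?_⟩, hxD₀⟩, ?_, ?_, ?_, ?_, ?_⟩
  · rw [mem_preimage, hec]
    exact mem_ball_self hR
  · rintro y ⟨⟨-, hy⟩, -⟩
    rw [mem_preimage, hec] at hy
    exact hy
  · intro z hz
    refine ⟨⟨e.map_target (hRs hz).1, ?_⟩, (hRs hz).2⟩
    rw [mem_preimage, e.right_inv (hRs hz).1]
    exact hz
  · rintro y ⟨⟨hy, -⟩, -⟩
    rw [← hec y, e.left_inv hy]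
  · intro z hz
    rw [← hec, e.right_inv (hRs hz).1]
  · intro z hz
    have hz1 := hRs hz
    obtain ⟨B, hB⟩ := hequiv _ hz1.2
    refine (e.contDiffAt_symm (f₀' := B) hz1.1 ?_ ?_).contDiffWithinAt
    · rw [hB]
      exact ((hXd _ hz1.2).hasFDerivAt).congr_of_eventuallyEq (Eventually.of_forall hec)
    · exact (hXat _ hz1.2).congr_of_eventuallyEq (Eventually.of_forall hec)

theorem pos_open {D : Set (E n)} (hD : RelOpen D) : IsOpen (D ∩ {y | 0 < y 0}) := by
  obtain ⟨O, hO, rfl⟩ := hD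
  have e1 : O ∩ Hs n ∩ {y | 0 < y 0} = O ∩ {y | 0 < y 0} := by
    ext y
    constructor
    · rintro ⟨⟨a, -⟩, b⟩
      exact ⟨a, b⟩
    · rintro ⟨a, b⟩
      have b' : 0 < y 0 := b
      exact ⟨⟨a, b'.le⟩, b⟩
  rw [e1]
  exact hO.inter (isOpen_lt continuous_const (continuous_coord 0))

/-- Flat coordinates in a ball. -/
theorem cf_flat (h : CF P p D X om) {x : E n} (hx : x ∈ D) (hx0 : 0 < x 0) :
    ∃ (D' : Set (E n)) (X' Y' : E n → E n) (om' : E n → ℝ) (R : ℝ), D' ⊆ D ∧ x ∈ D' ∧ 0 < R ∧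
      FlatIn P p D' X' Y' om' R := by
  have hD₀o := pos_open h.rel
  have hXs : ContDiffOn ℝ ∞ X (D ∩ {y | 0 < y 0}) := h.smX.mono inter_subset_left
  have hXd : ∀ y ∈ D ∩ {y | 0 < y 0}, DifferentiableAt ℝ X y := fun y hy =>
    (hXs.contDiffAt (hD₀o.mem_nhds hy)).differentiableAt (by norm_num)
  obtain ⟨D', Y, R, hR, hD'o, hD's, hxD', hXm, hYm, hYX, hXY, hYs⟩ :=
    ift hD₀o hXs (fun y hy => cf_inj h hy.1 hy.2 (hXd y hy)) ⟨hx, hx0⟩
  have hb : ∀ y ∈ ball (0 : E n) R, y + X x ∈ ball (X x) R := by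
    intro y hy
    rw [mem_ball, dist_eq_norm, add_sub_cancel_right]
    rwa [mem_ball, dist_zero_right] at hy
  have htr : ContDiff ℝ ∞ (fun y : E n => y + X x) := contDiff_id.add contDiff_const
  have hYsm : ContDiffOn ℝ ∞ (fun y => Y (y + X x)) (ball 0 R) :=
    hYs.comp htr.contDiffOn fun y hy => hb y hy
  have homs : ContDiffOn ℝ ∞ om (ball (X x) R) := by
    have h1 : ContDiffOn ℝ ∞ (fun z => om (X (Y z))) (ball (X x) R) :=
      h.smom.comp hYs fun z hz => (hD's (hYm hz)).1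
    exact h1.congr fun z hz => by rw [hXY z hz]
  refine ⟨D', fun y => X y - X x, fun y => Y (y + X x), fun y => om (y + X x), R,
    fun y hy => (hD's hy).1, hxD', hR, ?_⟩
  constructor
  case isOpen => exact hD'o
  case sub => exact fun y hy => h.sub (hD's hy).1
  case mapsX =>
    intro y hy
    rw [mem_ball, dist_zero_right, ← dist_eq_norm]
    exact hXm hy
  case mapsY => exact fun y hy => hYm (hb y hy)
  case inv1 =>
    intro y hy
    show Y (X y - X x + X x) = y
    rw [sub_add_cancel, hYX y hy]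
  case inv2 =>
    intro y hy
    show X (Y (y + X x)) - X x = y
    rw [hXY _ (hb y hy), add_sub_cancel_right]
  case smX => exact (hXs.mono hD's).sub contDiffOn_const
  case smY => exact hYsm
  case smom => exact homs.comp htr.contDiffOn fun y hy => hb y hy
  case posom =>
    intro y hy
    have h1 := h.pos _ (hD's (hYm (hb y hy))).1
    rw [hXY _ (hb y hy)] at h1
    exact h1
  case harm =>
    intro y hy
    have h1 := h.harm _ (hD's (hYm (hb y hy))).1 (hD's (hYm (hb y hy))).2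
    rw [hXY _ (hb y hy)] at h1
    have h2 : ContDiffAt ℝ 2 om ((LinearIsometryEquiv.refl ℝ (E n)) y + X x) :=
      (homs.contDiffAt (isOpen_ball.mem_nhds (hb y hy))).of_le (by norm_cast)
    have h3 := lap_iso (LinearIsometryEquiv.refl ℝ (E n)) (X x) h2
    exact h3.trans h1
  case met =>
    intro y hy v w
    have hy1 := hb y hy
    have hyD := hD's (hYm hy1)
    have h1 : HasFDerivAt (fun y => Y (y + X x)) (fderiv ℝ (fun y => Y (y + X x)) y) y :=
      ((hYsm.contDiffAt (isOpen_ball.mem_nhds hy)).differentiableAt (by norm_num)).hasFDerivAt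
    have h2 : HasFDerivAt X (fderiv ℝ X (Y (y + X x))) (Y (y + X x)) := (hXd _ hyD).hasFDerivAt
    have h3 : HasFDerivAt (fun y => X (Y (y + X x))) (ContinuousLinearMap.id ℝ (E n)) y := by
      have h4 : HasFDerivAt (fun y : E n => y + X x) (ContinuousLinearMap.id ℝ (E n)) y :=
        (hasFDerivAt_id y).add_const _
      refine h4.congr_of_eventuallyEq ?_
      filter_upwards [isOpen_ball.mem_nhds hy] with z hz
      exact hXY _ (hb z hz)
    have h5 := h3.unique (h2.comp y h1)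
    have h7 : ∀ v, fderiv ℝ X (Y (y + X x)) (fderiv ℝ (fun y => Y (y + X x)) y v) = v := by
      intro v
      have := DFunLike.congr_fun h5 v
      exact this.symm
    have h6 := cf_form h hyD.1 hyD.2 (hXd _ hyD) (fderiv ℝ (fun y => Y (y + X x)) y v)
      (fderiv ℝ (fun y => Y (y + X x)) y w)
    rw [h7, h7, hXY _ hy1] at h6
    exact h6

end Vale.Agent.P088.R2.H850
end
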