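import Vale.Agent.P088.H5.St6

/-!
# P088: locally conformally flat, scalar flat metrics (elementary form)
-/

open Manifold MeasureTheory Set
open scoped ContDiff Matrix

noncomputable section

namespace Vale.Agent.P088.B9

open Vale.Agent.P088.B Vale.Agent.P088.B8

universe u

variable {n N : ℕ} {M : Type u} {Z : At n M}

/-- The Laplacian `∑ ∂_i² w` on `ℝⁿ`. -/
def lapl (w : V n → ℝ) (y : V n) : ℝ :=
  ∑ i, fderiv ℝ (fun z => fderiv ℝ w z (Pi.single i 1)) y (Pi.single i 1)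

/-- Near `x`, `g = w(F)^{4/(n-2)} F^* e`, where `F` is a map into `ℝⁿ` which is smooth up to the
boundary, `e` is the Euclidean metric and `w(F)` is smooth up to the boundary, positive, and `w` is
harmonic at the images of the points off `∂M`. For `w = 1` this says that `g` is flat. -/
def FlatAt [TopologicalSpace M] (Z : At n M) (g : M → Matrix (Fin n) (Fin n) ℝ) (x : M) : Prop :=
  ∃ (W : Set M) (F : M → V n) (w : V n → ℝ), IsOpen W ∧ x ∈ W ∧
    (∀ i, Z.sm W (fun y => F y i)) ∧ Z.sm W (fun y => w (F y)) ∧ ∀ y ∈ W, 0 < w (F y) ∧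
      (y ∉ bd Z → lapl w (F y) = 0) ∧ g y = (w (F y)) ^ (4 / ((n : ℝ) - 2)) •
        ((Matrix.of fun i j => dj (fun z => F (pt Z y z) i) (Z.ch y y) j)ᵀ *
          Matrix.of fun i j => dj (fun z => F (pt Z y z) i) (Z.ch y y) j)

/-- On `D`: `g₂` is a multiple of `g₁` at each point, and `g₁` is `FlatAt` each point. -/
def Cf [TopologicalSpace M] (D : Set M) (P Q : Pair Z N) : Prop :=
  ∀ x ∈ D, (∃ t : ℝ, Q.g x = t • P.g x) ∧ FlatAt Z P.g x

/-- `Cf`, and there is an `A₁`-parallel section of length one on `D`. -/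
def CfS [TopologicalSpace M] (D : Set M) (P Q : Pair Z N) : Prop :=
  Cf D P Q ∧ ∃ e, ParOn D P e ∧ ∀ x ∈ D, ∑ a, ‖e x a‖ ^ 2 = 1

/-- The metrics are comparable on `O`, where `C` is `Cf` or `CfS`: there is a dense connected open
subset `W` of `O` such that on a connected open set `D ⊆ W` which meets `Γ` they are ordered or in
relation `C`, and near each point `x` of `W` they are in relation `C` or, up to closure,
`s(g₁) ≤ s(g₂)` on a connected open set `D₁ ⊆ W` and `s(g₂) ≤ s(g₁)` on a connected open set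
`D₂ ⊆ W` (each may be empty), where `s(g) = √(det g) g⁻¹`. -/
def Cmp [TopologicalSpace M] (C : Set M → Pair Z N → Pair Z N → Prop) (O Γ : Set M)
    (P Q : Pair Z N) : Prop :=
  ∃ W ⊆ O, O ⊆ closure W ∧ IsOpen W ∧ IsPreconnected W ∧
    (∃ D ⊆ W, IsOpen D ∧ IsPreconnected D ∧ (D ∩ Γ).Nonempty ∧
      (Le D P Q ∨ Le D Q P ∨ C D P Q ∨ C D Q P)) ∧
    ∀ x ∈ W, ∃ V, IsOpen V ∧ x ∈ V ∧ ((V ⊆ W ∧ (C V P Q ∨ C V Q P)) ∨
      ∃ D₁ ⊆ W, IsOpen D₁ ∧ IsPreconnected D₁ ∧ Le D₁ P Q ∧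
      ∃ D₂ ⊆ W, IsOpen D₂ ∧ IsPreconnected D₂ ∧ Le D₂ Q P ∧ V ⊆ closure (D₁ ∪ D₂))

/-- `K` is a hole: a closed set in the interior of `M`, with connected complement and with the open
neighborhood `V`; the connections are gauge equivalent and the metrics comparable off `K`. -/
def Hole [TopologicalSpace M] (U : M → Matrix (Fin N) (Fin N) ℂ) (K V Γ : Set M)
    (P Q : Pair Z N) : Prop :=
  IsClosed K ∧ K ∩ bd Z = ∅ ∧ IsPreconnected Kᶜ ∧ IsOpen V ∧ K ⊆ V ∧ Cmp CfS Kᶜ Γ P Q ∧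
    GaugeBy U Kᶜ Γ P.A Q.A Z

end Vale.Agent.P088.B9
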