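import Vale.Agent.P088.R2.H850.Cf
import Vale.Agent.P088.R2.H850.St
import Vale.Agent.P088.H5.Br

/-!
# P088, THEOREM S: from the elementary hypotheses to the abstract ones
-/

set_option linter.all false

open Bundle Manifold MeasureTheory Set Filter Topology
open scoped ContDiff Matrix

noncomputable section

namespace Vale.Agent.P088.R2.H850

open Vale.Agent.P088 Vale.Agent.P088.EYM Vale.Agent.P088.EYM.O Vale.Agent.P088.R2.G31
open Vale.Agent.P088.R2.H509

universe u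

section Jac

variable {n : ℕ} [NeZero n] {M : Type u} [TopologicalSpace M]
  [ChartedSpace (EuclideanHalfSpace n) M] [IsManifold (𝓡∂ n) ∞ M]

theorem dj_F {u : M → E n} {x : M} (hu : MDifferentiableAt (𝓡∂ n) 𝓘(ℝ, E n) u x) (i j : Fin n) :
    B.dj (fun z => u (B.pt (B.at_ n M) x z) i) ((B.at_ n M).ch x x) j =
      (dI (𝓡∂ n) u x (es n j)) i := by
  have h1 := ((EuclideanSpace.proj (𝕜 := ℝ) i : EuclideanSpace ℝ (Fin n) →L[ℝ] ℝ).hasFDerivAt
    (x := lu (𝓡∂ n) x u (extChartAt (𝓡∂ n) x x))).comp_hasFDerivWithinAt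
      (extChartAt (𝓡∂ n) x x) (hasD hu)
  have h2 := S.germ_eq (mem_extChartAt_source x) (fun z => u z i) h1 j
  rw [B.dj_old _ (B.at_nonneg x x) j]
  exact h2

/-- The bilinear form of `c JᵀJ`. -/
theorem bil_jac {L : E n →L[ℝ] E n} (c : ℝ) (v w : E n) :
    S.bil (c • ((Matrix.of fun i j => (L (es n j)) i)ᵀ * Matrix.of fun i j => (L (es n j)) i)) v w =
      c * inner ℝ (L v) (L w) := by
  have hL : ∀ (v : E n) k, (L v) k = ∑ i, (L (es n i)) k * v i := by
    intro v k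
    have h1 : v = ∑ i, v i • (es n i : E n) := en_expand v
    conv_lhs => rw [h1]
    rw [map_sum, WithLp.ofLp_sum, Finset.sum_apply]
    refine Finset.sum_congr rfl fun i _ => ?_
    rw [map_smul, PiLp.smul_apply, smul_eq_mul, mul_comm]
  have e1 : S.bil (c • ((Matrix.of fun i j => (L (es n j)) i)ᵀ *
      Matrix.of fun i j => (L (es n j)) i)) v w =
      ∑ i, ∑ j, ∑ k, c * ((L (es n i)) k * (L (es n j)) k) * (v i * w j) := by
    rw [S.bil_apply]
    refine Finset.sum_congr rfl fun i _ => Finset.sum_congr rfl fun j _ => ?_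
    rw [Matrix.smul_apply, Matrix.mul_apply, smul_eq_mul, Finset.mul_sum, Finset.sum_mul]
    rfl
  have e2 : c * inner ℝ (L v) (L w) =
      ∑ k, ∑ i, ∑ j, c * ((L (es n i)) k * (L (es n j)) k) * (v i * w j) := by
    rw [PiLp.inner_apply, Finset.mul_sum]
    refine Finset.sum_congr rfl fun k _ => ?_
    have e3 : (inner ℝ ((L v) k) ((L w) k) : ℝ) = (L v) k * (L w) k := by
      rw [RCLike.inner_apply, conj_trivial, mul_comm]
    rw [e3, hL v k, hL w k, Finset.sum_mul_sum, Finset.mul_sum]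
    refine Finset.sum_congr rfl fun i _ => ?_
    rw [Finset.mul_sum]
    refine Finset.sum_congr rfl fun j _ => ?_
    ring
  rw [e1, e2, Finset.sum_comm (s := Finset.univ (α := Fin n)) (t := Finset.univ)
    (f := fun k i => ∑ j, c * ((L (es n i)) k * (L (es n j)) k) * (v i * w j))]
  refine Finset.sum_congr rfl fun i _ => ?_
  rw [Finset.sum_comm]

end Jac

section Cf

variable {n N : ℕ} [NeZero n] {M : Type u} [TopologicalSpace M]
  [ChartedSpace (EuclideanHalfSpace n) M] [IsManifold (𝓡∂ n) ∞ M]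

theorem contMDiffOn_toLp {W : Set M} {F : M → Fin n → ℝ}
    (h : ∀ i, ContMDiffOn (𝓡∂ n) 𝓘(ℝ, ℂ) ∞ (fun y => ((F y i : ℝ) : ℂ)) W) :
    ContMDiffOn (𝓡∂ n) 𝓘(ℝ, E n) ∞ (fun y => (WithLp.toLp 2 (F y) : E n)) W := by
  have h1 : ContMDiffOn (𝓡∂ n) 𝓘(ℝ, Fin n → ℝ) ∞ F W := by
    refine contMDiffOn_pi_space.2 fun i => ?_
    have h2 := Complex.reCLM.contDiff.contMDiff.comp_contMDiffOn (n := ∞) (h i)
    exact h2.congr fun y _ => (Complex.ofReal_re _).symm
  exact (PiLp.continuousLinearEquiv 2 ℝ (fun _ : Fin n => ℝ)).symm.contDiff.contMDiff.comp_contMDiffOn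
    (n := ∞) h1

theorem contMDiffOn_re {W : Set M} {f : M → ℝ}
    (h : ContMDiffOn (𝓡∂ n) 𝓘(ℝ, ℂ) ∞ (fun y => ((f y : ℝ) : ℂ)) W) :
    ContMDiffOn (𝓡∂ n) 𝓘(ℝ, ℝ) ∞ f W :=
  (Complex.reCLM.contDiff.contMDiff.comp_contMDiffOn (n := ∞) h).congr
    fun y _ => (Complex.ofReal_re _).symm

theorem lap_eq_lapl (w : (Fin n → ℝ) → ℝ) (y : E n) :
    H31.lap (fun z : E n => w (WithLp.ofLp z)) y = B9.lapl w (WithLp.ofLp y) := by
  have h1 : ∀ (f : (Fin n → ℝ) → ℝ) (z : E n) (i : Fin n),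
      H31.dj i (fun z : E n => f (WithLp.ofLp z)) z =
        fderiv ℝ f (WithLp.ofLp z) (Pi.single i 1) := by
    intro f z i
    have h2 := (PiLp.continuousLinearEquiv 2 ℝ (fun _ : Fin n => ℝ)).comp_right_fderiv (f := f)
      (x := z)
    unfold H31.dj
    have h3 : (f ∘ (PiLp.continuousLinearEquiv 2 ℝ (fun _ : Fin n => ℝ))) =
        fun z : E n => f (WithLp.ofLp z) := rfl
    rw [h3] at h2
    rw [h2]
    rfl
  unfold H31.lap B9.lapl
  refine Finset.sum_congr rfl fun i _ => ?_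
  have h4 : H31.dj i (fun z : E n => w (WithLp.ofLp z)) =
      fun z : E n => (fun y => fderiv ℝ w y (Pi.single i 1)) (WithLp.ofLp z) :=
    funext fun z => h1 w z i
  rw [h4, h1 (fun y => fderiv ℝ w y (Pi.single i 1)) y i]

theorem relOpen_pre {p : M} {W : Set M} (hW : IsOpen W) :
    RelOpen (tg n p ∩ (xc n p).symm ⁻¹' W) := by
  obtain ⟨O, hO, hO2⟩ := cLoc_relOpen (n := n) p
  obtain ⟨O', hO', h⟩ := continuousOn_iff'.1
    (continuousOn_extChartAt_symm (I := 𝓡∂ n) p) W hW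
  refine ⟨O' ∩ O, hO'.inter hO, ?_⟩
  have h' : (xc n p).symm ⁻¹' W ∩ tg n p = O' ∩ tg n p := h
  rw [inter_comm, h', hO2, inter_assoc]

variable [MeasurableSpace M]

/-- The metric of an immersion. -/
theorem gram_of_imm {g : Metric (𝓡∂ n) M} {p : M} {W : Set M} (hW : IsOpen W) {u : M → E n}
    (hu : ContMDiffOn (𝓡∂ n) 𝓘(ℝ, E n) ∞ u W) {c : M → ℝ}
    (hg : ∀ x ∈ W, ∀ v w : E n, (g.inner x : E n →L[ℝ] E n →L[ℝ] ℝ) v w =
      c x * inner ℝ (dI (𝓡∂ n) u x v) (dI (𝓡∂ n) u x w)) {z : E n}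
    (hz : z ∈ tg n p ∩ (xc n p).symm ⁻¹' W) :
    gram g p ((xc n p).symm z) = c ((xc n p).symm z) •
      ((Jac (lu (𝓡∂ n) p u) z)ᵀ * Jac (lu (𝓡∂ n) p u) z) := by
  have hzt : z ∈ tg n p := hz.1
  have hzW : (xc n p).symm z ∈ W := hz.2
  have hzs : (xc n p).symm z ∈ (extChartAt (𝓡∂ n) p).source := (xc n p).map_target hzt
  have hz1 : extChartAt (𝓡∂ n) p ((xc n p).symm z) = z := (xc n p).right_inv hzt
  have hD := relOpen_pre (n := n) (p := p) hW
  have hus : ContDiffOn ℝ ∞ (lu (𝓡∂ n) p u) (tg n p ∩ (xc n p).symm ⁻¹' W) := by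
    rw [← contMDiffOn_iff_contDiffOn]
    exact hu.comp ((contMDiffOn_extChartAt_symm p).mono inter_subset_left) fun y hy => hy.2
  have hmd : MDifferentiableAt (𝓡∂ n) 𝓘(ℝ, E n) u ((xc n p).symm z) :=
    (hu.contMDiffAt (hW.mem_nhds hzW)).mdifferentiableAt (by simp)
  have key : ∀ i : Fin n, dI (𝓡∂ n) u ((xc n p).symm z)
      (cc (𝓡∂ n) p ((xc n p).symm z) (es n i)) = pd i (lu (𝓡∂ n) p u) z := by
    intro i
    have h1 := dmap_cc (𝓡∂ n) hzs hmd (es n i)
    rw [hz1, cLoc_range] at h1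
    exact h1
  have key2 : ∀ i k : Fin n, Jac (lu (𝓡∂ n) p u) z k i = (pd i (lu (𝓡∂ n) p u) z) k :=
    fun i k => hD.pd_clm (EuclideanSpace.proj (𝕜 := ℝ) k : E n →L[ℝ] ℝ) hus hz i
  ext i j
  have h2 : gram g p ((xc n p).symm z) i j =
      (g.inner ((xc n p).symm z) : E n →L[ℝ] E n →L[ℝ] ℝ)
        (cc (𝓡∂ n) p ((xc n p).symm z) (es n i)) (cc (𝓡∂ n) p ((xc n p).symm z) (es n j)) := rfl
  rw [h2, hg _ hzW, key i, key j, Matrix.smul_apply, Matrix.mul_apply, smul_eq_mul,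
    PiLp.inner_apply]
  congr 1
  refine Finset.sum_congr rfl fun k _ => ?_
  rw [Matrix.transpose_apply, key2, key2, RCLike.inner_apply, conj_trivial, mul_comm]

end Cf

section El

variable {n N : ℕ} [NeZero n] {M : Type u} [TopologicalSpace M]
  [ChartedSpace (EuclideanHalfSpace n) M] [IsManifold (𝓡∂ n) ∞ M]

/-- From the elementary flat coordinates to the abstract ones. -/
theorem el_cf {P : B.Pair (B.at_ n M) N} {x : M} (h : B9.FlatAt (B.at_ n M) P.g x) :
    ∃ (D : Set (E n)) (X : E n → E n) (om : E n → ℝ),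
      @CF n N _ M _ _ _ (borel M) (B2.one P) x D X om := by
  obtain ⟨W, F, w, hW, hx, hF, hw, hall⟩ := h
  let _ : MeasurableSpace M := borel M
  have hu : ContMDiffOn (𝓡∂ n) 𝓘(ℝ, E n) ∞ (fun y => (WithLp.toLp 2 (F y) : E n)) W :=
    contMDiffOn_toLp hF
  have hw' : ContMDiffOn (𝓡∂ n) 𝓘(ℝ, ℝ) ∞ (fun y => w (F y)) W := contMDiffOn_re hw
  have hb : B.bd (B.at_ n M) = (𝓡∂ n).boundary M := B.bd_at
  refine ⟨tg n x ∩ (xc n x).symm ⁻¹' W, lu (𝓡∂ n) x (fun y => (WithLp.toLp 2 (F y) : E n)),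
    fun z => w (WithLp.ofLp z), ?_⟩
  constructor
  case rel => exact relOpen_pre hW
  case sub => exact inter_subset_left
  case mem =>
    refine ⟨mem_extChartAt_target x, ?_⟩
    rw [mem_preimage, extChartAt_to_inv]
    exact hx
  case smX =>
    rw [← contMDiffOn_iff_contDiffOn]
    exact hu.comp ((contMDiffOn_extChartAt_symm x).mono inter_subset_left) fun y hy => hy.2
  case smom =>
    rw [← contMDiffOn_iff_contDiffOn]
    exact hw'.comp ((contMDiffOn_extChartAt_symm x).mono inter_subset_left) fun y hy => hy.2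
  case pos => exact fun y hy => (hall _ hy.2).1
  case harm =>
    intro y hy hy0
    rw [lap_eq_lapl]
    refine (hall _ hy.2).2.1 ?_
    rw [hb, cLoc_bd x _ ((xc n x).map_target hy.1), (xc n x).right_inv hy.1]
    exact hy0.ne'
  case met =>
    intro y hy
    refine gram_of_imm (c := fun y => (w (F y)) ^ (4 / ((n : ℝ) - 2))) hW hu ?_ hy
    intro x' hx' v v'
    have h1 := (hall _ hx').2.2
    have hmd : MDifferentiableAt (𝓡∂ n) 𝓘(ℝ, E n) (fun y => (WithLp.toLp 2 (F y) : E n)) x' :=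
      (hu.contMDiffAt (hW.mem_nhds hx')).mdifferentiableAt (by simp)
    have h2 : (Matrix.of fun i j => B.dj (fun z => F (B.pt (B.at_ n M) x' z) i)
        ((B.at_ n M).ch x' x') j) = Matrix.of fun i j =>
          (dI (𝓡∂ n) (fun y => (WithLp.toLp 2 (F y) : E n)) x' (es n j)) i := by
      ext i j
      exact dj_F hmd i j
    rw [h2] at h1
    show S.bil (P.g x') v v' = _
    rw [h1]
    exact bil_jac _ v v'

end El

end Vale.Agent.P088.R2.H850
end
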