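import Vale.Agent.P088.R2.H850.El

/-!
# P088, THEOREM S: the conformal factor
-/

set_option linter.all false

open Bundle Manifold MeasureTheory Set Filter Topology
open scoped ContDiff Matrix

noncomputable section

namespace Vale.Agent.P088.R2.H850

open Vale.Agent.P088 Vale.Agent.P088.EYM Vale.Agent.P088.EYM.O Vale.Agent.P088.R2.G31
open Vale.Agent.P088.R2.H509

universe u

variable {n N N' : ℕ} [NeZero n] {M : Type u} [TopologicalSpace M]
  [ChartedSpace (EuclideanHalfSpace n) M] [IsManifold (𝓡∂ n) ∞ M]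

/-- The conformal factor. -/
def cfac (P : B.Pair (B.at_ n M) N) (Q : B.Pair (B.at_ n M) N') (x : M) : ℝ :=
  Q.g x 0 0 / P.g x 0 0

theorem cfac_pos (P : B.Pair (B.at_ n M) N) (Q : B.Pair (B.at_ n M) N') (x : M) :
    0 < cfac P Q x :=
  div_pos ((Q.pos x).1.diag_pos (i := 0)) ((P.pos x).1.diag_pos (i := 0))

theorem cfac_eq {P : B.Pair (B.at_ n M) N} {Q : B.Pair (B.at_ n M) N'} {x : M}
    (h : ∃ t : ℝ, Q.g x = t • P.g x) : Q.g x = cfac P Q x • P.g x := by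
  obtain ⟨t, ht⟩ := h
  have h1 : cfac P Q x = t := by
    unfold cfac
    rw [ht, Matrix.smul_apply, smul_eq_mul]
    exact mul_div_cancel_right₀ t ((P.pos x).1.diag_pos (i := 0)).ne'
  rw [h1]
  exact ht

theorem bil_smul (t : ℝ) (G : Matrix (Fin n) (Fin n) ℝ) (v w : E n) :
    S.bil (t • G) v w = t * S.bil G v w := by
  rw [S.bil_apply, S.bil_apply, Finset.mul_sum]
  refine Finset.sum_congr rfl fun i _ => ?_
  rw [Finset.mul_sum]
  refine Finset.sum_congr rfl fun j _ => ?_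
  rw [Matrix.smul_apply, smul_eq_mul, mul_assoc]

theorem cfac_inner {P : B.Pair (B.at_ n M) N} {Q : B.Pair (B.at_ n M) N'} {x : M}
    (h : ∃ t : ℝ, Q.g x = t • P.g x) (v w : TangentSpace (𝓡∂ n) x) :
    (S.gOf (B.conv Q)).inner x v w = cfac P Q x * (S.gOf (B.conv P)).inner x v w := by
  have h1 : S.bil (Q.g x) (v : E n) (w : E n) = cfac P Q x * S.bil (P.g x) (v : E n) (w : E n) := by
    rw [cfac_eq h]
    exact bil_smul _ _ _ _
  exact h1

theorem cfac_gram {P : B.Pair (B.at_ n M) N} {Q : B.Pair (B.at_ n M) N'} {x : M}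
    (h : ∃ t : ℝ, Q.g x = t • P.g x) (p : M) :
    gram (S.gOf (B.conv Q)) p x 0 0 = cfac P Q x * gram (S.gOf (B.conv P)) p x 0 0 :=
  cfac_inner h _ _

theorem cfac_sm {P : B.Pair (B.at_ n M) N} {Q : B.Pair (B.at_ n M) N'} {W : Set M} (hW : IsOpen W)
    (h : ∀ x ∈ W, ∃ t : ℝ, Q.g x = t • P.g x) :
    ContMDiffOn (𝓡∂ n) 𝓘(ℝ, ℝ) ∞ (cfac P Q) W := by
  intro x hx
  have hO : IsOpen (W ∩ (extChartAt (𝓡∂ n) x).source) := hW.inter (isOpen_extChartAt_source x)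
  have hxO : x ∈ W ∩ (extChartAt (𝓡∂ n) x).source := ⟨hx, mem_extChartAt_source x⟩
  have h1 : ContMDiffOn (𝓡∂ n) 𝓘(ℝ, ℝ) ∞ (fun y => gram (S.gOf (B.conv Q)) x y 0 0)
      (W ∩ (extChartAt (𝓡∂ n) x).source) :=
    ((S.gOf (B.conv Q)).smooth x 0 0).mono inter_subset_right
  have h2 : ContMDiffOn (𝓡∂ n) 𝓘(ℝ, ℝ) ∞ (fun y => gram (S.gOf (B.conv P)) x y 0 0)
      (W ∩ (extChartAt (𝓡∂ n) x).source) :=
    ((S.gOf (B.conv P)).smooth x 0 0).mono inter_subset_right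
  have hpos : ∀ y ∈ W ∩ (extChartAt (𝓡∂ n) x).source,
      gram (S.gOf (B.conv P)) x y 0 0 ≠ 0 := fun y hy =>
    ((gram_posDef (S.gOf (B.conv P)) hy.2).diag_pos (i := 0)).ne'
  have h3 : ContMDiffOn (𝓡∂ n) 𝓘(ℝ, ℝ) ∞ (cfac P Q) (W ∩ (extChartAt (𝓡∂ n) x).source) := by
    refine (h1.div₀ h2 hpos).congr fun y hy => ?_
    have h4 := cfac_gram (h y hy.1) x
    show cfac P Q y = gram (S.gOf (B.conv Q)) x y 0 0 / gram (S.gOf (B.conv P)) x y 0 0
    rw [h4, mul_div_cancel_right₀ _ (hpos y hy)]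
  exact (h3.contMDiffAt (hO.mem_nhds hxO)).contMDiffWithinAt

end Vale.Agent.P088.R2.H850
end
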