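import Vale.Agent.P088.R2.H850.Top2
import Vale.Agent.P088.R2.H850.BSpec
import Vale.Agent.P088.H5.ClosLP861

/-!
# P088, THEOREM S: mixed ordered / conformally flat situations, abstract form
-/

set_option linter.all false

open Bundle Manifold MeasureTheory Set Filter Topology Metric
open scoped ContDiff Matrix

noncomputable section

namespace Vale.Agent.P088.R2.H850

open Vale.Agent.P088 Vale.Agent.P088.EYM Vale.Agent.P088.EYM.O Vale.Agent.P088.R2.G31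
open Vale.Agent.P088.R2.H509

universe u

/-- Propagation of `E` through `O`. -/
theorem mix_top {M : Type*} [TopologicalSpace M] [LocallyConnectedSpace M] {O Γ D₀ : Set M}
    {E S₁ S₂ : M → Prop} (hO : IsOpen O) (hc : IsPreconnected O)
    (hD₀ : IsOpen D₀) (hD₀c : IsPreconnected D₀) (hD₀O : D₀ ⊆ O) (hne : (D₀ ∩ Γ).Nonempty)
    (hE0 : ∀ y ∈ D₀, E y)
    (hE₁ : ∀ x, E x → S₁ x) (hE₂ : ∀ x, E x → S₂ x) (hcl₁ : IsClosed {x | S₁ x})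
    (hcl₂ : IsClosed {x | S₂ x})
    (h₁ : ∀ W, IsOpen W → IsPreconnected W → W ⊆ O → (W ∩ Γ).Nonempty → (∀ x ∈ W, S₁ x) →
      ∀ x ∈ W, E x)
    (h₂ : ∀ W, IsOpen W → IsPreconnected W → W ⊆ O → (W ∩ Γ).Nonempty → (∀ x ∈ W, S₂ x) →
      ∀ x ∈ W, E x)
    (hloc : ∀ x ∈ O, (∃ V D₁ D₂ : Set M, IsOpen V ∧ x ∈ V ∧ IsOpen D₁ ∧ IsPreconnected D₁ ∧
      D₁ ⊆ O ∧ IsOpen D₂ ∧ IsPreconnected D₂ ∧ D₂ ⊆ O ∧ V ⊆ closure (D₁ ∪ D₂) ∧
      (∀ y ∈ D₁, S₁ y) ∧ (∀ y ∈ D₂, S₂ y)) ∨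
      ∃ D : Set M, IsOpen D ∧ x ∈ D ∧ D ⊆ O ∧ ∀ U, IsOpen U → IsPreconnected U → U ⊆ D → ∀ S,
        IsOpen S → IsPreconnected S → S ⊆ O → (S ∩ Γ).Nonempty → (∀ y ∈ S, E y) →
        (U ∩ S).Nonempty → ∀ y ∈ U, E y) : ∀ x ∈ O, E x := by
  obtain ⟨p, hp, hpΓ⟩ := hne
  set 𝒲 : Set (Set M) := {W | IsOpen W ∧ IsPreconnected W ∧ W ⊆ O ∧ p ∈ W ∧ ∀ x ∈ W, E x}
    with h𝒲
  set S : Set M := ⋃₀ 𝒲 with hSdef
  have hS : IsOpen S := isOpen_sUnion fun W hW => hW.1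
  have hSc : IsPreconnected S := isPreconnected_sUnion p 𝒲 (fun W hW => hW.2.2.2.1)
    fun W hW => hW.2.1
  have hSO : S ⊆ O := sUnion_subset fun W hW => hW.2.2.1
  have hSE : ∀ x ∈ S, E x := by
    rintro x ⟨W, hW, hx⟩
    exact hW.2.2.2.2 x hx
  have hpS : p ∈ S := ⟨D₀, ⟨hD₀, hD₀c, hD₀O, hp, hE0⟩, hp⟩
  have hsub : O ⊆ S := by
    refine hc.subset_of_closure_inter_subset hS ⟨p, hD₀O hp, hpS⟩ ?_
    rintro x ⟨hxS, hxO⟩
    rcases hloc x hxO with ⟨V, D₁, D₂, hV, hxV, hD₁, hD₁c, hD₁O, hD₂, hD₂c, hD₂O, hcl, hs₁, hs₂⟩ |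
      ⟨D, hD, hxD, hDO, hstep⟩
    · set V₀ : Set M := connectedComponentIn (V ∩ O) x with hV₀
      have hV₀o : IsOpen V₀ := (hV.inter hO).connectedComponentIn
      have hV₀c : IsPreconnected V₀ := isPreconnected_connectedComponentIn
      have hxV₀ : x ∈ V₀ := mem_connectedComponentIn ⟨hxV, hxO⟩
      have hV₀s : V₀ ⊆ V ∩ O := connectedComponentIn_subset _ _
      have hVS : (V₀ ∩ S).Nonempty := _root_.mem_closure_iff.1 hxS V₀ hV₀o hxV₀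
      obtain ⟨y, hyV, hyS⟩ := hVS
      have hycl : y ∈ closure (D₁ ∪ D₂) := hcl (hV₀s hyV).1
      obtain ⟨z, ⟨hzV, hzS⟩, hz⟩ := _root_.mem_closure_iff.1 hycl (V₀ ∩ S) (hV₀o.inter hS)
        ⟨hyV, hyS⟩
      have hE : ∀ y ∈ V₀, E y := by
        rcases hz with hz | hz
        · exact lp_step hE₁ hE₂ hcl₂ h₁ h₂ hS hSc hSO hpS hpΓ hSE hV₀o hV₀c
            (fun w hw => (hV₀s hw).2) ⟨y, hyV, hyS⟩ hD₁ hD₁c hD₁O ⟨z, hz, hzS⟩ hs₁ hs₂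
            fun w hw => hcl (hV₀s hw).1
        · exact lp_step hE₂ hE₁ hcl₁ h₂ h₁ hS hSc hSO hpS hpΓ hSE hV₀o hV₀c
            (fun w hw => (hV₀s hw).2) ⟨y, hyV, hyS⟩ hD₂ hD₂c hD₂O ⟨z, hz, hzS⟩ hs₂ hs₁
            fun w hw => by rw [union_comm]; exact hcl (hV₀s hw).1
      refine ⟨V₀ ∪ S, ⟨hV₀o.union hS, hV₀c.union' ⟨y, hyV, hyS⟩ hSc,
        union_subset (fun w hw => (hV₀s hw).2) hSO, Or.inr hpS, ?_⟩, Or.inl hxV₀⟩
      exact fun w hw => hw.elim (hE w) (hSE w)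
    · set V₀ : Set M := connectedComponentIn D x with hV₀
      have hV₀o : IsOpen V₀ := hD.connectedComponentIn
      have hV₀c : IsPreconnected V₀ := isPreconnected_connectedComponentIn
      have hxV₀ : x ∈ V₀ := mem_connectedComponentIn hxD
      have hV₀s : V₀ ⊆ D := connectedComponentIn_subset _ _
      have hVS : (V₀ ∩ S).Nonempty := _root_.mem_closure_iff.1 hxS V₀ hV₀o hxV₀
      have hE := hstep V₀ hV₀o hV₀c hV₀s S hS hSc hSO ⟨p, hpS, hpΓ⟩ hSE hVS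
      refine ⟨V₀ ∪ S, ⟨hV₀o.union hS, hV₀c.union' hVS hSc,
        union_subset (hV₀s.trans hDO) hSO, Or.inr hpS, ?_⟩, Or.inl hxV₀⟩
      exact fun w hw => hw.elim (hE w) (hSE w)
  exact fun x hx => hSE x (hsub hx)

variable {n N : ℕ} [NeZero n] {M : Type u} [TopologicalSpace M]
  [ChartedSpace (EuclideanHalfSpace n) M] [IsManifold (𝓡∂ n) ∞ M]

section Defs

variable [MeasurableSpace M]

/-- On `D`: conformal metrics, `P.g` conformally flat and scalar flat, a parallel unit section. -/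
def FC1 (P Q : One n N M) (D : Set M) : Prop :=
  (∃ c : M → ℝ, ContMDiffOn (𝓡∂ n) 𝓘(ℝ, ℝ) ∞ c D ∧ (∀ x ∈ D, 0 < c x) ∧
    ∀ x ∈ D, ∀ v w : TangentSpace (𝓡∂ n) x, Q.g.inner x v w = c x * P.g.inner x v w) ∧
  (∃ e : M → Fib N, ContMDiffOn (𝓡∂ n) 𝓘(ℝ, Fib N) ∞ e D ∧ (∀ x ∈ D, ‖e x‖ = 1) ∧
    ∀ x ∈ D, ∀ X : TangentSpace (𝓡∂ n) x, cov P.A e x X = 0) ∧
  ∀ x ∈ D, ∃ D' X om, CF P x D' X om

theorem FC1.mono {P Q : One n N M} {D D' : Set M} (h : FC1 P Q D) (hD : D' ⊆ D) :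
    FC1 P Q D' := by
  obtain ⟨⟨c, c1, c2, c3⟩, ⟨e, e1, e2, e3⟩, h3⟩ := h
  exact ⟨⟨c, c1.mono hD, fun x hx => c2 x (hD hx), fun x hx => c3 x (hD hx)⟩,
    ⟨e, e1.mono hD, fun x hx => e2 x (hD hx), fun x hx => e3 x (hD hx)⟩,
    fun x hx => h3 x (hD hx)⟩

end Defs

variable [T2Space M] [CompactSpace M] [ConnectedSpace M] [MeasurableSpace M] [BorelSpace M]
  {P Q : One n N M} {Γ : Set M}

/-- The step for regions of type `FC1`. -/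
theorem fc1_step (hC : H31.Core_statement) (hG : H338.GL_statement.{u}) (hn : 3 ≤ n)
    (hΓ : RelBd n Γ) (hd : SameD P Q Γ) {U₀ : Set M} (hU₀ : IsOpen U₀) (hU₀c : IsPreconnected U₀)
    (hcon : ∀ x ∈ U₀, ∀ X : TangentSpace (𝓡∂ n) x, P.A.form x X = Q.A.form x X)
    (h : FC1 P Q U₀) {V₀ : Set M} (hV₀ : IsOpen V₀) (hV₀c : IsPreconnected V₀)
    (hV₀Γ : (V₀ ∩ Γ).Nonempty) (hV₀A : AgreeOn P Q V₀) (hne : (U₀ ∩ V₀).Nonempty) :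
    ∀ x ∈ U₀, EqM P Q x := by
  obtain ⟨⟨c, c1, c2, c3⟩, ⟨e, e1, e2, e3⟩, h3⟩ := h
  exact fc_step hC hG ⟨hn, hΓ, hd, hU₀, c1, c2, c3, e1, e2, e3, hcon⟩ hU₀c
    (fun x hx => h3 x hx.1) hV₀ hV₀c hV₀Γ hV₀A hne

theorem eqM_symm {P Q : One n N M} {x : M} (h : EqM P Q x) : EqM Q P x := fun v w => (h v w).symm

/-- The starting point for regions of type `FC1`. -/
theorem fc1_start (hB : BDL_statement.{u}) (hn : 3 ≤ n) (hΓ : RelBd n Γ) (hd : SameD P Q Γ)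
    {D : Set M} (hD : IsOpen D)
    (hcon : ∀ x ∈ D, ∀ X : TangentSpace (𝓡∂ n) x, P.A.form x X = Q.A.form x X)
    (h : FC1 P Q D) {p : M} (hpD : p ∈ D) (hpΓ : p ∈ Γ) : ∀ᶠ x in 𝓝 p, EqM P Q x := by
  obtain ⟨⟨c, c1, c2, c3⟩, ⟨e, e1, e2, e3⟩, h3⟩ := h
  obtain ⟨D', X, om, hcf⟩ := h3 p hpD
  have h4 := hB n N M P Q Γ D c e hn hΓ hd hD c1 c2 c3 e1 e2 e3 hcon p D' X om hpΓ hpD hcf
  filter_upwards [h4, hD.mem_nhds hpD] with x hx hxD v w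
  rw [c3 x hxD, hx, one_mul]

/-- Mixed situations, abstract form. -/
theorem mix (hC : H31.Core_statement) (hG : H338.GL_statement.{u}) (hB : BDL_statement.{u})
    (hn : 3 ≤ n) (hN : 0 < N) {O : Set M} (hΓ : RelBd n Γ) (hO : IsOpen O)
    (hOc : IsPreconnected O) (hd : SameD P Q Γ)
    (hcon : ∀ x ∈ O, ∀ X : TangentSpace (𝓡∂ n) x, P.A.form x X = Q.A.form x X)
    (hst : ∃ D, IsOpen D ∧ IsPreconnected D ∧ D ⊆ O ∧ (D ∩ Γ).Nonempty ∧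
      ((∀ y ∈ D, (sig Q.g y - sig P.g y).PosSemidef) ∨
        (∀ y ∈ D, (sig P.g y - sig Q.g y).PosSemidef) ∨ FC1 P Q D ∨ FC1 Q P D))
    (hloc : ∀ x ∈ O, (∃ V D₁ D₂ : Set M, IsOpen V ∧ x ∈ V ∧ IsOpen D₁ ∧ IsPreconnected D₁ ∧
      D₁ ⊆ O ∧ IsOpen D₂ ∧ IsPreconnected D₂ ∧ D₂ ⊆ O ∧ V ⊆ closure (D₁ ∪ D₂) ∧
      (∀ y ∈ D₁, (sig Q.g y - sig P.g y).PosSemidef) ∧
      (∀ y ∈ D₂, (sig P.g y - sig Q.g y).PosSemidef)) ∨
      ∃ D : Set M, IsOpen D ∧ x ∈ D ∧ D ⊆ O ∧ (FC1 P Q D ∨ FC1 Q P D)) :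
    ∀ x ∈ closure O, EqM P Q x := by
  haveI : LocallyConnectedSpace M := ChartedSpace.locallyConnectedSpace (EuclideanHalfSpace n) M
  have hcon' : ∀ x ∈ O, ∀ X : TangentSpace (𝓡∂ n) x, Q.A.form x X = P.A.form x X :=
    fun x hx X => (hcon x hx X).symm
  have hd' : SameD Q P Γ := sameD_symm1 hd
  refine met_closure (O := O) ?_
  have hpsd : ∀ (R R' : One n N M) (x : M), EqM R R' x →
      (sig R'.g x - sig R.g x).PosSemidef := by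
    intro R R' x hx
    rw [sig_of_met hx, sub_self]
    exact Matrix.PosSemidef.zero
  have h₁ : ∀ W, IsOpen W → IsPreconnected W → W ⊆ O → (W ∩ Γ).Nonempty →
      (∀ x ∈ W, (sig Q.g x - sig P.g x).PosSemidef) → ∀ x ∈ W, EqM P Q x := by
    intro W hW hWc hWO hWΓ hWs
    exact lL_closed n N M P Q Γ W hn hN hΓ hW hWc hWΓ hd (fun x hx => hcon x (hWO hx)) hWs
  have h₂ : ∀ W, IsOpen W → IsPreconnected W → W ⊆ O → (W ∩ Γ).Nonempty →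
      (∀ x ∈ W, (sig P.g x - sig Q.g x).PosSemidef) → ∀ x ∈ W, EqM P Q x := by
    intro W hW hWc hWO hWΓ hWs x hx
    exact eqM_symm (lL_closed n N M Q P Γ W hn hN hΓ hW hWc hWΓ hd'
      (fun x hx => hcon' x (hWO hx)) hWs x hx)
  obtain ⟨D₀, hD₀, hD₀c, hD₀O, hD₀Γ, hE0⟩ : ∃ D₀ : Set M, IsOpen D₀ ∧ IsPreconnected D₀ ∧
      D₀ ⊆ O ∧ (D₀ ∩ Γ).Nonempty ∧ ∀ y ∈ D₀, EqM P Q y := by
    obtain ⟨D, hD, hDc, hDO, hDΓ, h1 | h1 | h1⟩ := hst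
    · exact ⟨D, hD, hDc, hDO, hDΓ, h₁ D hD hDc hDO hDΓ h1⟩
    · exact ⟨D, hD, hDc, hDO, hDΓ, h₂ D hD hDc hDO hDΓ h1⟩
    · obtain ⟨p, hpD, hpΓ⟩ := hDΓ
      have h2 : ∀ᶠ x in 𝓝 p, EqM P Q x := by
        rcases h1 with h1 | h1
        · exact fc1_start hB hn hΓ hd hD (fun x hx => hcon x (hDO hx)) h1 hpD hpΓ
        · exact (fc1_start hB hn hΓ hd' hD (fun x hx => hcon' x (hDO hx)) h1 hpD hpΓ).mono
            fun x hx => eqM_symm hx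
      obtain ⟨B, hB1, hBo, hpB⟩ := _root_.mem_nhds_iff.1 h2
      refine ⟨connectedComponentIn (B ∩ D) p, (hBo.inter hD).connectedComponentIn,
        isPreconnected_connectedComponentIn, fun x hx => hDO (connectedComponentIn_subset _ _ hx).2,
        ⟨p, mem_connectedComponentIn ⟨hpB, hpD⟩, hpΓ⟩,
        fun x hx => hB1 (connectedComponentIn_subset _ _ hx).1⟩
  refine mix_top (Γ := Γ) (D₀ := D₀) (E := fun x => EqM P Q x)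
    (S₁ := fun x => (sig Q.g x - sig P.g x).PosSemidef)
    (S₂ := fun x => (sig P.g x - sig Q.g x).PosSemidef) hO hOc hD₀ hD₀c hD₀O hD₀Γ hE0
    (fun x hx => hpsd P Q x hx) (fun x hx => hpsd Q P x (eqM_symm hx))
    (isClosed_psd P.g Q.g) (isClosed_psd Q.g P.g) h₁ h₂ ?_
  intro x hx
  rcases hloc x hx with h | ⟨D, hD, hxD, hDO, h⟩
  · exact Or.inl h
  · refine Or.inr ⟨D, hD, hxD, hDO, fun U hU hUc hUD S hS hSc hSO hSΓ hSE hUS => ?_⟩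
    rcases h with h | h
    · exact fc1_step hC hG hn hΓ hd hU hUc (fun y hy => hcon y (hDO (hUD hy))) (h.mono hUD) hS hSc
        hSΓ ⟨fun y hy => hcon y (hSO hy), fun y hy v w => hSE y hy v w⟩ hUS
    · intro y hy
      exact eqM_symm (fc1_step hC hG hn hΓ hd' hU hUc (fun y hy => hcon' y (hDO (hUD hy)))
        (h.mono hUD) hS hSc hSΓ ⟨fun y hy => hcon' y (hSO hy),
          fun y hy v w => (hSE y hy v w).symm⟩ hUS y hy)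

end Vale.Agent.P088.R2.H850
end
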