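import Vale.Agent.P088.R2.H850.Top
import Vale.Agent.P088.R2.H850.El2
import Vale.Agent.P088.H5.SC_332

/-!
# P088, THEOREM S: the elementary theorem (global form)
-/

set_option linter.all false

open Bundle Manifold MeasureTheory Set Filter Topology
open scoped ContDiff Matrix

noncomputable section

namespace Vale.Agent.P088.R2.H850

open Vale.Agent.P088 Vale.Agent.P088.EYM Vale.Agent.P088.EYM.O Vale.Agent.P088.R2.G31
open Vale.Agent.P088.R2.H509

universe u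

section Abs

variable {n N : ℕ} [NeZero n] {M : Type u} [TopologicalSpace M]
  [ChartedSpace (EuclideanHalfSpace n) M] [IsManifold (𝓡∂ n) ∞ M] [T2Space M] [CompactSpace M]
  [ConnectedSpace M] [MeasurableSpace M] [BorelSpace M]

/-- The topological argument, with charts as local immersions. -/
theorem top' {P Q : One n N M} {Γ : Set M} {c : M → ℝ} (hC : H31.Core_statement)
    (hG : GI_statement.{u}) (hB : BDM_statement.{u}) (h : Hyp P Q Γ c)
    (hint : ∀ x ∈ Mi n M, ∃ D X om, CF P x D X om)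
    (hbd : ∃ x ∈ Γ, ∃ D X om, CF P x D X om) : ∀ x, c x = 1 := by
  obtain ⟨y₀, hy₀, D, X, om, hcf⟩ := hbd
  refine top hC hG h (fun x hx => ?_) hy₀ (hB n N M P Q Γ c h.hn h.hN h.A1 h.A2 h.bd h.data h.sm
    h.pos h.conf y₀ D X om hy₀ hcf)
  obtain ⟨D, X, om, hcf⟩ := hint x hx
  have hx0 : 0 < xc n x x 0 := by
    have h1 : x ∉ (𝓡∂ n).boundary M := by
      intro h2
      rw [← (𝓡∂ n).compl_interior] at h2
      exact h2 hx
    have h2 : xc n x x 0 ≠ 0 := fun h3 => h1 ((cLoc_bd x x (mem_extChartAt_source x)).2 h3)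
    have h3 : (0 : ℝ) ≤ xc n x x 0 := hcf.rel.subset hcf.mem
    exact lt_of_le_of_ne h3 (Ne.symm h2)
  obtain ⟨D', X', Y', om', R, -, hxD', hR, hF⟩ := cf_flat hcf hcf.mem hx0
  exact ⟨x, D', X', Y', om', R, mem_extChartAt_source x, hxD', hR, hF⟩

theorem cf_of_eq {N' : ℕ} {P : One n N M} {P' : One n N' M} (h : P'.g = P.g) {x : M}
    {D : Set (E n)} {X : E n → E n} {om : E n → ℝ} (hc : CF P x D X om) : CF P' x D X om := by
  obtain ⟨h1, h2, h3, h4, h5, h6, h7, h8⟩ := hc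
  refine ⟨h1, h2, h3, h4, h5, h6, h7, fun y hy => ?_⟩
  rw [← h8 y hy]
  show gram P'.g x _ = gram P.g x _
  rw [h]

end Abs

section El

open Vale.Agent.P088.B7

variable {n N : ℕ} [NeZero n] {M : Type u} [TopologicalSpace M]
  [ChartedSpace (EuclideanHalfSpace n) M] [IsManifold (𝓡∂ n) ∞ M] [T2Space M] [CompactSpace M]
  [ConnectedSpace M]

/-- The reduction to the scalar problem. -/
theorem sc_data {Γ : Set M} (hΓb : Γ ⊆ B.bd (B.at_ n M)) {P Q : B.Pair (B.at_ n M) N}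
    (hd : B.SameData Γ P Q) {e e' : M → Fin N → ℂ} (he : B.Par P e) (he' : B.Par Q e')
    (h0 : e ≠ 0) (heq : ∀ x ∈ Γ, e' x = e x) {p : M} (hpΓ : p ∈ Γ) :
    @SameD n 1 _ M _ _ _ (borel M) (@scP n N _ M _ _ _ (borel M) (B2.one P))
      (@scP n N _ M _ _ _ (borel M) (B2.one Q)) Γ := by
  let _ : MeasurableSpace M := borel M
  have _ : BorelSpace M := ⟨rfl⟩
  have hb : ((𝓡∂ n).boundary M).Nonempty := by
    have h1 : B.bd (B.at_ n M) = (𝓡∂ n).boundary M := B.bd_at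
    rw [← h1]
    exact ⟨p, hΓb hpΓ⟩
  have hS := B.sameD_one hd
  have hE := (B2.par_toF P e).1 he
  have hE' := (B2.par_toF Q e').1 he'
  have hnorm := s0 n N M _ _ hE
  have hnorm' := s0 n N M _ _ hE'
  have hpe : S.toF e' p = S.toF e p := by
    show WithLp.toLp 2 (e' p) = WithLp.toLp 2 (e p)
    rw [heq p hpΓ]
  have hpos : 0 < ‖S.toF e p‖ := by
    rw [norm_pos_iff]
    intro h
    apply h0
    funext x
    have h2 := hnorm x p
    rw [h, norm_zero] at h2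
    have h3 : S.toF e x = 0 := norm_eq_zero.1 h2
    exact (WithLp.toLp_injective 2) (h3.trans (WithLp.toLp_zero 2).symm)
  set c : ℝ := ‖S.toF e p‖⁻¹ with hc
  have hc1 : ∀ x, ‖c • S.toF e x‖ = 1 := fun x => by
    rw [norm_smul, hnorm x p, hc, norm_inv, norm_norm, inv_mul_cancel₀ hpos.ne']
  have hc1' : ∀ x, ‖c • S.toF e' x‖ = 1 := fun x => by
    rw [norm_smul, hnorm' x p, hpe, hc, norm_inv, norm_norm, inv_mul_cancel₀ hpos.ne']
  exact sc_same hb hS (hE.smul c).toPar (hE'.smul c).toPar hc1 hc1' (fun x hx => by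
    show c • WithLp.toLp 2 (e' x) = c • WithLp.toLp 2 (e x)
    rw [heq x hx])

/-- The scalar theorem, global form. -/
theorem plain (hC : H31.Core_statement) (hG : GI_statement.{u}) (hB : BDM_statement.{u})
    (hn : 3 ≤ n) {Γ O : Set M} (hO : IsOpen O) (hΓ : Γ = O ∩ B.bd (B.at_ n M))
    {P Q : B.Pair (B.at_ n M) N} (hd : B.SameData Γ P Q) {e e' : M → Fin N → ℂ}
    (he : B.Par P e) (he' : B.Par Q e') (h0 : e ≠ 0) (heq : ∀ x ∈ Γ, e' x = e x)
    (hc : ∀ x, ∃ t : ℝ, Q.g x = t • P.g x) (hf : ∀ x ∉ B.bd (B.at_ n M), B9.FlatAt (B.at_ n M) P.g x)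
    (hf' : ∃ x ∈ Γ, B9.FlatAt (B.at_ n M) P.g x) : Q.g = P.g := by
  obtain ⟨p, hpΓ, hfp⟩ := hf'
  have hΓb : Γ ⊆ B.bd (B.at_ n M) := hΓ ▸ inter_subset_right
  have hS := sc_data hΓb hd he he' h0 heq hpΓ
  have hb : B.bd (B.at_ n M) = (𝓡∂ n).boundary M := B.bd_at
  rw [hb] at hΓ
  let _ : MeasurableSpace M := borel M
  have _ : BorelSpace M := ⟨rfl⟩
  have hyp : Hyp (scP (B2.one P)) (scP (B2.one Q)) Γ (cfac P Q) :=
    ⟨hn, one_pos, fun _ _ => rfl, fun _ _ => rfl, ⟨O, hO, hΓ⟩, hS,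
      contMDiffOn_univ.1 (cfac_sm isOpen_univ fun x _ => hc x), cfac_pos P Q,
      fun x v w => cfac_inner (hc x) v w⟩
  have h1 := top' hC hG hB hyp (fun x hx => by
      obtain ⟨D, X, om, h⟩ := el_cf (P := P) (hf x (by
        rw [hb, ← (𝓡∂ n).compl_interior]
        exact fun h => h hx))
      exact ⟨D, X, om, cf_of_eq (P := B2.one P) (P' := scP (B2.one P)) rfl h⟩) (by
      obtain ⟨D, X, om, h⟩ := el_cf hfp
      exact ⟨p, hpΓ, D, X, om, cf_of_eq (P := B2.one P) (P' := scP (B2.one P)) rfl h⟩)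
  funext x
  rw [cfac_eq (hc x), h1 x, one_smul]

end El

end Vale.Agent.P088.R2.H850
end
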