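import Vale.Agent.P088.R2.H850.El2
import Vale.Agent.P088.R2.H850.Mix
import Vale.Agent.P088.R2.H850.Plain
import Vale.Agent.P088.H5.I.Br275

/-!
# P088, THEOREM S: mixed situations, from the abstract to the elementary theorem
-/

set_option linter.all false

open Bundle Manifold MeasureTheory Set Filter Topology
open scoped ContDiff Matrix

noncomputable section

namespace Vale.Agent.P088.R2.H850

open Vale.Agent.P088 Vale.Agent.P088.EYM Vale.Agent.P088.EYM.O Vale.Agent.P088.R2.G31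
open Vale.Agent.P088.R2.H509

universe u

variable {n N : ℕ} [NeZero n] {M : Type u} [TopologicalSpace M]
  [ChartedSpace (EuclideanHalfSpace n) M] [IsManifold (𝓡∂ n) ∞ M]

/-- Flat coordinates for a pair with the same metric. -/
theorem cf_of_g {m m' : MeasurableSpace M} {N' : ℕ} {P : @One n N _ M _ _ _ m}
    {P' : @One n N' _ M _ _ _ m'}
    (h : @One.g n N' _ M _ _ _ m' P' = @One.g n N _ M _ _ _ m P)
    {x : M} {D : Set (E n)} {X : E n → E n} {om : E n → ℝ} (hc : @CF n N _ M _ _ _ m P x D X om) :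
    @CF n N' _ M _ _ _ m' P' x D X om := by
  obtain ⟨h1, h2, h3, h4, h5, h6, h7, h8⟩ := hc
  refine @CF.mk n N' _ M _ _ _ m' P' x D X om h1 h2 h3 h4 h5 h6 h7 fun y hy => ?_
  rw [← h8 y hy]
  show gram (@One.g n N' _ M _ _ _ m' P') x _ = gram (@One.g n N _ M _ _ _ m P) x _
  rw [h]

section Br

variable [MeasurableSpace M] [BorelSpace M] [T2Space M] [CompactSpace M] [ConnectedSpace M]

/-- From `Cf` and a section to `FC1`; the pairs may have other connections and ranks. -/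
theorem fc1_of {N' : ℕ} {D : Set M} (hD : IsOpen D) {P Q : B.Pair (B.at_ n M) N}
    (h : B9.Cf D P Q) {P' Q' : One n N' M} (hP : P'.g = S.gOf (B.conv P))
    (hQ : Q'.g = S.gOf (B.conv Q)) {e : M → Fib N'}
    (he : ContMDiffOn (𝓡∂ n) 𝓘(ℝ, Fib N') ∞ e D) (he1 : ∀ x ∈ D, ‖e x‖ = 1)
    (hep : ∀ x ∈ D, ∀ X : TangentSpace (𝓡∂ n) x, cov P'.A e x X = 0) : FC1 P' Q' D := by
  refine ⟨⟨cfac P Q, cfac_sm hD fun x hx => (h x hx).1, fun x _ => cfac_pos P Q x,
    fun x hx v w => ?_⟩, ⟨e, he, he1, hep⟩, fun x hx => ?_⟩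
  · rw [hP, hQ]
    exact cfac_inner (h x hx).1 v w
  · obtain ⟨D', X, om, h1⟩ := el_cf (P := P) (h x hx).2
    exact ⟨D', X, om, cf_of_g hP h1⟩

theorem norm_one {e : M → Fin N → ℂ} {x : M} (h : ∑ a, ‖e x a‖ ^ 2 = 1) : ‖S.toF e x‖ = 1 := by
  rw [EuclideanSpace.norm_eq]
  have h1 : ∑ a, ‖(S.toF e x) a‖ ^ 2 = 1 := h
  rw [h1, Real.sqrt_one]

/-- `FC1` from the second pair. -/
theorem fc1_Q {D : Set M} (hD : IsOpen D) {P Q : B.Pair (B.at_ n M) N} (h : B9.CfS D Q P)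
    {P' Q' : One n N M} (hP : P'.g = S.gOf (B.conv P)) (hQ : Q'.g = S.gOf (B.conv Q))
    (hQA : Q'.A = S.connOf (B.conv Q)) : FC1 Q' P' D := by
  obtain ⟨h1, e, he, he1⟩ := h
  obtain ⟨a1, a2⟩ := B5.parOn_to hD he
  exact fc1_of hD h1 (P' := Q') (Q' := P') hQ hP a1 (fun x hx => norm_one (he1 x hx))
    (by rw [hQA]; exact a2)

/-- `FC1` from the transform of the first pair. -/
theorem fc1_P {D : Set M} (hD : IsOpen D) {P Q : B.Pair (B.at_ n M) N} (h : B9.CfS D P Q)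
    {V : M → EndF N} (hV : IsSmoothUnitary (𝓡∂ n) V) {P' Q' : One n N M}
    (hP : P'.g = S.gOf (B.conv P)) (hPA : P'.A = S.connOf (B.conv P))
    (hQ : Q'.g = S.gOf (B.conv Q)) :
    FC1 (wA P' (gConn P'.A hV)) Q' D := by
  obtain ⟨h1, e, he, he1⟩ := h
  obtain ⟨a1, a2⟩ := B5.parOn_to hD he
  rw [← hPA] at a2
  refine fc1_of hD h1 (P' := wA P' (gConn P'.A hV)) (Q' := Q') hP hQ
    (e := fun y => appL (adjRE (V y)) (S.toF e y)) ?_ ?_ ?_
  · exact (MG590.isBB_app (N := N)).contDiff.contMDiff.comp_contMDiffOn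
      ((adjRE.contMDiff.comp hV.smooth).contMDiffOn.prodMk_space a1)
  · intro x hx
    have h2 : ‖ContinuousLinearMap.adjoint (V x) (S.toF e x)‖ = ‖S.toF e x‖ := by
      have h3 := Unitary.star_mem (hV.unitary x)
      exact ContinuousLinearMap.norm_map_of_mem_unitary h3 (S.toF e x)
    rw [← norm_one (he1 x hx), ← h2]
    rfl
  · intro x hx X
    exact cov_gsL hV (gConn_form _ hV x X)
      ((a1.contMDiffAt (hD.mem_nhds hx)).mdifferentiableAt (by simp)) (a2 x hx X)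

end Br

end Vale.Agent.P088.R2.H850
end
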