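import Vale.Agent.P088.R2.H850.El3
import Vale.Agent.P088.H5.Fin3_820

/-!
# P088, THEOREM S: mixed situations, elementary theorems on one manifold
-/

set_option linter.all false

open Bundle Manifold MeasureTheory Set Filter Topology
open scoped ContDiff Matrix

noncomputable section

namespace Vale.Agent.P088.R2.H850

open Vale.Agent.P088 Vale.Agent.P088.EYM Vale.Agent.P088.EYM.O Vale.Agent.P088.R2.G31
open Vale.Agent.P088.R2.H509

universe u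

section

variable {n N : ℕ} {M : Type u} {Z : B.At n M} [TopologicalSpace M]

/-- equal metrics are ordered -/
theorem pw8_of_eq {O Γ : Set M} {P Q : B.Pair Z N} (hO : IsOpen O) (hOc : IsPreconnected O)
    (hne : (O ∩ Γ).Nonempty) (h : ∀ x ∈ O, Q.g x = P.g x) : B8.PwLe O Γ P Q := by
  obtain ⟨⟨D, h1, h2, h3, h4, h5⟩, h6⟩ := B8.pw_of_eq hO hOc hne h
  exact ⟨O, Subset.rfl, subset_closure, hO, hOc, ⟨D, h1, h2, h3, h4, h5⟩, h6⟩

theorem cmp_conn {C : Set M → B.Pair Z N → B.Pair Z N → Prop} {O Γ : Set M} {P Q : B.Pair Z N}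
    (h : B9.Cmp C O Γ P Q) : IsPreconnected O ∧ (O ∩ Γ).Nonempty := by
  obtain ⟨W, hWO, hOW, hW, hWc, ⟨D, hDW, hD1, hD2, hD3, hD4⟩, hloc⟩ := h
  exact ⟨hWc.subset_closure hWO hOW, hD3.mono fun x hx => ⟨hWO (hDW hx.1), hx.2⟩⟩

end

/-- the local clause -/
theorem locC (hC : H31.Core_statement) (hG : H338.GL_statement.{u}) (hB : BDL_statement.{u})
    {n N : ℕ} [NeZero n] {M : Type u} [TopologicalSpace M]
    [ChartedSpace (EuclideanHalfSpace n) M] [IsManifold (𝓡∂ n) ∞ M] [T2Space M] [CompactSpace M]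
    [ConnectedSpace M] (hn : 3 ≤ n) (hN : 1 ≤ N) (Z : B.At n M) (hZ : Z = B.at_ n M)
    (Γ O₀ : Set M) (hO₀ : IsOpen O₀) (hΓ : Γ = O₀ ∩ B.bd Z) (P Q : B.Pair Z N)
    (hd : B.SameData Γ P Q) (O : Set M) (hO : IsOpen O) (hp : B9.Cmp B9.CfS O Γ P Q)
    (U : M → Matrix (Fin N) (Fin N) ℂ) (hU : B8.GaugeBy U O (O ∩ Γ) P.A Q.A Z) :
    (∀ x ∈ closure O, Q.g x = P.g x) ∧ ∀ f u u', B.Data Z (O ∩ Γ) f → B.Harm P f u →
      B.Harm Q f u' → ∀ x ∈ O, u x = U x *ᵥ u' x := by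
  obtain ⟨hOc, hOne⟩ := cmp_conn hp
  have key : ∀ x ∈ closure O, Q.g x = P.g x := by
    obtain ⟨W, hWO, hOW, hW, hWp, ⟨D, hDW, hDo, hDp, hDΓ, hDs⟩, hloc⟩ := hp
    have hcl : closure O ⊆ closure W := closure_minimal hOW isClosed_closure
    subst hZ
    have hb : B.bd (B.at_ n M) = (𝓡∂ n).boundary M := B.bd_at
    let _ : MeasurableSpace M := borel M
    have _ : BorelSpace M := ⟨rfl⟩
    have hG' : B5.GaugeBy U W (W ∩ Γ) P.A Q.A (B.at_ n M) :=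
      ⟨hU.1, hU.2.1, fun x hx => hU.2.2.1 x ⟨hWO hx.1, hx.2⟩, fun x hx => hU.2.2.2 x (hWO hx)⟩
    have hS : EYM.SameD (B2.one P) (B2.one Q) (W ∩ Γ) :=
      B.sameD_one (B.sameData_mono inter_subset_right hd)
    have hR : EYM.RelBd n (W ∩ Γ) := ⟨W ∩ O₀, hW.inter hO₀, by rw [hΓ, hb, inter_assoc]⟩
    obtain ⟨hV, hV1, hV2⟩ := B5.toGaugeBy hG'
    set V : M → EndF N := fun x => S.toE (U x) with hVd
    have h3 := (EYM.O.mg_closed n N M (B2.one P) (B2.one Q) (W ∩ Γ)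
      (EYM.O.gConn (B2.one P).A hV) V hV hV1 (EYM.O.gConn_form _ hV)).1.1 hS
    have hs1 : ∀ {D : Set M}, B8.Le D P Q → ∀ y ∈ D, (EYM.O.sig (B2.one Q).g y -
        EYM.O.sig (EYM.O.wA (B2.one P) (EYM.O.gConn (B2.one P).A hV)).g y).PosSemidef := by
      intro D h y hy
      show (EYM.O.sig (S.gOf (B.conv Q)) y - EYM.O.sig (S.gOf (B.conv P)) y).PosSemidef
      rw [B.sig_sub P Q y]
      exact h y hy
    have hs2 : ∀ {D : Set M}, B8.Le D Q P → ∀ y ∈ D,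
        (EYM.O.sig (EYM.O.wA (B2.one P) (EYM.O.gConn (B2.one P).A hV)).g y -
          EYM.O.sig (B2.one Q).g y).PosSemidef := by
      intro D h y hy
      show (EYM.O.sig (S.gOf (B.conv P)) y - EYM.O.sig (S.gOf (B.conv Q)) y).PosSemidef
      rw [B.sig_sub Q P y]
      exact h y hy
    have hA : ∀ x ∈ W, ∀ X : TangentSpace (𝓡∂ n) x,
        (EYM.O.wA (B2.one P) (EYM.O.gConn (B2.one P).A hV)).A.form x X =
          (B2.one Q).A.form x X := fun y hy X => (hV2 y hy X).symm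
    have hmet := mix hC hG hB (P := EYM.O.wA (B2.one P) (EYM.O.gConn (B2.one P).A hV))
      (Q := B2.one Q) (Γ := W ∩ Γ) hn hN hR hW hWp h3 hA
      ⟨D, hDo, hDp, hDW, by
        obtain ⟨y, hy, hyΓ⟩ := hDΓ
        exact ⟨y, hy, hDW hy, hyΓ⟩,
        hDs.imp hs1 (Or.imp hs2 (Or.imp (fun h => fc1_P hDo h hV rfl rfl rfl)
          fun h => fc1_Q hDo h rfl rfl rfl))⟩
      (fun y hy => by
        obtain ⟨V', h1, h2, h | ⟨D₁, h4, h5, h6, h7, D₂, h8, h9, h10, h11, h12⟩⟩ := hloc y hy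
        · exact Or.inr ⟨V', h1, h2, h.1, h.2.imp (fun h => fc1_P h1 h hV rfl rfl rfl)
            fun h => fc1_Q h1 h rfl rfl rfl⟩
        · exact Or.inl ⟨V', D₁, D₂, h1, h2, h5, h6, h4, h9, h10, h8, h12, hs1 h7, hs2 h11⟩)
    exact fun x hx => B.met_of_inner_at (P := P) (Q := Q) (hmet x (hcl hx))
  refine ⟨key, ?_⟩
  exact (B8.loc hn hN Z hZ Γ O₀ hO₀ hΓ P Q hd O hO
    (pw8_of_eq hO hOc hOne fun x hx => key x (subset_closure hx)) U hU).2

end Vale.Agent.P088.R2.H850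
end
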