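import Vale.Agent.P088.R2.H850.El3

/-!
# P088, THEOREM S: mixed situations, the scalar problem
-/

set_option linter.all false

open Bundle Manifold MeasureTheory Set Filter Topology
open scoped ContDiff Matrix

noncomputable section

namespace Vale.Agent.P088.R2.H850

open Vale.Agent.P088 Vale.Agent.P088.EYM Vale.Agent.P088.EYM.O Vale.Agent.P088.R2.G31
open Vale.Agent.P088.R2.H509

universe u

/-- parallel sections which agree on `Γ` -/
theorem scalC (hC : H31.Core_statement) (hG : H338.GL_statement.{u}) (hB : BDL_statement.{u})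
    {n N : ℕ} [NeZero n] {M : Type u} [TopologicalSpace M]
    [ChartedSpace (EuclideanHalfSpace n) M] [IsManifold (𝓡∂ n) ∞ M] [T2Space M] [CompactSpace M]
    [ConnectedSpace M] (hn : 3 ≤ n) (Γ O₀ : Set M)
    (hO₀ : IsOpen O₀) (hΓ : Γ = O₀ ∩ B.bd (B.at_ n M)) (P Q : B.Pair (B.at_ n M) N)
    (hd : B.SameData Γ P Q) (e e' : M → Fin N → ℂ) (he : B.Par P e) (he' : B.Par Q e')
    (h0 : e ≠ 0) (heq : ∀ x ∈ Γ, e' x = e x) (O : Set M) (hp : B9.Cmp B9.Cf O Γ P Q) :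
    ∀ x ∈ closure O, Q.g x = P.g x := by
  obtain ⟨W, hWO, hOW, hW, hWp, ⟨D, hDW, hDo, hDp, hDΓ, hDs⟩, hloc⟩ := hp
  have hcl : closure O ⊆ closure W := closure_minimal hOW isClosed_closure
  have hb : B.bd (B.at_ n M) = (𝓡∂ n).boundary M := B.bd_at
  let _ : MeasurableSpace M := borel M
  have _ : BorelSpace M := ⟨rfl⟩
  obtain ⟨p, hpD, hpΓ⟩ := hDΓ
  have hS := sc_data (Γ := W ∩ Γ) (fun x hx => by rw [hΓ] at hx; exact hx.2.2)
    (B.sameData_mono inter_subset_right hd) he he' h0 (fun x hx => heq x hx.2)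
    (p := p) ⟨hDW hpD, hpΓ⟩
  have hR : EYM.RelBd n (W ∩ Γ) := ⟨W ∩ O₀, hW.inter hO₀, by rw [hΓ, hb, inter_assoc]⟩
  have hs1 : ∀ {D : Set M}, B8.Le D P Q → ∀ y ∈ D, (EYM.O.sig (scP (B2.one Q)).g y -
      EYM.O.sig (scP (B2.one P)).g y).PosSemidef := by
    intro D h y hy
    show (EYM.O.sig (S.gOf (B.conv Q)) y - EYM.O.sig (S.gOf (B.conv P)) y).PosSemidef
    rw [B.sig_sub P Q y]
    exact h y hy
  have hs2 : ∀ {D : Set M}, B8.Le D Q P → ∀ y ∈ D,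
      (EYM.O.sig (scP (B2.one P)).g y - EYM.O.sig (scP (B2.one Q)).g y).PosSemidef := by
    intro D h y hy
    show (EYM.O.sig (S.gOf (B.conv P)) y - EYM.O.sig (S.gOf (B.conv Q)) y).PosSemidef
    rw [B.sig_sub Q P y]
    exact h y hy
  have hf1 : ∀ {D : Set M}, IsOpen D → B9.Cf D P Q → FC1 (scP (B2.one P)) (scP (B2.one Q)) D :=
    fun {D} hD h => fc1_of hD h rfl rfl (e := fun _ => sc0) contMDiffOn_const
      (fun _ _ => sc0_norm) fun x _ X => (par_sc0 (B2.one P)).2 x X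
  have hf2 : ∀ {D : Set M}, IsOpen D → B9.Cf D Q P → FC1 (scP (B2.one Q)) (scP (B2.one P)) D :=
    fun {D} hD h => fc1_of hD h rfl rfl (e := fun _ => sc0) contMDiffOn_const
      (fun _ _ => sc0_norm) fun x _ X => (par_sc0 (B2.one Q)).2 x X
  have hmet := mix hC hG hB (P := scP (B2.one P)) (Q := scP (B2.one Q)) (Γ := W ∩ Γ) hn one_pos hR
    hW hWp hS (fun _ _ _ => rfl)
    ⟨D, hDo, hDp, hDW, ⟨p, hpD, hDW hpD, hpΓ⟩,
      hDs.imp hs1 (Or.imp hs2 (Or.imp (hf1 hDo) (hf2 hDo)))⟩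
    (fun y hy => by
      obtain ⟨V', h1, h2, h | ⟨D₁, h4, h5, h6, h7, D₂, h8, h9, h10, h11, h12⟩⟩ := hloc y hy
      · exact Or.inr ⟨V', h1, h2, h.1, h.2.imp (hf1 h1) (hf2 h1)⟩
      · exact Or.inl ⟨V', D₁, D₂, h1, h2, h5, h6, h4, h9, h10, h8, h12, hs1 h7, hs2 h11⟩)
  exact fun x hx => B.met_of_inner_at (P := P) (Q := Q) (hmet x (hcl hx))

end Vale.Agent.P088.R2.H850
end
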