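import Vale.Agent.P088.R2.H850.El4
import Vale.Agent.P088.R2.H850.El5

/-!
# P088, THEOREM S: holes and Question 1
-/

set_option linter.all false

open Bundle Manifold MeasureTheory Set Filter Topology
open scoped ContDiff Matrix

noncomputable section

namespace Vale.Agent.P088.R2.H850

open Vale.Agent.P088 Vale.Agent.P088.B Vale.Agent.P088.B2 Vale.Agent.P088.B8

universe u

/-- the clause on holes -/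
theorem holeC (hC : H31.Core_statement) (hG : H338.GL_statement.{u}) (hB : BDL_statement.{u})
    {n N : ℕ} [NeZero n] {M : Type u} [TopologicalSpace M]
    [ChartedSpace (EuclideanHalfSpace n) M] [IsManifold (𝓡∂ n) ∞ M] [T2Space M] [CompactSpace M]
    [ConnectedSpace M] (hn : 3 ≤ n) (hN : 1 ≤ N) (Z : At n M) (hZ : Z = at_ n M)
    (Γ O₀ : Set M) (hO₀ : IsOpen O₀) (hΓ : Γ = O₀ ∩ bd Z) (hne : Γ.Nonempty) (P Q : Pair Z N)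
    (hd : B.SameData Γ P Q) (U : M → Matrix (Fin N) (Fin N) ℂ) (K V : Set M)
    (h : B9.Hole U K V Γ P Q) :
    (∀ x ∉ K, Q.g x = P.g x) ∧
      (∀ e, ParOn V P e → ∃ e', ParOn V Q e' ∧ ∀ x ∉ K, e x = U x *ᵥ e' x) ∧
      (PureOn V P.A Z → ∃ U', GaugeBy U' univ Γ P.A Q.A Z ∧ ∀ x ∉ K, U' x = U x) := by
  obtain ⟨hK, hKb, hKc, hV, hKV, hcmp, hU⟩ := h
  have h1 := (locC hC hG hB hn hN Z hZ Γ O₀ hO₀ hΓ P Q hd Kᶜ hK.isOpen_compl hcmp U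
    ⟨hU.1, hU.2.1, fun x hx => hU.2.2.1 x hx.2, hU.2.2.2⟩).1
  have h2 : B8.Hole U K V Γ P Q := ⟨hK, hKb, hKc, hV, hKV,
    pw8_of_eq hK.isOpen_compl hKc (cmp_conn hcmp).2 fun x hx => h1 x (subset_closure hx), hU⟩
  exact hole' hn hN Z hZ Γ O₀ hO₀ hΓ hne P Q hd U K V h2

/-- Question 1, for the transform -/
theorem q1keyC (hC : H31.Core_statement) (hG : H338.GL_statement.{u}) (hB : BDL_statement.{u})
    {n N : ℕ} [NeZero n] {M : Type u} [TopologicalSpace M]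
    [ChartedSpace (EuclideanHalfSpace n) M] [IsManifold (𝓡∂ n) ∞ M] [T2Space M] [CompactSpace M]
    [ConnectedSpace M] (hn : 3 ≤ n) (hN : 1 ≤ N) (Γ O₀ : Set M)
    (hO₀ : IsOpen O₀) (hΓ : Γ = O₀ ∩ bd (at_ n M)) (hne : Γ.Nonempty)
    (P' Q : Pair (at_ n M) N) (hd' : B.SameData Γ P' Q)
    (h : (B9.Cmp B9.CfS univ Γ P' Q ∧
        ∃ U K V, B9.Hole U K V Γ P' Q ∧ PureOn V P'.A (at_ n M)) ∨
      (B9.Cmp B9.Cf univ Γ P' Q ∧ (∃ U, GaugeBy U univ Γ 0 P'.A (at_ n M)) ∧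
        (Γ = bd (at_ n M) ∨ ∃ U, GaugeBy U univ Γ 0 Q.A (at_ n M)))) :
    (∃ V, GaugeBy V univ Γ P'.A Q.A (at_ n M)) ∧ Q.g = P'.g := by
  rcases h with ⟨h1, U, K, V, h2, h3⟩ | ⟨h1, ⟨U, hU⟩, h3⟩
  · obtain ⟨U', hU', -⟩ := (holeC hC hG hB hn hN (at_ n M) rfl Γ O₀ hO₀ hΓ hne P' Q hd' U K V
      h2).2.2 h3
    refine ⟨⟨U', hU'⟩, ?_⟩
    have h4 := (locC hC hG hB hn hN (at_ n M) rfl Γ O₀ hO₀ hΓ P' Q hd' univ isOpen_univ h1 U'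
      (by rw [univ_inter]; exact hU')).1
    exact funext fun x => h4 x (by rw [closure_univ]; exact mem_univ x)
  · obtain ⟨U', hU'⟩ : ∃ U, GaugeBy U univ Γ 0 Q.A (at_ n M) := by
      rcases h3 with h3 | h3
      · exact ((B5.smooth_par hn hN (at_ n M) rfl Γ O₀ hO₀ hΓ hne P' Q hd').1
          (Or.inl h3)).2 ⟨U, hU⟩
      · exact h3
    have e1 : GaugeEq Γ 0 P'.A (at_ n M) :=
      ⟨U, hU.1, hU.2.1, hU.2.2.1, fun x j => hU.2.2.2 x (mem_univ x) j⟩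
    have e2 : GaugeEq Γ 0 Q.A (at_ n M) :=
      ⟨U', hU'.1, hU'.2.1, hU'.2.2.1, fun x j => hU'.2.2.2 x (mem_univ x) j⟩
    obtain ⟨V, k1, k2, k3, k4⟩ := B5.gauge_triv e1 e2
    refine ⟨⟨V, k1, k2, k3, fun x _ j => k4 x j⟩, ?_⟩
    have hU₁ : B7.GaugeBy U univ Γ 0 P'.A (at_ n M) := hU
    have hU₂ : B7.GaugeBy U' univ Γ 0 Q.A (at_ n M) := hU'
    have h4 := scalC hC hG hB hn Γ O₀ hO₀ hΓ P' Q hd' _ _ (B6.cols_par hU₁ ⟨0, hN⟩)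
      (B6.cols_par hU₂ ⟨0, hN⟩) (fun h => ?_) (fun x hx => ?_) univ h1
    · exact funext fun x => h4 x (by rw [closure_univ]; exact mem_univ x)
    · obtain ⟨p, hp⟩ := hne
      have h4 := congrFun (congrFun h p) ⟨0, hN⟩
      have h5 : (U p)ᴴ ⟨0, hN⟩ ⟨0, hN⟩ = 0 := h4
      rw [hU.2.2.1 p hp, Matrix.conjTranspose_one, Matrix.one_apply_eq] at h5
      exact one_ne_zero h5
    · funext a
      show (U' x)ᴴ a ⟨0, hN⟩ = (U x)ᴴ a ⟨0, hN⟩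
      rw [hU'.2.2.1 x hx, hU.2.2.1 x hx]

/-- Question 1 -/
theorem q1C (hC : H31.Core_statement) (hG : H338.GL_statement.{u}) (hB : BDL_statement.{u})
    {n N : ℕ} [NeZero n] {M : Type u} [TopologicalSpace M]
    [ChartedSpace (EuclideanHalfSpace n) M] [IsManifold (𝓡∂ n) ∞ M] [T2Space M] [CompactSpace M]
    [ConnectedSpace M] (hn : 3 ≤ n) (hN : 1 ≤ N) (Z : At n M) (hZ : Z = at_ n M) (Γ O₀ : Set M)
    (hO₀ : IsOpen O₀) (hΓ : Γ = O₀ ∩ bd Z) (hne : Γ.Nonempty) (P P' Q : Pair Z N)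
    (hd : B.SameData Γ P Q) (hR : Related Γ P P')
    (h : (B9.Cmp B9.CfS univ Γ P' Q ∧ ∃ U K V, B9.Hole U K V Γ P' Q ∧ PureOn V P'.A Z) ∨
      (B9.Cmp B9.Cf univ Γ P' Q ∧ (∃ U, GaugeBy U univ Γ 0 P'.A Z) ∧
        (Γ = bd Z ∨ ∃ U, GaugeBy U univ Γ 0 Q.A Z))) :
    Related Γ P Q := by
  have hd' : B.SameData Γ P' Q := B.same_related Z hZ hO₀ hΓ hne hR hd
  subst hZ
  obtain ⟨⟨V, hV⟩, hg⟩ := q1keyC hC hG hB hn hN Γ O₀ hO₀ hΓ hne P' Q hd' h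
  exact B5.related_of hR hV hg

/-- Question 1, two manifolds -/
theorem q1C_two (hC : H31.Core_statement) (hG : H338.GL_statement.{u}) (hB : BDL_statement.{u})
    {n N : ℕ} [NeZero n] (hn : 3 ≤ n) (hN : 1 ≤ N) {M₁ M₂ : Type u}
    [TopologicalSpace M₁] [ChartedSpace (EuclideanHalfSpace n) M₁] [IsManifold (𝓡∂ n) ∞ M₁]
    [T2Space M₁] [CompactSpace M₁] [ConnectedSpace M₁]
    [TopologicalSpace M₂] [ChartedSpace (EuclideanHalfSpace n) M₂] [IsManifold (𝓡∂ n) ∞ M₂]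
    [T2Space M₂] [CompactSpace M₂] [ConnectedSpace M₂]
    (Z₁ : At n M₁) (hZ₁ : Z₁ = at_ n M₁) (Z₂ : At n M₂) (hZ₂ : Z₂ = at_ n M₂)
    (Γ₁ O₁ : Set M₁) (hO₁ : IsOpen O₁) (hΓ₁ : Γ₁ = O₁ ∩ bd Z₁) (hne : Γ₁.Nonempty)
    (Γ₂ O₂ : Set M₂) (hO₂ : IsOpen O₂) (hΓ₂ : Γ₂ = O₂ ∩ bd Z₂) (ψ : M₂ → M₁)
    (hψ : Iden N Z₁ Z₂ Γ₁ Γ₂ ψ) (P : Pair Z₁ N) (Q : Pair Z₂ N) (hd : SameData₂ Γ₁ Γ₂ ψ P Q)
    (P' : Pair Z₂ N) (hR : Related₂ Γ₁ Γ₂ ψ P P')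
    (h : (B9.Cmp B9.CfS univ Γ₂ P' Q ∧ ∃ U K V, B9.Hole U K V Γ₂ P' Q ∧ PureOn V P'.A Z₂) ∨
      (B9.Cmp B9.Cf univ Γ₂ P' Q ∧ (∃ U, GaugeBy U univ Γ₂ 0 P'.A Z₂) ∧
        (Γ₂ = bd Z₂ ∨ ∃ U, GaugeBy U univ Γ₂ 0 Q.A Z₂))) :
    Related₂ Γ₁ Γ₂ ψ P Q := by
  obtain ⟨Φ, Ψ, U, b1, b2, b3, b4, b5, b6, b7, b8, -⟩ := hR
  have hR' : Rel₂ Γ₂ ψ P P' Φ Ψ U := ⟨b1, b2, b3, b4, b5, b6, b7, b8⟩
  subst hZ₁ hZ₂
  have hne₂ : Γ₂.Nonempty := by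
    obtain ⟨x, hx⟩ := hne
    obtain ⟨y, hy, -⟩ := hψ.1.surjOn hx
    exact ⟨y, hy⟩
  have hS := B6.same_rel2 hO₁ hΓ₁ hne hO₂ hΓ₂ hψ hR' hd
  obtain ⟨⟨V, hV⟩, hg⟩ := q1keyC hC hG hB hn hN Γ₂ O₂ hO₂ hΓ₂ hne₂ P' Q hS h
  obtain ⟨U', hU'⟩ := B6.rel_gauge hR'
    ⟨V, hV.1, hV.2.1, hV.2.2.1, fun x j => hV.2.2.2 x (mem_univ x) j⟩ hg
  have hs := B6.rel_sol hO₁ hΓ₁ hne hO₂ hΓ₂ hψ hU'
  obtain ⟨c1, c2, c3, c4, c5, c6, c7, c8⟩ := hU'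
  exact ⟨Φ, Ψ, U', c1, c2, c3, c4, c5, c6, c7, c8, hs⟩

end Vale.Agent.P088.R2.H850
end
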