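import Vale.Agent.P088.R2.H850.El6

/-!
# P088, THEOREM S: global scalar statements
-/

set_option linter.all false

open Bundle Manifold MeasureTheory Set Filter Topology
open scoped ContDiff Matrix

noncomputable section

namespace Vale.Agent.P088.R2.H850

open Vale.Agent.P088 Vale.Agent.P088.B Vale.Agent.P088.B2 Vale.Agent.P088.B8

universe u

section

variable {n N : ℕ} [NeZero n] {M : Type u} [TopologicalSpace M]
  [ChartedSpace (EuclideanHalfSpace n) M] [IsManifold (𝓡∂ n) ∞ M]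

/-- `FlatAt` is an open condition. -/
theorem flatAt_open {Z : At n M} {g : M → Matrix (Fin n) (Fin n) ℝ} {x : M}
    (h : B9.FlatAt Z g x) : ∃ W, IsOpen W ∧ x ∈ W ∧ ∀ y ∈ W, B9.FlatAt Z g y := by
  obtain ⟨W, F, w, h1, h2, h3⟩ := h
  exact ⟨W, h1, h2, fun y hy => ⟨W, F, w, h1, hy, h3⟩⟩

/-- The global comparison from the simple hypotheses. -/
theorem cmp_plain [T2Space M] [CompactSpace M] [ConnectedSpace M] {Γ : Set M}
    {P Q : Pair (at_ n M) N} (hc : ∀ x, ∃ t : ℝ, Q.g x = t • P.g x)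
    (hf : ∀ x ∉ bd (at_ n M), B9.FlatAt (at_ n M) P.g x)
    (hf' : ∃ x ∈ Γ, B9.FlatAt (at_ n M) P.g x) : B9.Cmp B9.Cf univ Γ P Q := by
  haveI : LocallyConnectedSpace M := ChartedSpace.locallyConnectedSpace (EuclideanHalfSpace n) M
  obtain ⟨hMo, hMc, hMd⟩ := TM.fConn n M
  have hb : bd (at_ n M) = (𝓡∂ n).boundary M := bd_at
  obtain ⟨p, hpΓ, hp⟩ := hf'
  obtain ⟨W₀, h1, h2, h3⟩ := flatAt_open hp
  set D : Set M := connectedComponentIn W₀ p with hD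
  have hDo : IsOpen D := h1.connectedComponentIn
  have hDc : IsPreconnected D := isPreconnected_connectedComponentIn
  have hpD : p ∈ D := mem_connectedComponentIn h2
  have hDW : D ⊆ W₀ := connectedComponentIn_subset _ _
  have hfi : ∀ x ∈ EYM.Mi n M, B9.FlatAt (at_ n M) P.g x := fun x hx => hf x (by
    rw [hb, ← (𝓡∂ n).compl_interior]
    exact fun h => h hx)
  obtain ⟨y, hyD, hyM⟩ := _root_.mem_closure_iff.1 (hMd p) D hDo hpD
  refine ⟨EYM.Mi n M ∪ D, subset_univ _, ?_, hMo.union hDo, hMc.union' ⟨y, hyM, hyD⟩ hDc,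
    ⟨D, subset_union_right, hDo, hDc, ⟨p, hpD, hpΓ⟩, Or.inr (Or.inr (Or.inl fun x hx =>
      ⟨hc x, h3 x (hDW hx)⟩))⟩, fun x hx => ⟨EYM.Mi n M ∪ D, hMo.union hDo, hx,
      Or.inl ⟨Subset.rfl, Or.inl fun y hy => ⟨hc y, hy.elim (hfi y) fun h => h3 y (hDW h)⟩⟩⟩⟩
  intro x _
  exact closure_mono subset_union_left (hMd x)

end

variable {n N : ℕ} [NeZero n] {M : Type u} [TopologicalSpace M]
  [ChartedSpace (EuclideanHalfSpace n) M] [IsManifold (𝓡∂ n) ∞ M] [T2Space M] [CompactSpace M]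
  [ConnectedSpace M]

/-- parallel sections -/
theorem parC (hC : H31.Core_statement) (hG : H338.GL_statement.{u}) (hB : BDL_statement.{u})
    (hn : 3 ≤ n) (hN : 1 ≤ N) (Z : At n M) (hZ : Z = at_ n M)
    (Γ O₀ : Set M) (hO₀ : IsOpen O₀) (hΓ : Γ = O₀ ∩ bd Z) (hne : Γ.Nonempty) (P Q : Pair Z N)
    (hd : B.SameData Γ P Q) (e : M → Fin N → ℂ) (he : B.Par P e) (h0 : e ≠ 0)
    (h : Γ = bd Z ∨ ∃ e', B.Par Q e' ∧ ∀ x ∈ Γ, e' x = e x) :
    ((∀ x, ∃ t : ℝ, Q.g x = t • P.g x) → (∀ x ∉ bd Z, B9.FlatAt Z P.g x) →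
      (∃ x ∈ Γ, B9.FlatAt Z P.g x) → Q.g = P.g) ∧
    ∀ O, IsOpen O → B9.Cmp B9.Cf O Γ P Q → ∀ x ∈ closure O, Q.g x = P.g x := by
  obtain ⟨e', he', heq⟩ : ∃ e', B.Par Q e' ∧ ∀ x ∈ Γ, e' x = e x := by
    rcases h with h | h
    · exact ((B5.smooth_par hn hN Z hZ Γ O₀ hO₀ hΓ hne P Q hd).1 (Or.inl h)).1 e he
    · exact h
  subst hZ
  have key := scalC hC hG hB hn Γ O₀ hO₀ hΓ P Q hd e e' he he' h0 heq
  refine ⟨fun hc hf hf' => ?_, fun O _ hp => key O hp⟩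
  exact funext fun x => key univ (cmp_plain hc hf hf') x (by rw [closure_univ]; exact mem_univ x)

end Vale.Agent.P088.R2.H850
end
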