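import Vale.Agent.P088.R2.H850.El7

/-!
# P088, THEOREM S: two manifolds, parallel sections
-/

set_option linter.all false

open Bundle Manifold MeasureTheory Set Filter Topology
open scoped ContDiff Matrix

noncomputable section

namespace Vale.Agent.P088.R2.H850

open Vale.Agent.P088 Vale.Agent.P088.B Vale.Agent.P088.B2 Vale.Agent.P088.B8

universe u

theorem triv_self {n N : ℕ} [NeZero n] {M : Type u} [TopologicalSpace M]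
    [ChartedSpace (EuclideanHalfSpace n) M] [IsManifold (𝓡∂ n) ∞ M] {Γ : Set M} :
    ∃ U, GaugeBy U univ Γ 0 (0 : M → Fin n → Matrix (Fin N) (Fin N) ℂ) (at_ n M) := by
  refine ⟨fun _ => 1, fun a b => contMDiffOn_const, fun _ => ?_, fun _ _ => rfl, fun x _ j => ?_⟩
  · rw [Matrix.conjTranspose_one, mul_one]
  · rw [B6.dM_const8]
    simp

/-- two manifolds, parallel sections -/
theorem parC_two (hC : H31.Core_statement) (hG : H338.GL_statement.{u}) (hB : BDL_statement.{u})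
    {n N : ℕ} [NeZero n] (hn : 3 ≤ n) (hN : 1 ≤ N) {M₁ M₂ : Type u}
    [TopologicalSpace M₁] [ChartedSpace (EuclideanHalfSpace n) M₁] [IsManifold (𝓡∂ n) ∞ M₁]
    [T2Space M₁] [CompactSpace M₁] [ConnectedSpace M₁]
    [TopologicalSpace M₂] [ChartedSpace (EuclideanHalfSpace n) M₂] [IsManifold (𝓡∂ n) ∞ M₂]
    [T2Space M₂] [CompactSpace M₂] [ConnectedSpace M₂]
    (Z₁ : At n M₁) (hZ₁ : Z₁ = at_ n M₁) (Z₂ : At n M₂) (hZ₂ : Z₂ = at_ n M₂)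
    (Γ₁ O₁ : Set M₁) (hO₁ : IsOpen O₁) (hΓ₁ : Γ₁ = O₁ ∩ bd Z₁) (hne : Γ₁.Nonempty)
    (Γ₂ O₂ : Set M₂) (hO₂ : IsOpen O₂) (hΓ₂ : Γ₂ = O₂ ∩ bd Z₂) (ψ : M₂ → M₁)
    (hψ : Iden N Z₁ Z₂ Γ₁ Γ₂ ψ) (P : Pair Z₁ N) (Q : Pair Z₂ N)
    (hd : SameData₂ Γ₁ Γ₂ ψ P Q) (P₀ : Pair Z₁ 1) (Q₀ : Pair Z₂ 1) (hPg : P₀.g = P.g)
    (hPA : P₀.A = 0) (hQg : Q₀.g = Q.g) (hQA : Q₀.A = 0) (e : M₁ → Fin N → ℂ) (he : B.Par P e)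
    (h0 : e ≠ 0) (h : (∃ e', B.Par Q e' ∧ ∀ x ∈ Γ₂, e' x = e (ψ x)) ∨ (Γ₁ = bd Z₁ ∧ Γ₂ = bd Z₂))
    (P' : Pair Z₂ 1) (hR : Related₂ Γ₁ Γ₂ ψ P₀ P') (hc : B9.Cmp B9.Cf univ Γ₂ P' Q₀) :
    Related₂ Γ₁ Γ₂ ψ P₀ Q₀ := by
  have hS := ((two_man hN Z₁ hZ₁ Z₂ hZ₂ Γ₁ O₁ hO₁ hΓ₁ hne Γ₂ O₂ hO₂ hΓ₂ ψ hψ P Q hd).2 P₀ Q₀
    hPg hPA hQg hQA).1 e he h0 h
  refine q1C_two hC hG hB hn le_rfl Z₁ hZ₁ Z₂ hZ₂ Γ₁ O₁ hO₁ hΓ₁ hne Γ₂ O₂ hO₂ hΓ₂ ψ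
    (B6.iden_one hN hψ) P₀ Q₀ hS
    P' hR (Or.inr ⟨hc, ?_, Or.inr ?_⟩)
  · obtain ⟨Φ, Ψ, U, b1, b2, b3, b4, b5, b6, b7, b8, -⟩ := hR
    refine ⟨U, b5, b6, fun x hx => (b7 x hx).2, fun x _ j => ?_⟩
    have h1 := (b8 x).2 j
    rw [h1]
    congr 2
    rw [hPA]
    simp
  · rw [hQA]
    subst hZ₂
    exact triv_self

end Vale.Agent.P088.R2.H850
end
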