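import Vale.Agent.P088.R2.H455.Seel

/-!
# P088, stage 3: extension of functions from a half ball (copied from R2/H455/Seel2)
-/

open MeasureTheory Set Metric Filter
open scoped ContDiff Topology

set_option linter.all false

noncomputable section

namespace Vale.Agent.P088.R2.H850

open Vale.Agent.P088.EYM
open Vale.Agent.P088.R2.H455 (gv rG3_seeley rG3_unique)

variable {n : ℕ} [NeZero n]

abbrev pj (i : Fin n) : EYM.E n →L[ℝ] ℝ := EuclideanSpace.proj i

theorem gv_pos {g : EYM.E n → Matrix (Fin n) (Fin n) ℝ} {x : EYM.E n} (hp : (g x).PosDef)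
    {v : EYM.E n} (hv : v ≠ 0) : 0 < gv g x v v := by
  have h := hp.dotProduct_mulVec_pos (x := WithLp.ofLp v) (by
    intro h
    exact hv (WithLp.ofLp_injective 2 (by rw [h]; rfl)))
  have e : gv g x v v = star (WithLp.ofLp v) ⬝ᵥ (g x).mulVec (WithLp.ofLp v) := by
    unfold gv Matrix.mulVec dotProduct
    simp only [dotProduct, Finset.mul_sum]
    refine Finset.sum_congr rfl fun i _ => Finset.sum_congr rfl fun j _ => ?_
    simp only [star_trivial]
    ring
  rw [e]
  exact h

theorem ext_real {f : EYM.E n → ℝ} {z : EYM.E n} {R : ℝ} (hR : 0 < R)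
    (hf : ContDiffOn ℝ ∞ f (HB z R)) :
    ∃ F : EYM.E n → ℝ, ContDiff ℝ ∞ F ∧ ∀ x ∈ HB z (R / 2), F x = f x := by
  let ℓ : EYM.E n →L[ℝ] ℝ := EuclideanSpace.proj 0
  have hℓ : ∀ x : EYM.E n, ℓ x = x 0 := fun x => rfl
  have he : ℓ (ev 0) = 1 := by rw [hℓ]; simp [ev]
  let χ : ContDiffBump z := ⟨R / 2, 3 * R / 4, by positivity, by linarith only [hR]⟩
  have hχ1 : ∀ x ∈ ball z (R / 2), χ x = 1 := fun x hx =>
    χ.one_of_mem_closedBall (ball_subset_closedBall hx)
  have hχ0 : ∀ x : EYM.E n, 3 * R / 4 < dist x z →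
      (fun y => χ y * f y) =ᶠ[𝓝 x] fun _ => (0 : ℝ) := by
    intro x hx
    have hc : Continuous fun y : EYM.E n => dist y z := by fun_prop
    have : ∀ᶠ y in 𝓝 x, 3 * R / 4 < dist y z := hc.continuousAt.eventually_const_lt hx
    filter_upwards [this] with y hy
    rw [χ.zero_of_le_dist hy.le, zero_mul]
  have hsm : ContDiffOn ℝ ∞ (fun y => χ y * f y) {x | 0 ≤ ℓ x} := by
    intro x hx
    rcases lt_or_ge (dist x z) R with h | h
    · have h1 : ContDiffWithinAt ℝ ∞ f (HB z R) x := hf x ⟨h, hx⟩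
      have h2 : ContDiffWithinAt ℝ ∞ f {x | 0 ≤ ℓ x} x := by
        refine h1.mono_of_mem_nhdsWithin ?_
        exact inter_mem (mem_nhdsWithin_of_mem_nhds (isOpen_ball.mem_nhds h)) self_mem_nhdsWithin
      exact χ.contDiff.contDiffWithinAt.mul h2
    · have h1 := hχ0 x (by linarith only [hR, h])
      exact (contDiffAt_const.congr_of_eventuallyEq h1).contDiffWithinAt
  obtain ⟨F, hF, hF'⟩ := rG3_seeley ℓ he hsm (fun m => by
    have hc := hsm.continuousOn_iteratedFDerivWithin (m := m) (by exact_mod_cast le_top)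
      (rG3_unique ℓ he)
    have hcl : IsClosed {x | 0 ≤ ℓ x} := isClosed_le continuous_const ℓ.continuous
    have hK : IsCompact ({x | 0 ≤ ℓ x} ∩ closedBall z R) :=
      (isCompact_closedBall _ _).inter_left hcl
    obtain ⟨C, hC⟩ := hK.exists_bound_of_continuousOn (hc.mono inter_subset_left)
    refine ⟨max C 0, fun x hx => ?_⟩
    rcases le_or_gt (dist x z) R with h | h
    · exact (hC x ⟨hx, h⟩).trans (le_max_left _ _)
    · have h1 := hχ0 x (by linarith only [hR, h])
      have h2 := ((h1.filter_mono nhdsWithin_le_nhds).iteratedFDerivWithin ℝ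
        (s := {x | 0 ≤ ℓ x}) m).eq_of_nhdsWithin hx
      rw [h2]
      simp only [iteratedFDerivWithin_fun_zero, Pi.zero_apply, norm_zero, le_sup_right])
  refine ⟨F, hF, fun x hx => ?_⟩
  rw [hF' x hx.2, hχ1 x hx.1, one_mul]

theorem ext_vec {W : Type} [NormedAddCommGroup W] [NormedSpace ℝ W] [FiniteDimensional ℝ W]
    {f : EYM.E n → W} {z : EYM.E n} {R : ℝ} (hR : 0 < R) (hf : ContDiffOn ℝ ∞ f (HB z R)) :
    ∃ F : EYM.E n → W, ContDiff ℝ ∞ F ∧ ∀ x ∈ HB z (R / 2), F x = f x := by
  let b := Module.finBasis ℝ W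
  have h1 : ∀ i, ∃ F : EYM.E n → ℝ, ContDiff ℝ ∞ F ∧
      ∀ x ∈ HB z (R / 2), F x = b.repr (f x) i := by
    intro i
    have h2 : ContDiffOn ℝ ∞ (fun x => LinearMap.toContinuousLinearMap (b.coord i) (f x))
        (HB z R) := (LinearMap.toContinuousLinearMap (b.coord i)).contDiff.comp_contDiffOn hf
    exact ext_real hR h2
  choose F hF1 hF2 using h1
  refine ⟨fun x => ∑ i, F i x • b i, ContDiff.sum fun i _ => (hF1 i).smul contDiff_const,
    fun x hx => ?_⟩
  have h3 : ∑ i, F i x • b i = ∑ i, b.repr (f x) i • b i :=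
    Finset.sum_congr rfl fun i _ => by rw [hF2 i x hx]
  show ∑ i, F i x • b i = f x
  rw [h3, b.sum_repr]

/-- extension by zero -/
def ez {W : Type} [Zero W] (u : EYM.E n → W) (x : EYM.E n) : W :=
  haveI := Classical.dec (0 ≤ x 0)
  if 0 ≤ x 0 then u x else 0

theorem ez_pos {W : Type} [Zero W] (u : EYM.E n → W) {x : EYM.E n} (h : 0 ≤ x 0) :
    ez u x = u x := by unfold ez; rw [if_pos h]

theorem ez_neg {W : Type} [Zero W] (u : EYM.E n → W) {x : EYM.E n} (h : x 0 < 0) :
    ez u x = 0 := by unfold ez; rw [if_neg (not_le.2 h)]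

theorem ez_smooth {W : Type} [NormedAddCommGroup W] [NormedSpace ℝ W] {O : Set (EYM.E n)}
    (hO : IsOpen O) (m : ℕ) : ∀ {u : EYM.E n → W}, ContDiffOn ℝ ∞ u (O ∩ Hs n) →
    (∀ k, Van (O ∩ Hs n) k u) → ContDiffOn ℝ m (ez u) O := by
  have hR : RelOpen (O ∩ Hs n) := ⟨O, hO, rfl⟩
  have hneg : IsOpen {x : EYM.E n | x 0 < 0} :=
    isOpen_lt (EuclideanSpace.proj (𝕜 := ℝ) (0 : Fin n)).continuous continuous_const
  have hpos : IsOpen {x : EYM.E n | 0 < x 0} :=
    isOpen_lt continuous_const (EuclideanSpace.proj (𝕜 := ℝ) (0 : Fin n)).continuous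
  -- differentiability
  have hfd : ∀ {u : EYM.E n → W}, ContDiffOn ℝ ∞ u (O ∩ Hs n) → (∀ k, Van (O ∩ Hs n) k u) →
      ∀ x ∈ O, HasFDerivAt (ez u) (∑ j, (pj j).smulRight (ez (EYM.pd j u) x)) x := by
    intro u hu hv x hx
    rcases lt_trichotomy (x 0) 0 with h | h | h
    · have e1 : ez u =ᶠ[𝓝 x] fun _ => 0 := by
        filter_upwards [hneg.mem_nhds h] with y hy using ez_neg u hy
      have e2 : ∑ j, (pj j).smulRight (ez (EYM.pd j u) x) = (0 : EYM.E n →L[ℝ] W) := by
        refine Finset.sum_eq_zero fun j _ => ?_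
        rw [ez_neg _ h]
        ext; simp
      rw [e2]
      exact (hasFDerivAt_const (0 : W) x).congr_of_eventuallyEq e1
    · have hxH : x ∈ O ∩ Hs n := ⟨hx, by show 0 ≤ x 0; rw [h]⟩
      have e0 : ∀ j, EYM.pd j u x = 0 := fun j =>
        van_one.1 (Van.pd_any hR hu (hv 2) j) x hxH h
      have e2 : ∑ j, (pj j).smulRight (ez (EYM.pd j u) x) = (0 : EYM.E n →L[ℝ] W) := by
        refine Finset.sum_eq_zero fun j _ => ?_
        rw [ez_pos _ h.ge, e0]
        ext; simp
      rw [e2]
      have e3 : u x = 0 := van_one.1 (hv 1) x hxH h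
      have e4 : HasFDerivWithinAt u (0 : EYM.E n →L[ℝ] W) (Hs n) x := by
        have h1 := hR.hasD hxH hu (by simp)
        have h2 : fderivWithin ℝ u (Hs n) x = 0 := by
          ext v
          rw [fderivWithin_eq_sum]
          simp [e0]
        rwa [h2] at h1
      have e5 : HasFDerivWithinAt (ez u) (0 : EYM.E n →L[ℝ] W) (Hs n) x :=
        e4.congr (fun y hy => ez_pos u hy) (ez_pos u h.ge)
      have e6 : HasFDerivWithinAt (ez u) (0 : EYM.E n →L[ℝ] W) {y | y 0 < 0} x :=
        (hasFDerivWithinAt_const (0 : W) x {y : EYM.E n | y 0 < 0}).congr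
          (fun y hy => ez_neg u hy) (by rw [ez_pos u h.ge, e3])
      have e7 := e5.union e6
      have e8 : Hs n ∪ {y : EYM.E n | y 0 < 0} = univ := by
        ext y
        simp only [mem_union, mem_univ, iff_true]
        exact le_or_gt 0 (y 0)
      rw [e8, hasFDerivWithinAt_univ] at e7
      exact e7
    · have hxH : x ∈ O ∩ Hs n := ⟨hx, h.le⟩
      have h1 := hR.hasD hxH hu (by simp)
      have h2 : Hs n ∈ 𝓝 x := mem_of_superset (hpos.mem_nhds h) fun y hy =>
        le_of_lt (show (0 : ℝ) < y 0 from hy)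
      have h3 := h1.hasFDerivAt h2
      have e1 : ez u =ᶠ[𝓝 x] u := by
        filter_upwards [h2] with y hy using ez_pos u hy
      have e2 : ∑ j, (pj j).smulRight (ez (EYM.pd j u) x) = fderivWithin ℝ u (Hs n) x := by
        ext v
        rw [fderivWithin_eq_sum, sum_apply]
        refine Finset.sum_congr rfl fun j _ => ?_
        rw [ez_pos _ h.le]
        rfl
      rw [e2]
      exact h3.congr_of_eventuallyEq e1
  induction m with
  | zero =>
    intro u hu hv
    have : ContinuousOn (ez u) O := fun x hx => (hfd hu hv x hx).continuousAt.continuousWithinAt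
    exact_mod_cast contDiffOn_zero.2 this
  | succ m ih =>
    intro u hu hv
    have key : ContDiffOn ℝ ((m : WithTop ℕ∞) + 1) (ez u) O := by
      rw [contDiffOn_succ_iff_fderiv_of_isOpen hO]
      refine ⟨fun x hx => (hfd hu hv x hx).differentiableAt.differentiableWithinAt, fun h => ?_, ?_⟩
      · exact absurd h (by simp)
      · have h1 : ContDiffOn ℝ m
            (fun x => ∑ j, (pj j : EYM.E n →L[ℝ] ℝ).smulRight (ez (EYM.pd j u) x)) O := by
          refine ContDiffOn.sum fun j _ => ?_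
          exact contDiffOn_const.smulRight
            (ih (hR.pd_smooth hu j) fun k => Van.pd_any hR hu (hv (k + 1)) j)
        exact h1.congr fun x hx => (hfd hu hv x hx).fderiv
    exact_mod_cast key

theorem ez_smooth' {W : Type} [NormedAddCommGroup W] [NormedSpace ℝ W] {O : Set (EYM.E n)}
    (hO : IsOpen O) {u : EYM.E n → W} (hu : ContDiffOn ℝ ∞ u (O ∩ Hs n))
    (hv : ∀ k, Van (O ∩ Hs n) k u) : ContDiffOn ℝ ∞ (ez u) O :=
  contDiffOn_infty.2 fun m => ez_smooth hO m hu hv

/-- a symmetric continuous matrix function which is positive definite at `p` is positive definite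
near `p`. -/
theorem posDef_nhds {g : EYM.E n → Matrix (Fin n) (Fin n) ℝ} {p : EYM.E n}
    (hg : ∀ i j, Continuous fun x => g x i j) (hs : ∀ x i j, g x i j = g x j i)
    (hp : (g p).PosDef) : ∀ᶠ x in 𝓝 p, (g x).PosDef := by
  have hK : IsCompact (sphere (0 : EYM.E n) 1) := isCompact_sphere _ _
  have hc : Continuous fun q : EYM.E n × EYM.E n => gv g q.1 q.2 q.2 := by
    unfold gv
    refine continuous_finsetSum _ fun i _ => continuous_finsetSum _ fun j _ => ?_
    have h1 : Continuous fun q : EYM.E n × EYM.E n => g q.1 i j := (hg i j).comp continuous_fst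
    have h2 : ∀ k : Fin n, Continuous fun q : EYM.E n × EYM.E n => q.2 k := fun k =>
      (EuclideanSpace.proj (𝕜 := ℝ) k).continuous.comp continuous_snd
    exact (h1.mul (h2 i)).mul (h2 j)
  have key : ∀ᶠ x in 𝓝 p, ∀ v ∈ sphere (0 : EYM.E n) 1, 0 < gv g x v v := by
    refine hK.eventually_forall_of_forall_eventually fun v hv => ?_
    refine (isOpen_lt continuous_const hc).mem_nhds ?_
    show 0 < gv g p v v
    refine gv_pos hp fun h0 => ?_
    rw [h0, mem_sphere_zero_iff_norm, norm_zero] at hv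
    exact zero_ne_one hv
  filter_upwards [key] with x hx
  refine Matrix.PosDef.of_dotProduct_mulVec_pos ?_ fun v hv => ?_
  · ext i j
    simp [Matrix.conjTranspose_apply, hs x i j]
  · set w : EYM.E n := WithLp.toLp 2 v with hw
    have hw0 : w ≠ 0 := by
      intro h
      apply hv
      have := congrArg WithLp.ofLp h
      exact this
    have hn : 0 < ‖w‖ := norm_pos_iff.2 hw0
    have h1 := hx (‖w‖⁻¹ • w) (by
      rw [mem_sphere_zero_iff_norm, norm_smul, norm_inv, norm_norm, inv_mul_cancel₀ hn.ne'])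
    have e1 : gv g x (‖w‖⁻¹ • w) (‖w‖⁻¹ • w) = ‖w‖⁻¹ ^ 2 * gv g x w w := by
      unfold gv
      rw [Finset.mul_sum]
      refine Finset.sum_congr rfl fun i _ => ?_
      rw [Finset.mul_sum]
      refine Finset.sum_congr rfl fun j _ => ?_
      simp only [PiLp.smul_apply, smul_eq_mul]
      ring
    have h2 : 0 < gv g x w w := by
      rw [e1] at h1
      exact (mul_pos_iff_of_pos_left (by positivity)).1 h1
    have e2 : gv g x w w = star v ⬝ᵥ (g x).mulVec v := by
      unfold gv Matrix.mulVec dotProduct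
      simp only [dotProduct, Finset.mul_sum]
      refine Finset.sum_congr rfl fun i _ => Finset.sum_congr rfl fun j _ => ?_
      simp only [star_trivial, hw]
      ring
    rw [← e2]
    exact h2

end Vale.Agent.P088.R2.H850
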