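import Vale.Agent.P088.R2.H437.EXT
import Vale.Agent.P088.R2.H850.K0
import Vale.Agent.P088.R2.H558.Defs

/-!
# P088, stage 3, boundary: two tensors with equal derivatives on `{x_0 = 0}` are extended to a
full ball, symmetric and divergence free, equal for `x_0 < 0`
-/

set_option linter.all false

open MeasureTheory Set Filter Topology
open scoped ContDiff Matrix

noncomputable section

namespace Vale.Agent.P088.R2.H850

open Vale.Agent.P088.EYM (E HB Hs ev Van RelOpen)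
open Vale.Agent.P088.LR (V MF SmM)
open Vale.Agent.P088.HY.H437 (dvc)

variable {n : ℕ} [NeZero n]

/-- `z + v` -/
def tE (z : E n) (v : V n) : E n := z + (EuclideanSpace.equiv (Fin n) ℝ).symm v

theorem tE_apply (z : E n) (v : V n) (i : Fin n) : tE z v i = z i + v i := rfl

theorem tE_smooth (z : E n) : ContDiff ℝ ∞ (tE z) :=
  contDiff_const.add (EuclideanSpace.equiv (Fin n) ℝ).symm.contDiff

theorem tE_has (z : E n) (v : V n) :
    HasFDerivAt (tE z) ((EuclideanSpace.equiv (Fin n) ℝ).symm : V n →L[ℝ] E n) v :=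
  (EuclideanSpace.equiv (Fin n) ℝ).symm.hasFDerivAt.const_add z

theorem equiv_single (i : Fin n) :
    ((EuclideanSpace.equiv (Fin n) ℝ).symm : V n →L[ℝ] E n) (Pi.single i 1) = ev i := by
  ext j
  simp [EuclideanSpace.equiv, Pi.single_apply]

/-- the inverse of `tE z` -/
def tV (z : E n) (x : E n) : V n := (EuclideanSpace.equiv (Fin n) ℝ) (x - z)

theorem tV_smooth (z : E n) : ContDiff ℝ ∞ (tV z) :=
  (EuclideanSpace.equiv (Fin n) ℝ).contDiff.comp (contDiff_id.sub contDiff_const)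

theorem tE_tV (z x : E n) : tE z (tV z x) = x := by
  show z + (EuclideanSpace.equiv (Fin n) ℝ).symm ((EuclideanSpace.equiv (Fin n) ℝ) (x - z)) = x
  rw [ContinuousLinearEquiv.symm_apply_apply]
  abel

theorem tV_tE (z : E n) (v : V n) : tV z (tE z v) = v := by
  show (EuclideanSpace.equiv (Fin n) ℝ) (z + (EuclideanSpace.equiv (Fin n) ℝ).symm v - z) = v
  rw [add_sub_cancel_left, ContinuousLinearEquiv.apply_symm_apply]

theorem sq_eq_norm (z : E n) (v : V n) : HY.sq v = dist (tE z v) z ^ 2 := by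
  have h1 : dist (tE z v) z ^ 2 = ‖(EuclideanSpace.equiv (Fin n) ℝ).symm v‖ ^ 2 := by
    unfold tE
    rw [dist_eq_norm, add_sub_cancel_left]
  rw [h1, EuclideanSpace.norm_sq_eq]
  unfold HY.sq
  refine Finset.sum_congr rfl fun i _ => ?_
  rw [Real.norm_eq_abs, sq_abs]
  rfl

theorem mem_ball_tE (z : E n) (v : V n) {R : ℝ} (hR : 0 < R) :
    tE z v ∈ Metric.ball z R ↔ HY.sq v < R ^ 2 := by
  rw [Metric.mem_ball, sq_eq_norm z v, sq_lt_sq, abs_of_nonneg dist_nonneg, abs_of_pos hR]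

/-- `∂_i` in the two types -/
theorem pd_tE {f : E n → ℝ} (z : E n) {v : V n} (hf : DifferentiableAt ℝ f (tE z v)) (i : Fin n) :
    LR.pd i (fun v => f (tE z v)) v = fderiv ℝ f (tE z v) (ev i) := by
  unfold LR.pd
  have h := hf.hasFDerivAt.comp v (tE_has z v)
  have h2 : fderiv ℝ (fun v => f (tE z v)) v = (fderiv ℝ f (tE z v)).comp
      ((EuclideanSpace.equiv (Fin n) ℝ).symm : V n →L[ℝ] E n) := h.fderiv
  rw [h2, ContinuousLinearMap.comp_apply, equiv_single]

theorem pdE_smooth {f : E n → ℝ} (hf : ContDiff ℝ ∞ f) {x : E n} (hx : x ∈ Hs n) (i : Fin n) :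
    EYM.pd i f x = fderiv ℝ f x (ev i) :=
  EYM.pd_of_has hx (hf.differentiable (by simp) x).hasFDerivAt.hasFDerivWithinAt i

/-- partial derivatives of a function which extends `f` from a half ball -/
theorem pd_ext {D : Set (E n)} (hD : RelOpen D) {f F : E n → ℝ} (hF : ContDiff ℝ ∞ F)
    (h : ∀ x ∈ D, F x = f x) {z : E n} {v : V n} (hv : tE z v ∈ D) (i : Fin n) :
    LR.pd i (fun v => F (tE z v)) v = EYM.pd i f (tE z v) := by
  rw [pd_tE z (hF.differentiable (by simp) _), ← hD.pd_congr h hv i, pdE_smooth hF (hD.subset hv)]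

theorem relHB (z : E n) (r : ℝ) : RelOpen (HB z r) := ⟨Metric.ball z r, Metric.isOpen_ball, rfl⟩

theorem isOpen_sq (R : ℝ) : IsOpen {v : V n | HY.sq v < R ^ 2} := by
  refine isOpen_lt ?_ continuous_const
  unfold HY.sq
  fun_prop

theorem sq_update (v : V n) (i : Fin n) {θ : ℝ} (hθ : θ ∈ Icc (0 : ℝ) 1) :
    HY.sq (Function.update v i (θ * v i)) ≤ HY.sq v := by
  unfold HY.sq
  refine Finset.sum_le_sum fun j _ => ?_
  by_cases h : j = i
  · subst h
    rw [Function.update_self, mul_pow]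
    have h1 : θ ^ 2 ≤ 1 := by nlinarith [hθ.1, hθ.2]
    nlinarith [sq_nonneg (v j)]
  · rw [Function.update_of_ne h]

/-- positive definite matrices near a point, in `V n` -/
theorem posDef_V {t : MF n} (ht : SmM t) (hs : ∀ x, (t x).IsSymm) (h0 : (t 0).PosDef) :
    ∃ R > 0, ∀ v : V n, HY.sq v < R ^ 2 → (t v).PosDef := by
  have h1 : ∀ᶠ x in 𝓝 (0 : E n), (t (tV 0 x)).PosDef := by
    refine posDef_nhds (g := fun x => t (tV 0 x)) (fun i j => ?_) (fun x i j => ?_) ?_
    · exact ((ht i j).comp (tV_smooth 0)).continuous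
    · exact (hs _).apply j i
    · have : tV (0 : E n) 0 = 0 := by
        unfold tV
        simp
      rw [this]
      exact h0
  obtain ⟨R, hR, h2⟩ := Metric.eventually_nhds_iff_ball.1 h1
  refine ⟨R, hR, fun v hv => ?_⟩
  have h3 := h2 (tE 0 v) ((mem_ball_tE 0 v hR).2 hv)
  rwa [tV_tE] at h3

/-- **Gluing.** -/
theorem glue {z : E n} (hz : z 0 = 0) {r : ℝ} (hr : 0 < r)
    {σ₁ σ₂ : E n → Matrix (Fin n) (Fin n) ℝ}
    (s1 : ∀ i j, ContDiffOn ℝ ∞ (fun x => σ₁ x i j) (HB z r))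
    (s2 : ∀ i j, ContDiffOn ℝ ∞ (fun x => σ₂ x i j) (HB z r))
    (y1 : ∀ x ∈ HB z r, ∀ i j, σ₁ x i j = σ₁ x j i)
    (y2 : ∀ x ∈ HB z r, ∀ i j, σ₂ x i j = σ₂ x j i)
    (p1 : ∀ x ∈ HB z r, (σ₁ x).PosDef) (p2 : ∀ x ∈ HB z r, (σ₂ x).PosDef)
    (d1 : ∀ x ∈ HB z r, ∀ j, ∑ i, EYM.pd i (fun y => σ₁ y i j) x = 0)
    (d2 : ∀ x ∈ HB z r, ∀ j, ∑ i, EYM.pd i (fun y => σ₂ y i j) x = 0)
    (jt : ∀ k i j, Van (HB z r) k (fun x => σ₂ x i j - σ₁ x i j)) :
    ∃ (t₁ t₂ : MF n) (R : ℝ), 0 < R ∧ R ≤ r ∧ SmM t₁ ∧ SmM t₂ ∧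
      (∀ v, (t₁ v).IsSymm) ∧ (∀ v, (t₂ v).IsSymm) ∧
      (∀ v, HY.sq v < R ^ 2 → (t₁ v).PosDef ∧ (t₂ v).PosDef) ∧
      (∀ v, HY.sq v < R ^ 2 → ∀ j, dvc t₁ j v = 0 ∧ dvc t₂ j v = 0) ∧
      (∀ v, HY.sq v < R ^ 2 → 0 ≤ v 0 → t₁ v = σ₁ (tE z v) ∧ t₂ v = σ₂ (tE z v)) ∧
      ∀ v, HY.sq v < R ^ 2 → v 0 ≤ 0 → t₂ v = t₁ v := by
  classical
  -- the first tensor
  have hr2 : 0 < r / 2 := by positivity
  have he : ∀ i j, ∃ F : E n → ℝ, ContDiff ℝ ∞ F ∧ ∀ x ∈ HB z (r / 2), F x = σ₁ x i j :=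
    fun i j => ext_real hr (s1 i j)
  choose F hF hFe using he
  have hsub : HB z (r / 2) ⊆ HB z r :=
    inter_subset_inter_left _ (Metric.ball_subset_ball (by linarith))
  set s : MF n := fun v i j => (F i j (tE z v) + F j i (tE z v)) / 2 with hs
  have hsS : SmM s := fun i j =>
    ((((hF i j).comp (tE_smooth z)).add ((hF j i).comp (tE_smooth z))).div_const 2)
  have hsy : ∀ v, (s v).IsSymm := fun v => by
    ext i j
    show (F j i (tE z v) + F i j (tE z v)) / 2 = (F i j (tE z v) + F j i (tE z v)) / 2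
    rw [add_comm]
  set D : Set (V n) := {v | HY.sq v < (r / 2) ^ 2} with hD
  have hDo : IsOpen D := isOpen_sq _
  have hmem : ∀ v ∈ D, 0 ≤ v 0 → tE z v ∈ HB z (r / 2) := fun v hv h0 =>
    ⟨(mem_ball_tE z v hr2).2 hv, by show 0 ≤ tE z v 0; rw [tE_apply, hz, zero_add]; exact h0⟩
  have hsD : ∀ v ∈ D, 0 ≤ v 0 → s v = σ₁ (tE z v) := by
    intro v hv h0
    have h1 := hmem v hv h0
    ext i j
    show (F i j (tE z v) + F j i (tE z v)) / 2 = σ₁ (tE z v) i j
    rw [hFe i j _ h1, hFe j i _ h1, y1 _ (hsub h1) j i]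
    ring
  have hseg : HY.H437.Seg (0 : Fin n) D := fun v hv θ hθ => lt_of_le_of_lt (sq_update v 0 hθ) hv
  have hdiv : ∀ v ∈ D, 0 ≤ v (0 : Fin n) → ∀ j, dvc s j v = 0 := by
    intro v hv h0 j
    have h1 := hmem v hv h0
    have h2 : ∀ i, LR.pd i (fun y => s y i j) v = EYM.pd i (fun y => σ₁ y i j) (tE z v) := by
      intro i
      have hG : ContDiff ℝ ∞ (fun x => (F i j x + F j i x) / 2) :=
        ((hF i j).add (hF j i)).div_const 2
      have h3 := pd_ext (relHB z (r / 2)) (f := fun y => σ₁ y i j) hG (fun x hx => by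
        show (F i j x + F j i x) / 2 = σ₁ x i j
        rw [hFe i j _ hx, hFe j i _ hx, y1 _ (hsub hx) j i]
        ring) h1 i
      exact h3
    show ∑ i, LR.pd i (fun y => s y i j) v = 0
    rw [Finset.sum_congr rfl fun i _ => h2 i]
    exact d1 _ (hsub h1) j
  obtain ⟨t, ht, hty, htd, hte⟩ := HY.H437.ext_div (0 : Fin n) hDo hseg hsS hsy hdiv
  -- the difference
  have hu : ∀ i j, ContDiffOn ℝ ∞ (fun x => σ₂ x i j - σ₁ x i j) (Metric.ball z r ∩ Hs n) :=
    fun i j => (s2 i j).sub (s1 i j)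
  have hez : ∀ i j, ContDiffOn ℝ ∞ (ez fun x => σ₂ x i j - σ₁ x i j) (Metric.ball z r) :=
    fun i j => ez_smooth' Metric.isOpen_ball (hu i j) fun k => jt k i j
  have hr4 : 0 < r / 4 := by positivity
  set χ : ContDiffBump z := ⟨r / 4, r / 2, hr4, by linarith⟩ with hχ
  have hcut : ∀ i j, ContDiff ℝ ∞ (fun x => χ x * ez (fun x => σ₂ x i j - σ₁ x i j) x) := by
    intro i j
    rw [contDiff_iff_contDiffAt]
    intro x
    rcases lt_or_ge (dist x z) r with h | h
    · exact χ.contDiff.contDiffAt.mul ((hez i j).contDiffAt (Metric.isOpen_ball.mem_nhds h))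
    · have hc : ∀ᶠ y in 𝓝 x, r / 2 < dist y z :=
        (continuous_id.dist continuous_const).continuousAt.eventually_const_lt
          (by show r / 2 < dist x z; linarith)
      refine (contDiffAt_const (c := (0 : ℝ))).congr_of_eventuallyEq ?_
      filter_upwards [hc] with y hy
      rw [χ.zero_of_le_dist hy.le, zero_mul]
  set t₂ : MF n := fun v i j => t v i j +
    χ (tE z v) * ez (fun x => σ₂ x i j - σ₁ x i j) (tE z v) with ht₂
  have ht₂s : SmM t₂ := fun i j => (ht i j).add ((hcut i j).comp (tE_smooth z))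
  have ht₂y : ∀ v, (t₂ v).IsSymm := by
    intro v
    ext i j
    show t v j i + χ (tE z v) * ez (fun x => σ₂ x j i - σ₁ x j i) (tE z v) =
      t v i j + χ (tE z v) * ez (fun x => σ₂ x i j - σ₁ x i j) (tE z v)
    have h1 : t v j i = t v i j := (hty v).apply i j
    rw [h1]
    congr 1
    by_cases hb : dist (tE z v) z < r
    · rcases lt_or_ge (tE z v 0) 0 with h0 | h0
      · rw [ez_neg _ h0, ez_neg _ h0]
      · rw [ez_pos _ h0, ez_pos _ h0, y2 _ ⟨hb, h0⟩ j i, y1 _ ⟨hb, h0⟩ j i]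
    · rw [χ.zero_of_le_dist (by show r / 2 ≤ _; linarith), zero_mul, zero_mul]
  -- values on the small ball
  have hval : ∀ v, HY.sq v < (r / 4) ^ 2 → 0 ≤ v 0 → t v = σ₁ (tE z v) ∧ t₂ v = σ₂ (tE z v) := by
    intro v hv h0
    have hvD : v ∈ D := by
      show HY.sq v < (r / 2) ^ 2
      nlinarith
    have e1 : t v = σ₁ (tE z v) := by rw [hte v hvD h0, hsD v hvD h0]
    refine ⟨e1, ?_⟩
    have hb : tE z v ∈ Metric.ball z (r / 4) := (mem_ball_tE z v hr4).2 hv
    have h1 : χ (tE z v) = 1 := χ.one_of_mem_closedBall (Metric.ball_subset_closedBall hb)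
    have h2 : 0 ≤ tE z v 0 := (hmem v hvD h0).2
    ext i j
    show t v i j + χ (tE z v) * ez (fun x => σ₂ x i j - σ₁ x i j) (tE z v) = _
    rw [h1, ez_pos _ h2, e1]
    ring
  have hneg : ∀ v, HY.sq v < (r / 4) ^ 2 → v 0 ≤ 0 → t₂ v = t v := by
    intro v hv h0
    rcases h0.lt_or_eq with h | h
    · ext i j
      show t v i j + χ (tE z v) * ez (fun x => σ₂ x i j - σ₁ x i j) (tE z v) = t v i j
      rw [ez_neg _ (by rw [tE_apply, hz, zero_add]; exact h), mul_zero, add_zero]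
    · obtain ⟨h1, h2⟩ := hval v hv h.ge
      rw [h1, h2]
      have hv' : tE z v ∈ HB z r := hsub (hmem v (by show HY.sq v < (r / 2) ^ 2; nlinarith) h.ge)
      ext i j
      have h3 := jt 1 i j 0 one_pos (tE z v) hv' (by rw [tE_apply, hz, h, add_zero])
      exact sub_eq_zero.1 h3
  -- divergence of the second tensor
  have hpos : ∀ v, HY.sq v < (r / 4) ^ 2 → 0 < v 0 → ∀ j, dvc t₂ j v = 0 := by
    intro v hv h0 j
    have h1 : tE z v ∈ HB z r := hsub (hmem v (by show HY.sq v < (r / 2) ^ 2; nlinarith) h0.le)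
    have hO : IsOpen {w : V n | HY.sq w < (r / 4) ^ 2 ∧ 0 < w 0} :=
      (isOpen_sq _).inter (isOpen_lt continuous_const (continuous_apply 0))
    have hOE : IsOpen (Metric.ball z r ∩ {x : E n | 0 < x 0}) :=
      Metric.isOpen_ball.inter (isOpen_lt continuous_const
        (EuclideanSpace.proj (𝕜 := ℝ) (0 : Fin n)).continuous)
    have hxE : tE z v ∈ Metric.ball z r ∩ {x : E n | 0 < x 0} :=
      ⟨h1.1, by show 0 < tE z v 0; rw [tE_apply, hz, zero_add]; exact h0⟩
    have h2 : ∀ i, LR.pd i (fun y => t₂ y i j) v = EYM.pd i (fun y => σ₂ y i j) (tE z v) := by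
      intro i
      have e1 : (fun y => t₂ y i j) =ᶠ[𝓝 v] fun y => σ₂ (tE z y) i j := by
        filter_upwards [hO.mem_nhds ⟨hv, h0⟩] with w hw
        rw [(hval w hw.1 hw.2.le).2]
      have e2 : LR.pd i (fun y => t₂ y i j) v = LR.pd i (fun y => σ₂ (tE z y) i j) v := by
        unfold LR.pd
        rw [e1.fderiv_eq]
      have e3 : ContDiffAt ℝ ∞ (fun x => σ₂ x i j) (tE z v) :=
        (s2 i j).contDiffAt (mem_of_superset (hOE.mem_nhds hxE)
          fun x hx => ⟨hx.1, le_of_lt (show (0 : ℝ) < x 0 from hx.2)⟩)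
      rw [e2, pd_tE (f := fun x => σ₂ x i j) z (e3.differentiableAt (by simp))]
      exact (EYM.pd_of_has h1.2
        (e3.differentiableAt (by simp)).hasFDerivAt.hasFDerivWithinAt i).symm
    show ∑ i, LR.pd i (fun y => t₂ y i j) v = 0
    rw [Finset.sum_congr rfl fun i _ => h2 i]
    exact d2 _ h1 j
  have hneg' : ∀ v, HY.sq v < (r / 4) ^ 2 → v 0 < 0 → ∀ j, dvc t₂ j v = 0 := by
    intro v hv h0 j
    have hO : IsOpen {w : V n | HY.sq w < (r / 4) ^ 2 ∧ w 0 < 0} :=
      (isOpen_sq _).inter (isOpen_lt (continuous_apply 0) continuous_const)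
    have h2 : ∀ i, LR.pd i (fun y => t₂ y i j) v = LR.pd i (fun y => t y i j) v := by
      intro i
      have e1 : (fun y => t₂ y i j) =ᶠ[𝓝 v] fun y => t y i j := by
        filter_upwards [hO.mem_nhds ⟨hv, h0⟩] with w hw
        rw [hneg w hw.1 hw.2.le]
      unfold LR.pd
      rw [e1.fderiv_eq]
    show ∑ i, LR.pd i (fun y => t₂ y i j) v = 0
    rw [Finset.sum_congr rfl fun i _ => h2 i]
    exact htd v j
  have hall : ∀ v, HY.sq v < (r / 4) ^ 2 → ∀ j, dvc t₂ j v = 0 := by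
    intro v hv j
    rcases lt_trichotomy (v 0) 0 with h | h | h
    · exact hneg' v hv h j
    · -- limit
      have hupd : Function.update v (0 : Fin n) (0 : ℝ) = v := by
        conv_lhs => rw [← h]
        exact Function.update_eq_self _ _
      have hc : Continuous (dvc t₂ j) := (HY.H437.dvc_smooth ht₂s j).continuous
      have hline : Continuous fun τ : ℝ => dvc t₂ j (Function.update v 0 τ) :=
        hc.comp (continuous_const.update 0 continuous_id)
      have hev : ∀ᶠ τ in 𝓝[>] (0 : ℝ), dvc t₂ j (Function.update v 0 τ) = 0 := by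
        have h1 : ∀ᶠ τ in 𝓝 (0 : ℝ), HY.sq (Function.update v 0 τ) < (r / 4) ^ 2 := by
          have h2 : Continuous fun τ : ℝ => HY.sq (Function.update v 0 τ) := by
            unfold HY.sq
            refine continuous_finset_sum _ fun i _ => ?_
            have h9 : Continuous fun τ : ℝ => Function.update v 0 τ :=
              continuous_const.update 0 continuous_id
            have h10 : Continuous fun τ : ℝ => Function.update v 0 τ i :=
              (continuous_apply i).comp h9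
            exact h10.pow 2
          have h3 : HY.sq (Function.update v 0 (0 : ℝ)) < (r / 4) ^ 2 := by
            rw [hupd]
            exact hv
          exact h2.continuousAt.eventually_lt continuousAt_const h3
        filter_upwards [mem_nhdsWithin_of_mem_nhds h1, self_mem_nhdsWithin] with τ h4 h5
        exact hpos _ h4 (by rw [Function.update_self]; exact h5) j
      have h6 : Tendsto (fun τ : ℝ => dvc t₂ j (Function.update v 0 τ)) (𝓝[>] 0)
          (𝓝 (dvc t₂ j (Function.update v 0 (0 : ℝ)))) :=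
        (hline.tendsto 0).mono_left nhdsWithin_le_nhds
      have h7 : Tendsto (fun τ : ℝ => dvc t₂ j (Function.update v 0 τ)) (𝓝[>] 0) (𝓝 0) :=
        (tendsto_congr' hev).2 tendsto_const_nhds
      have h8 := tendsto_nhds_unique h6 h7
      rw [hupd] at h8
      exact h8
    · exact hpos v hv h j
  -- positivity
  have hzm : z ∈ HB z r := ⟨Metric.mem_ball_self hr, by show 0 ≤ z 0; rw [hz]⟩
  have hz0 : tE z (0 : V n) = z := by
    unfold tE
    simp
  have hsq0 : HY.sq (0 : V n) < (r / 4) ^ 2 := by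
    have : HY.sq (0 : V n) = 0 := by
      unfold HY.sq
      simp
    rw [this]
    positivity
  obtain ⟨v1, v2⟩ := hval 0 hsq0 le_rfl
  rw [hz0] at v1 v2
  obtain ⟨R₁, hR₁, hp₁⟩ := posDef_V ht hty (by rw [v1]; exact p1 z hzm)
  obtain ⟨R₂, hR₂, hp₂⟩ := posDef_V ht₂s ht₂y (by rw [v2]; exact p2 z hzm)
  have hRp : 0 < min (r / 4) (min R₁ R₂) := lt_min hr4 (lt_min hR₁ hR₂)
  have mono : ∀ {v : V n} {ρ : ℝ}, HY.sq v < (min (r / 4) (min R₁ R₂)) ^ 2 →
      min (r / 4) (min R₁ R₂) ≤ ρ → HY.sq v < ρ ^ 2 := fun h1 h2 =>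
    lt_of_lt_of_le h1 (pow_le_pow_left₀ hRp.le h2 2)
  have l1 : min (r / 4) (min R₁ R₂) ≤ r / 4 := min_le_left _ _
  have l2 : min (r / 4) (min R₁ R₂) ≤ R₁ := (min_le_right _ _).trans (min_le_left _ _)
  have l3 : min (r / 4) (min R₁ R₂) ≤ R₂ := (min_le_right _ _).trans (min_le_right _ _)
  exact ⟨t, t₂, min (r / 4) (min R₁ R₂), hRp, l1.trans (by linarith), ht, ht₂s, hty, ht₂y,
    fun v hv => ⟨hp₁ v (mono hv l2), hp₂ v (mono hv l3)⟩,
    fun v hv j => ⟨htd v j, hall v (mono hv l1) j⟩,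
    fun v hv h0 => hval v (mono hv l1) h0, fun v hv h0 => hneg v (mono hv l1) h0⟩

end Vale.Agent.P088.R2.H850
end
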