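import Vale.Agent.P088.R2.H850.AlN
import Vale.Agent.P088.R2.H850.J3
import Vale.Agent.P088.R2.H850.K2

/-!
# P088, stage 4: the differences of the fields of two boundary models are flat
-/

set_option linter.all false

open Bundle Manifold MeasureTheory Set Filter Topology
open scoped ContDiff Matrix

noncomputable section

namespace Vale.Agent.P088.R2.H850

open Vale.Agent.P088 Vale.Agent.P088.EYM

variable {n N : ℕ} [NeZero n] {D : Set (E n)}

theorem van_gg (hD : RelOpen D) {W₁ W₂ : Model n N} (o₁ : W₁.toLD.Ok D) (o₂ : W₂.toLD.Ok D)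
    (hJ : H.JetAll W₁ W₂ D) (k : ℕ) (a b : Fin n) :
    Van D k (fun x => gg W₁.g a b x - gg W₂.g a b x) := by
  have g₁ := gok_of_ok o₁
  have g₂ := gok_of_ok o₂
  have hi := dme_inv_van hD g₁ g₂ (hJ.g k) a b
  have hd := dme_van_det hD g₁.smG g₂.smG (hJ.g k)
  have hs : Van D k (fun x => √(W₁.g x).det - √(W₂.g x).det) :=
    van_sqrt hD (dme_smooth_det g₁.smG) (dme_smooth_det g₂.smG)
      (fun x hx => (g₁.pos x hx).det_pos) (fun x hx => (g₂.pos x hx).det_pos) hd
  exact dco_van_diff hD dc_bil_mulR (dme_smooth_s g₁) (dme_smooth_s g₂) (dme_smooth_inv g₁ a b)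
    (dme_smooth_inv g₂ a b) hs hi

theorem van_gE (hD : RelOpen D) {W₁ W₂ : Model n N} (o₁ : W₁.toLD.Ok D) (o₂ : W₂.toLD.Ok D)
    (hJ : H.JetAll W₁ W₂ D) (k : ℕ) (i : Fin n) :
    Van D k (fun x => gE W₁.toLD i x - gE W₂.toLD i x) := by
  have h1 := dco_van_diff hD (dc_bil_mul (N := N)) o₁.h_smooth o₂.h_smooth (o₁.B_smooth i)
    (o₂.B_smooth i) (hJ.h k) (hJ.B k i)
  have hadj : Van D k (fun x => ContinuousLinearMap.adjoint (W₁.B i x) -
      ContinuousLinearMap.adjoint (W₂.B i x)) := by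
    refine (Van.clm hD adjRE ((o₁.B_smooth i).sub (o₂.B_smooth i)) (hJ.B k i)).congr hD
      fun x _ => ?_
    show adjRE (W₁.B i x - W₂.B i x) = adjRE (W₁.B i x) - adjRE (W₂.B i x)
    exact map_sub _ _ _
  have h2 := dco_van_diff hD (dc_bil_mul (N := N)) (smooth_adj (o₁.B_smooth i))
    (smooth_adj (o₂.B_smooth i)) o₁.h_smooth o₂.h_smooth hadj (hJ.h k)
  have s1 : ContDiffOn ℝ ∞ (fun x => W₁.h x * W₁.B i x - W₂.h x * W₂.B i x) D :=
    (smooth_mul o₁.h_smooth (o₁.B_smooth i)).sub (smooth_mul o₂.h_smooth (o₂.B_smooth i))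
  have s2 : ContDiffOn ℝ ∞ (fun x => ContinuousLinearMap.adjoint (W₁.B i x) * W₁.h x -
      ContinuousLinearMap.adjoint (W₂.B i x) * W₂.h x) D :=
    (smooth_mul (smooth_adj (o₁.B_smooth i)) o₁.h_smooth).sub
      (smooth_mul (smooth_adj (o₂.B_smooth i)) o₂.h_smooth)
  refine (Van.sub hD s1 s2 h1 h2).congr hD fun x _ => ?_
  unfold gE
  show W₁.h x * W₁.B i x - W₂.h x * W₂.B i x - (ContinuousLinearMap.adjoint (W₁.B i x) * W₁.h x -
    ContinuousLinearMap.adjoint (W₂.B i x) * W₂.h x) = _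
  abel

/-- Two solutions with the same Cauchy data have the same jets. -/
theorem van_sol (hD : RelOpen D) {W₁ W₂ : Model n N} (o₁ : W₁.toLD.Ok D) (o₂ : W₂.toLD.Ok D)
    (f₁ : ∀ v : Fib N, Sol W₁.toLD D (fun _ => v)) (f₂ : ∀ v : Fib N, Sol W₂.toLD D (fun _ => v))
    (hJ : H.JetAll W₁ W₂ D) {c c' : E n → Fib N} (hc : Sol W₁.toLD D c) (hc' : Sol W₂.toLD D c')
    (h2 : Van D 2 (fun x => c x - c' x)) (k : ℕ) : Van D k (fun x => c x - c' x) := by
  have g₁ := dcv_gok hD o₁.g_smooth o₁.g_pos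
  have g₂ := dcv_gok hD o₂.g_smooth o₂.g_pos
  have hG : ∀ k j l, Van D k (fun x => GM W₁.g x j l - GM W₂.g x j l) := fun k j l =>
    van_gg hD o₁ o₂ hJ k j l
  have sdc : ContDiffOn ℝ ∞ (fun x => c x - c' x) D := hc.1.sub hc'.1
  have key : ∀ m, Van D (m + 2) (fun x => c x - c' x) := by
    intro m
    induction m with
    | zero => exact h2
    | succ m ih =>
      have hT := dco_T_van hD g₁ g₂ o₁.B_smooth o₂.B_smooth hc.1 hc'.1 (hG (m + 1))
        (hJ.B (m + 1)) ih
      have hU := fun j => dco_U_van hD g₁ g₂ hc.1 hc'.1 (hG (m + 1)) ih j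
      have sT := (dco_smooth_T hD g₁ o₁.B_smooth hc.1).sub (dco_smooth_T hD g₂ o₂.B_smooth hc'.1)
      have sU := fun j => (dco_smooth_U hD g₁ hc.1 j).sub (dco_smooth_U hD g₂ hc'.1 j)
      -- the normal derivative of the flux
      have hU0 : Van D (m + 1) (pd 0 (fun y => dcoU (GM W₁.g) c 0 y - dcoU (GM W₂.g) c' 0 y)) := by
        have hS : Van D (m + 1) (fun x => ∑ j ∈ Finset.univ.erase (0 : Fin n),
            pd j (fun y => dcoU (GM W₁.g) c j y - dcoU (GM W₂.g) c' j y) x) :=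
          Van.sum hD _ (fun j _ => hD.pd_smooth (sU j) j) fun j hj =>
            Van.pd_tan hD (sU j) (hU j) (Finset.ne_of_mem_erase hj)
        have sS : ContDiffOn ℝ ∞ (fun x => ∑ j ∈ Finset.univ.erase (0 : Fin n),
            pd j (fun y => dcoU (GM W₁.g) c j y - dcoU (GM W₂.g) c' j y) x) D :=
          dc_smooth_sum _ fun j _ => hD.pd_smooth (sU j) j
        have hT2 := Van.clm hD ((-2 : ℝ) • ContinuousLinearMap.id ℝ (Fib N)) sT hT
        have sT2 := dc_smooth_clm ((-2 : ℝ) • ContinuousLinearMap.id ℝ (Fib N)) sT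
        refine (Van.sub hD sT2 sS hT2 hS).congr hD fun x hx => ?_
        have e1 := hc.2 x hx
        have e2 := hc'.2 x hx
        rw [dcv_lop hD o₁ f₁ hc.1 hx, dco_lop_eq] at e1
        rw [dcv_lop hD o₂ f₂ hc'.1 hx, dco_lop_eq] at e2
        have e3 : ∑ j, pd j (fun y => dcoU (GM W₁.g) c j y - dcoU (GM W₂.g) c' j y) x =
            ∑ j, pd j (dcoU (GM W₁.g) c j) x - ∑ j, pd j (dcoU (GM W₂.g) c' j) x := by
          rw [← Finset.sum_sub_distrib]
          exact Finset.sum_congr rfl fun j _ =>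
            hD.pd_sub (dco_smooth_U hD g₁ hc.1 j) (dco_smooth_U hD g₂ hc'.1 j) hx j
        rw [← Finset.add_sum_erase _ _ (Finset.mem_univ (0 : Fin n)),
          eq_neg_of_add_eq_zero_left e1, eq_neg_of_add_eq_zero_left e2] at e3
        have e4 : ((-2 : ℝ) • ContinuousLinearMap.id ℝ (Fib N))
            (dcoT (GM W₁.g) W₁.B c x - dcoT (GM W₂.g) W₂.B c' x) =
            -((2 : ℝ) • dcoT (GM W₁.g) W₁.B c x) - -((2 : ℝ) • dcoT (GM W₂.g) W₂.B c' x) := by
          show (-2 : ℝ) • (dcoT (GM W₁.g) W₁.B c x - dcoT (GM W₂.g) W₂.B c' x) = _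
          rw [smul_sub, neg_smul, neg_smul]
        show ((-2 : ℝ) • ContinuousLinearMap.id ℝ (Fib N))
            (dcoT (GM W₁.g) W₁.B c x - dcoT (GM W₂.g) W₂.B c' x) -
          ∑ j ∈ Finset.univ.erase (0 : Fin n),
            pd j (fun y => dcoU (GM W₁.g) c j y - dcoU (GM W₂.g) c' j y) x = _
        rw [e4, ← e3, add_sub_cancel_right]
      have hU1 : Van D (m + 2) (fun y => dcoU (GM W₁.g) c 0 y - dcoU (GM W₂.g) c' 0 y) := by
        rw [van_succ]
        exact ⟨van_one.mp ((hU 0).mono (by omega)), hU0⟩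
      -- the normal derivative of the difference
      have hk : ∀ k, Van D (m + 2) (fun y => (GM W₁.g y 0 k - GM W₂.g y 0 k) • pd k c y) :=
        fun k => by
          have := Van.bil hD (dc_bil_smul (F := Fib N)) ((g₁.smG 0 k).sub (g₂.smG 0 k))
            (hD.pd_smooth hc.1 k) (hG (m + 2) 0 k) (van_zero _)
          exact this
      have sk : ∀ k, ContDiffOn ℝ ∞ (fun y => (GM W₁.g y 0 k - GM W₂.g y 0 k) • pd k c y) D :=
        fun k => ((g₁.smG 0 k).sub (g₂.smG 0 k)).smul (hD.pd_smooth hc.1 k)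
      have ht : ∀ k, k ≠ 0 → Van D (m + 2) (fun y => GM W₂.g y 0 k •
          pd k (fun x => c x - c' x) y) := fun k hk0 => by
        have := Van.bil hD (dc_bil_smul (F := Fib N)) (g₂.smG 0 k) (hD.pd_smooth sdc k)
          (van_zero _) (Van.pd_tan hD sdc ih hk0)
        rw [zero_add] at this
        exact this
      have st : ∀ k, ContDiffOn ℝ ∞ (fun y => GM W₂.g y 0 k • pd k (fun x => c x - c' x) y) D :=
        fun k => (g₂.smG 0 k).smul (hD.pd_smooth sdc k)
      have h0 : Van D (m + 2) (fun y => GM W₂.g y 0 0 • pd 0 (fun x => c x - c' x) y) := by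
        have hA := Van.sum hD Finset.univ (fun k _ => sk k) fun k _ => hk k
        have sA : ContDiffOn ℝ ∞ (fun y => ∑ k, (GM W₁.g y 0 k - GM W₂.g y 0 k) • pd k c y) D :=
          dc_smooth_sum _ fun k _ => sk k
        have hB := Van.sum hD (Finset.univ.erase (0 : Fin n)) (fun k _ => st k) fun k hk =>
          ht k (Finset.ne_of_mem_erase hk)
        have sB : ContDiffOn ℝ ∞ (fun y => ∑ k ∈ Finset.univ.erase (0 : Fin n),
            GM W₂.g y 0 k • pd k (fun x => c x - c' x) y) D := dc_smooth_sum _ fun k _ => st k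
        refine (Van.sub hD ((sU 0).sub sA) sB (Van.sub hD (sU 0) sA hU1 hA) hB).congr hD
          fun y hy => ?_
        have e1 : ∀ k, pd k (fun x => c x - c' x) y = pd k c y - pd k c' y := fun k =>
          hD.pd_sub hc.1 hc'.1 hy k
        have e2 : ∑ k, GM W₂.g y 0 k • pd k (fun x => c x - c' x) y =
            GM W₂.g y 0 0 • pd 0 (fun x => c x - c' x) y + ∑ k ∈ Finset.univ.erase (0 : Fin n),
            GM W₂.g y 0 k • pd k (fun x => c x - c' x) y :=
          (Finset.add_sum_erase _ _ (Finset.mem_univ (0 : Fin n))).symm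
        have e3 : dcoU (GM W₁.g) c 0 y - dcoU (GM W₂.g) c' 0 y -
            ∑ k, (GM W₁.g y 0 k - GM W₂.g y 0 k) • pd k c y =
            ∑ k, GM W₂.g y 0 k • pd k (fun x => c x - c' x) y := by
          unfold dcoU
          rw [← Finset.sum_sub_distrib, ← Finset.sum_sub_distrib]
          refine Finset.sum_congr rfl fun k _ => ?_
          rw [e1 k, sub_smul, smul_sub]
          abel
        show dcoU (GM W₁.g) c 0 y - dcoU (GM W₂.g) c' 0 y -
            ∑ k, (GM W₁.g y 0 k - GM W₂.g y 0 k) • pd k c y - ∑ k ∈ Finset.univ.erase (0 : Fin n),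
            GM W₂.g y 0 k • pd k (fun x => c x - c' x) y = _
        rw [e3, e2, add_sub_cancel_right]
      have hinv : ContDiffOn ℝ ∞ (fun y => (GM W₂.g y 0 0)⁻¹) D :=
        (g₂.smG 0 0).inv fun y hy => (g₂.pos y hy).diag_pos.ne'
      have h1 : Van D (m + 2) (pd 0 (fun x => c x - c' x)) := by
        have := Van.bil hD (dc_bil_smul (F := Fib N)) hinv (st 0) (van_zero _) h0
        rw [zero_add] at this
        refine this.congr hD fun y hy => ?_
        show (GM W₂.g y 0 0)⁻¹ • (GM W₂.g y 0 0 • pd 0 (fun x => c x - c' x) y) = _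
        rw [smul_smul, inv_mul_cancel₀ (g₂.pos y hy).diag_pos.ne', one_smul]
      show Van D (m + 2 + 1) _
      rw [van_succ]
      exact ⟨van_one.mp (ih.mono (by omega)), h1⟩
  exact (key k).mono (by omega)

/-- The `j`-th column of an endomorphism. -/
def colL (j : Fin N) : Fib N →L[ℝ] EndF N :=
  LinearMap.toContinuousLinearMap
    { toFun := fun v => ContinuousLinearMap.smulRight
        (EuclideanSpace.proj (𝕜 := ℂ) j : Fib N →L[ℂ] ℂ) v
      map_add' := fun v w => by
        ext1 x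
        simp [smul_add]
      map_smul' := fun c v => by
        ext1 x
        simp only [ContinuousLinearMap.smulRight_apply, smul_apply, RingHom.id_apply]
        rw [smul_comm] }

theorem colL_apply (j : Fin N) (v x : Fib N) : colL j v x = x j • v := rfl

theorem end_cols (T : EndF N) : T = ∑ j, colL j (T (EuclideanSpace.single j 1)) := by
  ext1 v
  rw [sum_apply]
  simp only [colL_apply]
  have h1 : v = ∑ j, v j • (EuclideanSpace.single j (1 : ℂ) : Fib N) := by
    ext k
    simp [Finset.sum_apply, PiLp.single_apply, Finset.sum_ite_eq, Pi.single_apply]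
  conv_lhs => rw [h1]
  rw [map_sum]
  exact Finset.sum_congr rfl fun j _ => map_smul _ _ _

/-- flatness of an endomorphism from its columns -/
theorem van_end (hD : RelOpen D) {F : E n → EndF N} (hF : ContDiffOn ℝ ∞ F D) {k : ℕ}
    (h : ∀ v : Fib N, Van D k (fun x => F x v)) : Van D k F := by
  have hs : ∀ v : Fib N, ContDiffOn ℝ ∞ (fun x => F x v) D := fun v =>
    smooth_eval hF contDiffOn_const
  have h1 : Van D k (fun x => ∑ j, colL j (F x (EuclideanSpace.single j 1))) :=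
    Van.sum hD _ (fun j _ => dc_smooth_clm (colL j) (hs _)) fun j _ =>
      Van.clm hD (colL j) (hs _) (h _)
  exact h1.congr hD fun x _ => (end_cols (F x)).symm

/-- **Extension of two functions with the same jets on the flat part.** -/
theorem ext_pair {W : Type} [NormedAddCommGroup W] [NormedSpace ℝ W] [FiniteDimensional ℝ W]
    {f₁ f₂ : E n → W} {z : E n} {r : ℝ} (hr : 0 < r) (hf₁ : ContDiffOn ℝ ∞ f₁ (HB z r))
    (hf₂ : ContDiffOn ℝ ∞ f₂ (HB z r)) (hv : ∀ k, Van (HB z r) k (fun x => f₁ x - f₂ x)) :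
    ∃ F₁ F₂ : E n → W, ContDiff ℝ ∞ F₁ ∧ ContDiff ℝ ∞ F₂ ∧
      (∀ x ∈ HB z (r / 4), F₁ x = f₁ x ∧ F₂ x = f₂ x) ∧ ∀ x, x 0 < 0 → F₂ x = F₁ x := by
  obtain ⟨F, hF, hFe⟩ := ext_vec hr hf₁
  have hR : RelOpen (HB z r) := relHB z r
  have hu : ContDiffOn ℝ ∞ (fun x => f₂ x - f₁ x) (Metric.ball z r ∩ Hs n) := hf₂.sub hf₁
  have hv' : ∀ k, Van (Metric.ball z r ∩ Hs n) k (fun x => f₂ x - f₁ x) := by
    intro k
    have h2 := Van.clm hR (-ContinuousLinearMap.id ℝ W) (hf₁.sub hf₂) (hv k)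
    refine h2.congr hR fun x _ => ?_
    show -(f₁ x - f₂ x) = _
    rw [neg_sub]
  have hez : ContDiffOn ℝ ∞ (ez fun x => f₂ x - f₁ x) (Metric.ball z r) :=
    ez_smooth' Metric.isOpen_ball hu hv'
  have hr4 : 0 < r / 4 := by positivity
  set χ : ContDiffBump z := ⟨r / 4, r / 2, hr4, by linarith⟩ with hχ
  have hcut : ContDiff ℝ ∞ (fun x => χ x • ez (fun x => f₂ x - f₁ x) x) := by
    rw [contDiff_iff_contDiffAt]
    intro x
    rcases lt_or_ge (dist x z) r with h | h
    · exact χ.contDiff.contDiffAt.smul (hez.contDiffAt (Metric.isOpen_ball.mem_nhds h))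
    · have hc : ∀ᶠ y in 𝓝 x, r / 2 < dist y z :=
        (continuous_id.dist continuous_const).continuousAt.eventually_const_lt
          (by show r / 2 < dist x z; linarith)
      refine (contDiffAt_const (c := (0 : W))).congr_of_eventuallyEq ?_
      filter_upwards [hc] with y hy
      rw [χ.zero_of_le_dist hy.le, zero_smul]
  refine ⟨F, fun x => F x + χ x • ez (fun x => f₂ x - f₁ x) x, hF, hF.add hcut,
    fun x hx => ?_, fun x hx => ?_⟩
  · have h1 : F x = f₁ x := hFe x ⟨Metric.ball_subset_ball (by linarith) hx.1, hx.2⟩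
    refine ⟨h1, ?_⟩
    have h2 : χ x = 1 := χ.one_of_mem_closedBall (Metric.ball_subset_closedBall hx.1)
    show F x + χ x • ez (fun x => f₂ x - f₁ x) x = f₂ x
    rw [h2, ez_pos _ hx.2, h1, one_smul, add_sub_cancel]
  · show F x + χ x • ez (fun x => f₂ x - f₁ x) x = F x
    rw [ez_neg _ hx, smul_zero, add_zero]

end Vale.Agent.P088.R2.H850
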