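import Vale.Agent.P088.R2.H850.TrN
import Vale.Agent.P088.R2.H850.VaN

/-!
# P088, stage 4: global smooth fields from two boundary models with the same jets
-/

set_option linter.all false

open Bundle Manifold MeasureTheory Set Filter Topology
open scoped ContDiff Matrix

noncomputable section

namespace Vale.Agent.P088.R2.H850

open Vale.Agent.P088 Vale.Agent.P088.EYM
open Vale.Agent.P088.R2.H509.S3 (em me em_me me_em continuous_me has_me meL_ev em_ball em_HB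
  em_zero contDiff_em Gm Eb_open)
open Vale.Agent.P088.LR (V MF pdm SmM)
open Vale.Agent.P088.PJ (TP kp)
open Vale.Agent.P088.HY.T3 (Eb)

variable {n N : ℕ} [NeZero n]

theorem ent_smooth {F : E n → EndF N} (hF : ContDiff ℝ ∞ F) (z : E n) (a b : Fin N) :
    ContDiff ℝ ∞ (fun x : V n => S.ofE (F (em z x)) a b) :=
  (S.ent a b).contDiff.comp (hF.comp (contDiff_em z))

theorem pos_near {h : EndF N} (hh : ‖h - 1‖ < 1 / 2) {v : Fin N → ℂ} (hv : v ≠ 0) :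
    0 < (star v ⬝ᵥ (S.ofE h *ᵥ v)).re := by
  rw [← inner_ofE]
  set w : Fib N := WithLp.toLp 2 v with hw
  have hw0 : w ≠ 0 := by
    intro h0
    exact hv (congrArg WithLp.ofLp h0)
  have h1 : (inner ℂ w (h w) : ℂ) = inner ℂ w w + inner ℂ w ((h - 1) w) := by
    rw [← inner_add_right]
    congr 1
    show h w = w + (h w - w)
    abel
  have h2 : (inner ℂ w w : ℂ).re = ‖w‖ ^ 2 := by
    have := inner_self_eq_norm_sq (𝕜 := ℂ) w
    exact this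
  have h3 : ‖(inner ℂ w ((h - 1) w) : ℂ)‖ ≤ ‖w‖ * (‖h - 1‖ * ‖w‖) :=
    (norm_inner_le_norm _ _).trans (mul_le_mul_of_nonneg_left ((h - 1).le_opNorm w)
      (norm_nonneg _))
  have h4 := Complex.abs_re_le_norm (inner ℂ w ((h - 1) w) : ℂ)
  have h5 := abs_le.1 (h4.trans h3)
  have h6 : 0 < ‖w‖ ^ 2 := by positivity
  have h7 : ‖w‖ * (‖h - 1‖ * ‖w‖) ≤ 1 / 2 * ‖w‖ ^ 2 := by
    have : ‖h - 1‖ * ‖w‖ ^ 2 ≤ 1 / 2 * ‖w‖ ^ 2 := mul_le_mul_of_nonneg_right hh.le h6.le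
    nlinarith
  rw [h1, Complex.add_re, h2]
  linarith [h5.1]

/-- The hypotheses on two boundary models. -/
structure MJ (z : E n) (r : ℝ) (j0 : Fin N) (W₁ W₂ : Model n N) (y₁ y₂ : Fin n → E n → EndF N) :
    Prop where
  z0 : z 0 = 0
  r0 : 0 < r
  ok₁ : W₁.toLD.Ok (HB z r)
  ok₂ : W₂.toLD.Ok (HB z r)
  fr₁ : ∀ v : Fib N, Sol W₁.toLD (HB z r) (fun _ => v)
  fr₂ : ∀ v : Fib N, Sol W₂.toLD (HB z r) (fun _ => v)
  jet : H.JetAll W₁ W₂ (HB z r)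
  sm₁ : ∀ a, ContDiffOn ℝ ∞ (y₁ a) (HB z r)
  sm₂ : ∀ a, ContDiffOn ℝ ∞ (y₂ a) (HB z r)
  so₁ : ∀ a, ∀ v : Fib N, Sol W₁.toLD (HB z r) (fun y => y₁ a y v)
  so₂ : ∀ a, ∀ v : Fib N, Sol W₂.toLD (HB z r) (fun y => y₂ a y v)
  v2 : ∀ a, ∀ v : Fib N, Van (HB z r) 2 (fun y => y₁ a y v - y₂ a y v)
  re₁ : ∀ a, ∀ y ∈ HB z r, (S.ofE (y₁ a y) j0 j0).re = y a
  re₂ : ∀ a, ∀ y ∈ HB z r, (S.ofE (y₂ a y) j0 j0).re = y a
  h1 : W₁.h z = 1
  d1 : ∀ a i, EYM.pd i (y₁ a) z = if a = i then 1 else 0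

/-- **The fields on `V n`.** -/
theorem MJ.fields {z : E n} {r : ℝ} {j0 : Fin N} {W₁ W₂ : Model n N}
    {y₁ y₂ : Fin n → E n → EndF N} (h : MJ z r j0 W₁ W₂ y₁ y₂) :
    ∃ (s₁ s₂ : MF n) (P₁ P₂ : LR.U.MC n N) (G₁ G₂ Y D : Fin n → LR.U.MC n N) (R : ℝ),
      0 < R ∧ R ≤ r / 4 ∧ FV W₁.toLD z R s₁ P₁ G₁ ∧ FV W₂.toLD z R s₂ P₂ G₂ ∧
      S4.LP (Eb 0 R) (Gm n)ᶜ j0 s₁ s₂ P₁ P₂ G₁ G₂ Y D ∧ P₁ 0 = 1 ∧
      (∀ a i, pdm i (Y a) 0 = if a = i then 1 else 0) ∧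
      ∀ x ∈ Eb (0 : V n) R, 0 ≤ x 0 → ∀ a, D a x = S.ofE (y₂ a (em z x)) - S.ofE (y₁ a (em z x)) := by
  classical
  have hR : RelOpen (HB z r) := relHB z r
  have hr := h.r0
  have hz := h.z0
  have zm : ∀ {ρ : ℝ}, 0 < ρ → z ∈ HB z ρ := fun hρ =>
    ⟨Metric.mem_ball_self hρ, by show 0 ≤ z 0; rw [hz]⟩
  -- extensions
  choose F₁ F₂ hF₁ hF₂ hF hF0 using fun i j : Fin n =>
    ext_pair hr (gg_sm hR h.ok₁ i j) (gg_sm hR h.ok₂ i j)
      (fun k => van_gg hR h.ok₁ h.ok₂ h.jet k i j)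
  obtain ⟨H₁, H₂, hH₁, hH₂, hH, hH0⟩ := ext_pair hr h.ok₁.h_smooth h.ok₂.h_smooth
    (fun k => h.jet.h k)
  choose K₁ K₂ hK₁ hK₂ hK hK0 using fun i : Fin n =>
    ext_pair hr (gE_smooth h.ok₁ i) (gE_smooth h.ok₂ i)
      (fun k => van_gE hR h.ok₁ h.ok₂ h.jet k i)
  choose Z₁ Z₂ hZ₁ hZ₂ hZ hZ0 using fun a : Fin n =>
    ext_pair hr (h.sm₁ a) (h.sm₂ a) (fun k => van_end hR ((h.sm₁ a).sub (h.sm₂ a)) fun v =>
      van_sol hR h.ok₁ h.ok₂ h.fr₁ h.fr₂ h.jet (h.so₁ a v) (h.so₂ a v) (h.v2 a v) k)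
  -- the fields
  set s₁ : MF n := fun x i j => (F₁ i j (em z x) + F₁ j i (em z x)) / 2 with hs₁
  set s₂ : MF n := fun x i j => (F₂ i j (em z x) + F₂ j i (em z x)) / 2 with hs₂
  set h₁ : E n → EndF N := fun y => (1 / 2 : ℝ) • (H₁ y + ContinuousLinearMap.adjoint (H₁ y))
    with hh₁
  set h₂ : E n → EndF N := fun y => (1 / 2 : ℝ) • (H₂ y + ContinuousLinearMap.adjoint (H₂ y))
    with hh₂
  set g₁ : Fin n → E n → EndF N := fun i y =>
    (1 / 2 : ℝ) • (K₁ i y - ContinuousLinearMap.adjoint (K₁ i y)) with hg₁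
  set g₂ : Fin n → E n → EndF N := fun i y =>
    (1 / 2 : ℝ) • (K₂ i y - ContinuousLinearMap.adjoint (K₂ i y)) with hg₂
  have adjS : ∀ {F : E n → EndF N}, ContDiff ℝ ∞ F →
      ContDiff ℝ ∞ (fun y => ContinuousLinearMap.adjoint (F y)) := fun hF => adjRE.contDiff.comp hF
  have sh₁ : ContDiff ℝ ∞ h₁ := (hH₁.add (adjS hH₁)).const_smul (1 / 2 : ℝ)
  have sh₂ : ContDiff ℝ ∞ h₂ := (hH₂.add (adjS hH₂)).const_smul (1 / 2 : ℝ)
  have sg₁ : ∀ i, ContDiff ℝ ∞ (g₁ i) := fun i =>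
    ((hK₁ i).sub (adjS (hK₁ i))).const_smul (1 / 2 : ℝ)
  have sg₂ : ∀ i, ContDiff ℝ ∞ (g₂ i) := fun i =>
    ((hK₂ i).sub (adjS (hK₂ i))).const_smul (1 / 2 : ℝ)
  have hsub4 : HB z (r / 4) ⊆ HB z r :=
    inter_subset_inter_left _ (Metric.ball_subset_ball (by linarith))
  have half : ∀ T : EndF N, (1 / 2 : ℝ) • (T + T) = T := fun T => by
    rw [← two_smul ℝ T, smul_smul]
    norm_num
  have eh₁ : ∀ y ∈ HB z (r / 4), h₁ y = W₁.h y := fun y hy => by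
    show (1 / 2 : ℝ) • (H₁ y + ContinuousLinearMap.adjoint (H₁ y)) = _
    rw [(hH y hy).1, h.ok₁.h_adj y (hsub4 hy), half]
  have eh₂ : ∀ y ∈ HB z (r / 4), h₂ y = W₂.h y := fun y hy => by
    show (1 / 2 : ℝ) • (H₂ y + ContinuousLinearMap.adjoint (H₂ y)) = _
    rw [(hH y hy).2, h.ok₂.h_adj y (hsub4 hy), half]
  have eg₁ : ∀ i, ∀ y ∈ HB z (r / 4), g₁ i y = gE W₁.toLD i y := fun i y hy => by
    show (1 / 2 : ℝ) • (K₁ i y - ContinuousLinearMap.adjoint (K₁ i y)) = _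
    rw [(hK i y hy).1, gE_skew h.ok₁ i (hsub4 hy), sub_neg_eq_add, half]
  have eg₂ : ∀ i, ∀ y ∈ HB z (r / 4), g₂ i y = gE W₂.toLD i y := fun i y hy => by
    show (1 / 2 : ℝ) • (K₂ i y - ContinuousLinearMap.adjoint (K₂ i y)) = _
    rw [(hK i y hy).2, gE_skew h.ok₂ i (hsub4 hy), sub_neg_eq_add, half]
  have adj_h : ∀ H : E n → EndF N, ∀ y, ContinuousLinearMap.adjoint
      ((1 / 2 : ℝ) • (H y + ContinuousLinearMap.adjoint (H y))) =
      (1 / 2 : ℝ) • (H y + ContinuousLinearMap.adjoint (H y)) := fun H y => by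
    rw [adj_smul, map_add, ContinuousLinearMap.adjoint_adjoint, add_comm]
  have adj_g : ∀ H : E n → EndF N, ∀ y, ContinuousLinearMap.adjoint
      ((1 / 2 : ℝ) • (H y - ContinuousLinearMap.adjoint (H y))) =
      -((1 / 2 : ℝ) • (H y - ContinuousLinearMap.adjoint (H y))) := fun H y => by
    rw [adj_smul, map_sub, ContinuousLinearMap.adjoint_adjoint,
      ← neg_sub (H y) (ContinuousLinearMap.adjoint (H y))]
    exact smul_neg (1 / 2 : ℝ) (H y - ContinuousLinearMap.adjoint (H y))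
  -- radius for the positivity
  have hz1 : h₁ z = 1 := by rw [eh₁ z (zm (by positivity)), h.h1]
  have hz2 : h₂ z = 1 := by
    rw [eh₂ z (zm (by positivity))]
    have := h.jet.h 1 0 one_pos z (zm hr) hz
    have e : W₁.h z - W₂.h z = 0 := this
    rw [← sub_eq_zero.1 e, h.h1]
  have near : ∀ {F : E n → EndF N}, ContDiff ℝ ∞ F → F z = 1 →
      ∃ δ > 0, ∀ y ∈ Metric.ball z δ, ‖F y - 1‖ < 1 / 2 := by
    intro F hF hF1
    have hc : Continuous fun y => ‖F y - 1‖ := (hF.continuous.sub continuous_const).norm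
    have h2 : ∀ᶠ y in 𝓝 z, ‖F y - 1‖ < 1 / 2 :=
      hc.continuousAt.eventually_lt continuousAt_const (by
        show ‖F z - 1‖ < 1 / 2
        rw [hF1, sub_self, norm_zero]
        norm_num)
    exact Metric.eventually_nhds_iff_ball.1 h2
  obtain ⟨δ₁, hδ₁, hP₁⟩ := near sh₁ hz1
  obtain ⟨δ₂, hδ₂, hP₂⟩ := near sh₂ hz2
  -- positivity of the symmetric matrices
  have hr4 : 0 < r / 4 := by positivity
  have em0 : em z (0 : V n) = z := by
    unfold R2.H509.S3.em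
    simp
  have gsym₁ : ∀ y ∈ HB z (r / 4), ∀ i j, gg W₁.g i j y = gg W₁.g j i y := fun y hy i j =>
    gg_symm hR h.ok₁ (hsub4 hy) i j
  have gsym₂ : ∀ y ∈ HB z (r / 4), ∀ i j, gg W₂.g i j y = gg W₂.g j i y := fun y hy i j =>
    gg_symm hR h.ok₂ (hsub4 hy) i j
  have es₁ : ∀ x : V n, em z x ∈ HB z (r / 4) → ∀ i j, s₁ x i j = gg W₁.g i j (em z x) := by
    intro x hx i j
    show (F₁ i j (em z x) + F₁ j i (em z x)) / 2 = _
    rw [(hF i j _ hx).1, (hF j i _ hx).1, gsym₁ _ hx j i]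
    ring
  have es₂ : ∀ x : V n, em z x ∈ HB z (r / 4) → ∀ i j, s₂ x i j = gg W₂.g i j (em z x) := by
    intro x hx i j
    show (F₂ i j (em z x) + F₂ j i (em z x)) / 2 = _
    rw [(hF i j _ hx).2, (hF j i _ hx).2, gsym₂ _ hx j i]
    ring
  have posG : ∀ {L : LD n N}, L.Ok (HB z r) → ∀ y ∈ HB z r,
      (Matrix.of fun i j => gg L.g i j y).PosDef := by
    intro L ok y hy
    rw [sgg_eq]
    exact (ok.g_pos _ hy).inv.smul (Real.sqrt_pos.2 (ok.g_pos _ hy).det_pos)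
  have ps₁ : (s₁ 0).PosDef := by
    have h1 := posG h.ok₁ z (zm hr)
    have h2 : s₁ 0 = Matrix.of fun i j => gg W₁.g i j z := by
      ext i j
      rw [es₁ 0 (by rw [em0]; exact zm hr4) i j, em0]
      rfl
    rw [h2]
    exact h1
  have ps₂ : (s₂ 0).PosDef := by
    have h1 := posG h.ok₂ z (zm hr)
    have h2 : s₂ 0 = Matrix.of fun i j => gg W₂.g i j z := by
      ext i j
      rw [es₂ 0 (by rw [em0]; exact zm hr4) i j, em0]
      rfl
    rw [h2]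
    exact h1
  have ss₁ : SmM s₁ := fun i j => (((hF₁ i j).comp (contDiff_em z)).add
    ((hF₁ j i).comp (contDiff_em z))).div_const 2
  have ss₂ : SmM s₂ := fun i j => (((hF₂ i j).comp (contDiff_em z)).add
    ((hF₂ j i).comp (contDiff_em z))).div_const 2
  have sy₁ : ∀ x, (s₁ x).IsSymm := fun x => by
    ext i j
    show (F₁ j i (em z x) + F₁ i j (em z x)) / 2 = (F₁ i j (em z x) + F₁ j i (em z x)) / 2
    rw [add_comm]
  have sy₂ : ∀ x, (s₂ x).IsSymm := fun x => by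
    ext i j
    show (F₂ j i (em z x) + F₂ i j (em z x)) / 2 = (F₂ i j (em z x) + F₂ j i (em z x)) / 2
    rw [add_comm]
  obtain ⟨δ₃, hδ₃, hS₁⟩ := posDef_V ss₁ sy₁ ps₁
  obtain ⟨δ₄, hδ₄, hS₂⟩ := posDef_V ss₂ sy₂ ps₂
  -- the radius
  obtain ⟨R, hR0, hRr, hR1, hR2, hR3, hR4⟩ : ∃ R : ℝ, 0 < R ∧ R ≤ r / 4 ∧ R ≤ δ₁ ∧ R ≤ δ₂ ∧
      R ≤ δ₃ ∧ R ≤ δ₄ :=
    ⟨min (r / 4) (min (min δ₁ δ₂) (min δ₃ δ₄)),
      lt_min hr4 (lt_min (lt_min hδ₁ hδ₂) (lt_min hδ₃ hδ₄)), min_le_left _ _,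
      (min_le_right _ _).trans ((min_le_left _ _).trans (min_le_left _ _)),
      (min_le_right _ _).trans ((min_le_left _ _).trans (min_le_right _ _)),
      (min_le_right _ _).trans ((min_le_right _ _).trans (min_le_left _ _)),
      (min_le_right _ _).trans ((min_le_right _ _).trans (min_le_right _ _))⟩
  have hO : IsOpen (Eb (0 : V n) R) := Eb_open R
  have hD : RelOpen (HB z R) := relHB z R
  have hRr' : HB z R ⊆ HB z (r / 4) :=
    inter_subset_inter_left _ (Metric.ball_subset_ball hRr)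
  have hRrr : HB z R ⊆ HB z r := hRr'.trans hsub4
  have m1 : ∀ x ∈ Eb (0 : V n) R, 0 ≤ x 0 → em z x ∈ HB z R := fun x hx hx0 =>
    (em_HB hz hR0 x).2 ⟨hx, not_lt.2 hx0⟩
  have m2 : ∀ x : V n, em z x ∈ HB z R → 0 ≤ x 0 := fun x hx => by
    have := hx.2
    rw [← em_zero hz x]
    exact this
  have sq0 : ∀ {x : V n} {ρ : ℝ}, x ∈ Eb (0 : V n) R → R ≤ ρ → HY.sq x < ρ ^ 2 := by
    intro x ρ hx hρ
    have h1 : HY.sq (x - 0) < R ^ 2 := hx
    rw [sub_zero] at h1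
    exact lt_of_lt_of_le h1 (pow_le_pow_left₀ hR0.le hρ 2)
  have bl : ∀ {x : V n} {ρ : ℝ}, x ∈ Eb (0 : V n) R → R ≤ ρ → em z x ∈ Metric.ball z ρ :=
    fun hx hρ => Metric.ball_subset_ball hρ ((em_ball hR0 _).2 hx)
  have ok₁ : W₁.toLD.Ok (HB z R) := Vale.Agent.P088.EYM.bmodel_ok_mono h.ok₁ hRrr
  have ok₂ : W₂.toLD.Ok (HB z R) := Vale.Agent.P088.EYM.bmodel_ok_mono h.ok₂ hRrr
  have fr₁ : ∀ v : Fib N, Sol W₁.toLD (HB z R) (fun _ => v) := fun v =>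
    Vale.Agent.P088.EYM.bmodel_sol_mono (h.fr₁ v) hRrr
  have fr₂ : ∀ v : Fib N, Sol W₂.toLD (HB z R) (fun _ => v) := fun v =>
    Vale.Agent.P088.EYM.bmodel_sol_mono (h.fr₂ v) hRrr
  set P₁ : LR.U.MC n N := fun x => S.ofE (h₁ (em z x)) with hP₁d
  set P₂ : LR.U.MC n N := fun x => S.ofE (h₂ (em z x)) with hP₂d
  set G₁ : Fin n → LR.U.MC n N := fun i x => S.ofE (g₁ i (em z x)) with hG₁d
  set G₂ : Fin n → LR.U.MC n N := fun i x => S.ofE (g₂ i (em z x)) with hG₂d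
  set Y : Fin n → LR.U.MC n N := fun a x => S.ofE (Z₁ a (em z x)) with hYd
  set D : Fin n → LR.U.MC n N := fun a x => S.ofE (Z₂ a (em z x)) - S.ofE (Z₁ a (em z x)) with hDd
  have fv₁ : FV W₁.toLD z R s₁ P₁ G₁ :=
    ⟨fun x hx hx0 i j => es₁ x (hRr' (m1 x hx hx0)) i j,
      fun x hx hx0 => by
        show S.ofE (h₁ (em z x)) = _
        rw [eh₁ _ (hRr' (m1 x hx hx0))],
      fun i x hx hx0 => by
        show S.ofE (g₁ i (em z x)) = _
        rw [eg₁ i _ (hRr' (m1 x hx hx0))]⟩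
  have fv₂ : FV W₂.toLD z R s₂ P₂ G₂ :=
    ⟨fun x hx hx0 i j => es₂ x (hRr' (m1 x hx hx0)) i j,
      fun x hx hx0 => by
        show S.ofE (h₂ (em z x)) = _
        rw [eh₂ _ (hRr' (m1 x hx hx0))],
      fun i x hx hx0 => by
        show S.ofE (g₂ i (em z x)) = _
        rw [eg₂ i _ (hRr' (m1 x hx hx0))]⟩
  have fw₁ : FW W₁.toLD z (Eb 0 R) (HB z R) s₁ P₁ G₁ := fv₁.fw hR0 hz
    (fun i j => (ss₁ i j).contDiffOn) (fun a b => (ent_smooth sh₁ z a b).contDiffOn)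
    (fun i a b => (ent_smooth (sg₁ i) z a b).contDiffOn)
  have fw₂ : FW W₂.toLD z (Eb 0 R) (HB z R) s₂ P₂ G₂ := fv₂.fw hR0 hz
    (fun i j => (ss₂ i j).contDiffOn) (fun a b => (ent_smooth sh₂ z a b).contDiffOn)
    (fun i a b => (ent_smooth (sg₂ i) z a b).contDiffOn)
  have trY : ∀ a, Tr z (Eb 0 R) (HB z R) (Y a) (y₁ a) := fun a =>
    ⟨fun b c => (ent_smooth (hZ₁ a) z b c).contDiffOn, (h.sm₁ a).mono hRrr, fun x hx hxD => by
      show S.ofE (Z₁ a (em z x)) = _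
      rw [(hZ a _ (hRr' hxD)).1]⟩
  have trZ : ∀ a, Tr z (Eb 0 R) (HB z R) (fun x => Y a x + D a x) (y₂ a) := fun a =>
    ⟨fun b c => by
      have h1 : (fun x => (Y a x + D a x) b c) = fun x : V n => S.ofE (Z₂ a (em z x)) b c := by
        funext x
        show S.ofE (Z₁ a (em z x)) b c + (S.ofE (Z₂ a (em z x)) b c - S.ofE (Z₁ a (em z x)) b c) = _
        ring
      rw [h1]
      exact (ent_smooth (hZ₂ a) z b c).contDiffOn, (h.sm₂ a).mono hRrr, fun x hx hxD => by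
      show S.ofE (Z₁ a (em z x)) + (S.ofE (Z₂ a (em z x)) - S.ofE (Z₁ a (em z x))) = _
      rw [(hZ a _ (hRr' hxD)).2]
      abel⟩
  have hE' : ∀ x ∈ Eb (0 : V n) R ∩ (Gm n)ᶜ, em z x ∈ HB z R := fun x hx =>
    (em_HB hz hR0 x).2 ⟨hx.1, hx.2⟩
  have neg : ∀ x : V n, x ∉ (Gm n)ᶜ → em z x 0 < 0 := fun x hx => by
    rw [em_zero hz]
    exact not_not.1 hx
  refine ⟨s₁, s₂, P₁, P₂, G₁, G₂, Y, D, R, hR0, hRr, fv₁, fv₂, ?_, ?_, ?_, ?_⟩
  · exact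
    { d₁ := fw₁.l1 hO hD ok₁ fr₁ inter_subset_left hE' (fun x hx => hS₁ x (sq0 hx hR3))
        (fun x _ => by
          show (S.ofE (h₁ (em z x)))ᴴ = S.ofE (h₁ (em z x))
          rw [← ofE_adj]
          exact congrArg S.ofE (adj_h H₁ _))
        (fun x hx v hv => pos_near (hP₁ _ (bl hx hR1)) hv)
        (fun i x _ => by
          show (S.ofE (g₁ i (em z x)))ᴴ = -S.ofE (g₁ i (em z x))
          rw [← ofE_adj, ← ofE_neg]
          exact congrArg S.ofE (adj_g (K₁ i) _))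
      d₂ := fw₂.l1 hO hD ok₂ fr₂ inter_subset_left hE' (fun x hx => hS₂ x (sq0 hx hR4))
        (fun x _ => by
          show (S.ofE (h₂ (em z x)))ᴴ = S.ofE (h₂ (em z x))
          rw [← ofE_adj]
          exact congrArg S.ofE (adj_h H₂ _))
        (fun x hx v hv => pos_near (hP₂ _ (bl hx hR2)) hv)
        (fun i x _ => by
          show (S.ofE (g₂ i (em z x)))ᴴ = -S.ofE (g₂ i (em z x))
          rw [← ofE_adj, ← ofE_neg]
          exact congrArg S.ofE (adj_g (K₂ i) _))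
      sY := fun a b c => (trY a).sm b c
      sD := fun a b c => ((ent_smooth (hZ₂ a) z b c).sub (ent_smooth (hZ₁ a) z b c)).contDiffOn
      os := fun x _ hx => by
        ext i j
        show (F₂ i j (em z x) + F₂ j i (em z x)) / 2 = (F₁ i j (em z x) + F₁ j i (em z x)) / 2
        rw [hF0 i j _ (neg x hx), hF0 j i _ (neg x hx)]
      oP := fun x _ hx => by
        show S.ofE ((1 / 2 : ℝ) • (H₂ (em z x) + ContinuousLinearMap.adjoint (H₂ (em z x)))) =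
          S.ofE ((1 / 2 : ℝ) • (H₁ (em z x) + ContinuousLinearMap.adjoint (H₁ (em z x))))
        rw [hH0 _ (neg x hx)]
      oG := fun i x _ hx => by
        show S.ofE ((1 / 2 : ℝ) • (K₂ i (em z x) - ContinuousLinearMap.adjoint (K₂ i (em z x)))) =
          S.ofE ((1 / 2 : ℝ) • (K₁ i (em z x) - ContinuousLinearMap.adjoint (K₁ i (em z x))))
        rw [hK0 i _ (neg x hx)]
      oD := fun a x _ hx => by
        show S.ofE (Z₂ a (em z x)) - S.ofE (Z₁ a (em z x)) = 0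
        rw [hZ0 a _ (neg x hx), sub_self]
      tD := fun a x hx => by
        show (S.ofE (Z₂ a (em z x)) j0 j0 - S.ofE (Z₁ a (em z x)) j0 j0).re = 0
        rw [Complex.sub_re]
        rcases lt_or_ge (x 0) 0 with hx0 | hx0
        · rw [hZ0 a _ (by rw [em_zero hz]; exact hx0), sub_self]
        · have hm := m1 x hx hx0
          rw [(hZ a _ (hRr' hm)).1, (hZ a _ (hRr' hm)).2, h.re₁ a _ (hRrr hm), h.re₂ a _ (hRrr hm),
            sub_self]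
      hY := fun a x hx => fw₁.mo hO hD ok₁ fr₁ (trY a)
        (fun v => Vale.Agent.P088.EYM.bmodel_sol_mono (h.so₁ a v) hRrr) hx.1 (hE' x hx)
      gi := fun a x hx => fw₂.mo hO hD ok₂ fr₂ (trZ a)
        (fun v => Vale.Agent.P088.EYM.bmodel_sol_mono (h.so₂ a v) hRrr) hx.1 (hE' x hx) }
  · show S.ofE (h₁ (em z 0)) = 1
    rw [em0, hz1, ofE_one]
  · intro a i
    have hx0 : (0 : V n) ∈ Eb (0 : V n) R := by
      rw [← em_ball hR0 (z := z), em0]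
      exact Metric.mem_ball_self hR0
    have h1 := ((trY a).pdm hO hD i).eq 0 hx0 (by rw [em0]; exact zm hR0)
    rw [h1, em0, h.d1 a i]
    split_ifs
    · exact ofE_one
    · rfl
  · intro x hx hx0 a
    show S.ofE (Z₂ a (em z x)) - S.ofE (Z₁ a (em z x)) = _
    have hm := m1 x hx hx0
    rw [(hZ a _ (hRr' hm)).1, (hZ a _ (hRr' hm)).2]

end Vale.Agent.P088.R2.H850
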