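import Vale.Agent.P088.R2.H850.El8
import Vale.Agent.P088.R2.H31.CoreG
import Vale.Agent.P088.R2.H338.LE
import Vale.Agent.P088.R2.H338.BE
import Vale.Agent.P088.R2.H509.GeoS

/-!
# P088, THEOREM S: all blocks are proved
-/

namespace Vale.Agent.P088.R2.H850

universe u

theorem core' : H31.Core_statement := H31.core_geo H509G.geo

theorem glS : H338.GL_statement.{u} := H338.gl

theorem bdS : BDL_statement.{u} := H338.bdl core'

end Vale.Agent.P088.R2.H850
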