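import Vale.Agent.P088.R2.H850.K3
import Vale.Agent.P088.R2.H509.S3.Pt
import Vale.Agent.P088.R2.H509.S3.St

/-!
# P088, stage 3: the start at the boundary
-/

set_option linter.all false

open Bundle Manifold MeasureTheory Set Filter Topology
open scoped ContDiff

noncomputable section

namespace Vale.Agent.P088.R2.H850

open Vale.Agent.P088 Vale.Agent.P088.EYM Vale.Agent.P088.TM
open Vale.Agent.P088.R2.H509.S3
open Vale.Agent.P088.LR (V MF SmM)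
open Vale.Agent.P088.HY.T3 (Eb Stp RowCORE3)

universe u

/-- The start, for `N = 1` and `A = 0`. -/
def RowSTART : Prop :=
  ∀ (n : ℕ) [NeZero n] (M₁ M₂ : Type u)
    [TopologicalSpace M₁] [ChartedSpace (EuclideanHalfSpace n) M₁]
    [IsManifold (𝓡∂ n) ∞ M₁] [T2Space M₁] [CompactSpace M₁] [ConnectedSpace M₁] [MeasurableSpace M₁]
    [BorelSpace M₁] [TopologicalSpace M₂] [ChartedSpace (EuclideanHalfSpace n) M₂]
    [IsManifold (𝓡∂ n) ∞ M₂] [T2Space M₂] [CompactSpace M₂] [ConnectedSpace M₂] [MeasurableSpace M₂]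
    [BorelSpace M₂] (P : One n 1 M₁) (Q : One n 1 M₂) (G : Gl M₁ M₂), 3 ≤ n → A0 P.A → A0 Q.A →
    G.Ok n 1 → SameD P Q G → H710.Start P Q G

/-- the frame function is `1` at the centre -/
theorem rho0_one {n : ℕ} [NeZero n] {M : Type u} {e : E n → M} {L : LD n 1} {D₀ : Set (E n)}
    {z : E n} {r : ℝ} {j0 : Fin 1} {W : Model n 1} {D : Set (E n)} {X Y : E n → E n}
    {S : E n → EndF 1} {s : Fin 1 → M → Fib 1} {t : Fin n → M → Fib 1}
    (h : BdM e L D₀ z r j0 W D X Y S s t) : rho0 (s 0) e (Y z) = 1 := by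
  have hz : z ∈ HB z r := ⟨Metric.mem_ball_self h.rpos, by show 0 ≤ z 0; rw [h.z0]⟩
  obtain ⟨h1, -, h3, h4⟩ := h.bd z hz h.z0
  rw [h3]
  have h5 := h.frame z h1 (io 1)
  rw [h4] at h5
  simp only [Finset.univ_unique, Finset.sum_singleton] at h5
  have h6 : s 0 (e z) = io 1 := by
    have h7 : io 1 (default : Fin 1) • s default (e z) = s 0 (e z) := by
      rw [io_apply]
      show ((1 : ℝ) : ℂ) • s 0 (e z) = s 0 (e z)
      rw [Complex.ofReal_one, one_smul]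
    rw [h7] at h5
    exact h5.symm
  show (s 0 (e z) 0).re = 1
  rw [h6, io_re]

theorem rho0_pos {n : ℕ} [NeZero n] {M : Type u}
    [TopologicalSpace M] [ChartedSpace (EuclideanHalfSpace n) M] [IsManifold (𝓡∂ n) ∞ M]
    [MeasurableSpace M] {P : One n 1 M} {e : E n → M} {L : LD n 1} {D₀ : Set (E n)}
    (b : BC P e L D₀)
    {z : E n} {r : ℝ} {j0 : Fin 1} {W : Model n 1} {D : Set (E n)} {X Y : E n → E n}
    {S : E n → EndF 1} {s : Fin 1 → M → Fib 1} {t : Fin n → M → Fib 1}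
    (h : BdM e L D₀ z r j0 W D X Y S s t) (hs : SmS n (s 0)) :
    ∃ r₁ > 0, ∀ y ∈ HB z r, y ∈ Metric.ball z r₁ → 0 < rho0 (s 0) e (Y y) := by
  have hz : z ∈ HB z r := ⟨Metric.mem_ball_self h.rpos, by show 0 ≤ z 0; rw [h.z0]⟩
  have hd := h.pull.diffeo
  have h1 : ContDiffOn ℝ ∞ (fun y => s 0 (e y)) D₀ := b.sm (s 0) hs
  have h2 : ContDiff ℝ ∞ (fun v : Fib 1 => (v 0).re) :=
    Complex.reCLM.contDiff.comp
      (((EuclideanSpace.proj (𝕜 := ℂ) (0 : Fin 1)).restrictScalars ℝ).contDiff)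
  have hsm0 : ContDiffOn ℝ ∞ (rho0 (s 0) e) D₀ := h2.comp_contDiffOn h1
  have hsm : ContDiffOn ℝ ∞ (fun y => rho0 (s 0) e (Y y)) (HB z r) :=
    (hsm0.mono h.sub).comp hd.smY hd.mapsY
  have h3 : ContinuousWithinAt (fun y => rho0 (s 0) e (Y y)) (HB z r) z := hsm.continuousOn z hz
  have h4 : ∀ᶠ y in 𝓝[HB z r] z, 0 < rho0 (s 0) e (Y y) := by
    refine h3.eventually_const_lt ?_
    show 0 < rho0 (s 0) e (Y z)
    rw [rho0_one h]
    exact one_pos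
  obtain ⟨δ, hδ, hδY⟩ := Metric.mem_nhdsWithin_iff.1 h4
  exact ⟨δ, hδ, fun y hy hyδ => hδY ⟨hyδ, hy⟩⟩

theorem rowSTART (hC : RowCORE3) : RowSTART.{u} := by
  intro n _ M₁ M₂ _ _ _ _ _ _ _ _ _ _ _ _ _ _ _ _ P Q G hn hA hA' hG hS
  obtain ⟨p₂, hp₂⟩ := hG.ne₂
  obtain ⟨q₂, z₀, R₀, D, θ, τ, L₂, hz₀, hR₀, hsub, hD, hDt, -, hPC, hpull, -⟩ :=
    TM.Q.exists_pc_at (N := 1) one_pos P Q hG (hG.maps hp₂) isOpen_univ (mem_univ _)
  have hB1 : ∀ y ∈ HB z₀ R₀, ∀ j, (P.loc (G.ψ p₂)).B j y = 0 := fun y _ j => loc_B0 hA _ _ _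
  have hB2 : ∀ y ∈ HB z₀ R₀, ∀ j, L₂.B j y = 0 :=
    pull_B0 hD (cStart_relOpen_HB z₀ R₀) hpull fun y _ j => loc_B0 hA' _ _ _
  obtain ⟨j0, z, r₀, s, t, W₁, W₂, X₁, Y₁, X₂, Y₂, S₁, S₂, hr₀, hs, ht, c1, c2, c3, c4, hBd⟩ :=
    pcSetupR hPC hG hS hA hA' (by omega) one_pos (cSetup_mem_HB hz₀ hR₀) hz₀
  obtain ⟨D₁, D₂, b1, b2⟩ := hBd r₀ hr₀ le_rfl
  have hz : z 0 = 0 := b1.z0
  -- positive frames
  obtain ⟨f, f', hf, hf1, hf2⟩ := id (hs 0)
  obtain ⟨δ₁, hδ₁, hp₁⟩ := rho0_pos hPC.b1 b1 hf1.smooth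
  obtain ⟨δ₂, hδ₂, hp₂'⟩ := rho0_pos hPC.b2 b2 hf2.smooth
  obtain ⟨r₁, hr₁, hr₁0, hr₁1, hr₁2⟩ : ∃ r₁ : ℝ, 0 < r₁ ∧ r₁ < r₀ ∧ r₁ ≤ δ₁ ∧ r₁ ≤ δ₂ :=
    ⟨min (r₀ / 2) (min δ₁ δ₂), lt_min (by positivity) (lt_min hδ₁ hδ₂),
      (min_le_left _ _).trans_lt (by linarith), (min_le_right _ _).trans (min_le_left _ _),
      (min_le_right _ _).trans (min_le_right _ _)⟩
  obtain ⟨D₁', D₂', b1', b2'⟩ := hBd r₁ hr₁ hr₁0.le
  have hHB : HB z r₁ ⊆ HB z r₀ := inter_subset_inter_left _ (Metric.ball_subset_ball hr₁0.le)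
  set ρ₁ : E n → ℝ := fun y => rho0 ((s 0).1) (xc n (G.ψ p₂)).symm (Y₁ y) with hρ₁
  set ρ₂ : E n → ℝ := fun y => rho0 ((s 0).2) (fun y => (xc n q₂).symm (τ y)) (Y₂ y) with hρ₂
  have RM1 : RM W₁ ρ₁ (HB z r₁) := rm_of_bdm hPC.b1 hB1 b1' hf1.smooth (c1 0) c3
    fun y hy => hp₁ y (hHB hy) (Metric.ball_subset_ball hr₁1 hy.1)
  have RM2 : RM W₂ ρ₂ (HB z r₁) := rm_of_bdm hPC.b2 hB2 b2' hf2.smooth (c2 0) c4
    fun y hy => hp₂' y (hHB hy) (Metric.ball_subset_ball hr₁2 hy.1)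
  -- the jets
  have hJ : PJet z r₁ W₁ W₂ := pcJet hPC hG hS hn one_pos hs ht b1 b2 hr₁ hr₁0
  have hR := CNear_relHB z r₁
  have hzm : z ∈ HB z r₁ := ⟨Metric.mem_ball_self hr₁, by show 0 ≤ z 0; rw [hz]⟩
  have hdv : ∀ {W : Model n 1} {ρ : E n → ℝ}, RM W ρ (HB z r₁) → ∀ x ∈ HB z r₁, ∀ j,
      ∑ i, EYM.pd i (fun y => sgE W.toLD y i j) x = 0 := by
    intro W ρ h x hx j
    rw [← h.div_zero j hx]
    exact Finset.sum_congr rfl fun i _ => hR.pd_congr (fun y hy => sgE_eq h hy i j) hx i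
  have hpo : ∀ {W : Model n 1} {ρ : E n → ℝ}, RM W ρ (HB z r₁) → ∀ x ∈ HB z r₁,
      (sgE W.toLD x).PosDef := by
    intro W ρ h x hx
    have h1 : 0 < (trE (W.h x)).re * √(W.g x).det := by
      rw [h.h x hx, trE_one_smul]
      exact mul_pos (pow_pos (h.pos x hx) 2) (Real.sqrt_pos.2 (h.mod.ok.g_pos x hx).det_pos)
    exact (h.mod.ok.g_pos x hx).inv.smul h1
  have hsy : ∀ {W : Model n 1} {ρ : E n → ℝ}, RM W ρ (HB z r₁) → ∀ x ∈ HB z r₁,
      (sgE W.toLD x).IsSymm := by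
    intro W ρ h x hx
    have h1 := (hpo h x hx).isHermitian
    ext i j
    have h2 := congrFun (congrFun h1 i) j
    rw [Matrix.conjTranspose_apply] at h2
    simpa using h2
  obtain ⟨t₁, t₂, R, hRp, hRle, ts1, ts2, ty1, ty2, tp, td, te, tn⟩ :=
    glue hz hr₁ (σ₁ := sgE W₁.toLD) (σ₂ := sgE W₂.toLD) (fun i j => sgE_smooth RM1.mod.ok i j)
      (fun i j => sgE_smooth RM2.mod.ok i j)
      (fun x hx i j => (hsy RM1 x hx).apply j i) (fun x hx i j => (hsy RM2 x hx).apply j i)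
      (hpo RM1) (hpo RM2) (hdv RM1) (hdv RM2)
      (fun k i j => by
        have h1 := jet_sgE hR RM1.mod.ok RM2.mod.ok hJ.jet k i j
        have h2 := Van.clm hR (-ContinuousLinearMap.id ℝ ℝ)
          ((sgE_smooth RM1.mod.ok i j).sub (sgE_smooth RM2.mod.ok i j)) h1
        refine h2.congr hR fun x _ => ?_
        show -(sgE W₁.toLD x i j - sgE W₂.toLD x i j) = _
        rw [neg_sub])
  -- the local theorem
  have hR2 : 0 < R / 2 := by positivity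
  have hbR : ∀ v ∈ Eb (0 : V n) (R / 2), HY.sq v < R ^ 2 := by
    intro v hv
    have h1 : HY.sq (v - 0) < (R / 2) ^ 2 := hv
    rw [sub_zero] at h1
    nlinarith
  have rb1 : RBM P (xc n (G.ψ p₂)).symm (P.loc (G.ψ p₂)) (HB z₀ R₀) z r₁ W₁ D₁' X₁ Y₁ S₁
      (fun j => (s j).1) (fun a => (t a).1) :=
    ⟨hPC.b1, hB1, (Subsingleton.elim j0 0) ▸ b1', hf1.smooth, c1 0, c3,
      fun y hy => hp₁ y (hHB hy) (Metric.ball_subset_ball hr₁1 hy.1)⟩
  have rb2 : RBM Q (fun y => (xc n q₂).symm (τ y)) L₂ (HB z₀ R₀) z r₁ W₂ D₂' X₂ Y₂ S₂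
      (fun j => (s j).2) (fun a => (t a).2) :=
    ⟨hPC.b2, hB2, (Subsingleton.elim j0 0) ▸ b2', hf2.smooth, c2 0, c4,
      fun y hy => hp₂' y (hHB hy) (Metric.ball_subset_ball hr₁2 hy.1)⟩
  obtain ⟨C, V₁, V₂, hC0, hPS⟩ := pairSol hPC hG hS hA hA' hs ht rb1 rb2 hR2
    (show R / 2 < r₁ by linarith)
  have hSt : Stp (Eb (0 : V n) (R / 2)) (Gm n) t₁ t₂ :=
    hPS.stp hC0 hz hR2 (by linarith)
      (fun x hx hx0 i j => by
        rw [((te x (hbR x hx) hx0).1), sgE_eq RM1]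
        · rfl
        · exact ⟨Metric.ball_subset_ball hRle ((mem_ball_tE z x hRp).2 (hbR x hx)), by
            show 0 ≤ tE z x 0
            rw [tE_apply, hz, zero_add]
            exact hx0⟩)
      (fun x hx hx0 i j => by
        rw [((te x (hbR x hx) hx0).2), sgE_eq RM2]
        · rfl
        · exact ⟨Metric.ball_subset_ball hRle ((mem_ball_tE z x hRp).2 (hbR x hx)), by
            show 0 ≤ tE z x 0
            rw [tE_apply, hz, zero_add]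
            exact hx0⟩)
  have hGo : IsOpen (Gm n) := isOpen_lt (continuous_apply 0) continuous_const
  obtain ⟨δ, hδ, hδe⟩ := hC n hn t₁ t₂ (R / 2) 1 (-Pi.single 0 1) (Gm n) hR2 one_pos
    (by
      unfold HY.sq
      rw [Finset.sum_eq_single 0]
      · simp
      · intro b _ hb
        simp [hb]
      · simp) hGo
    (by
      intro x hx
      have h1 : HY.sq (x - -Pi.single 0 1) < 1 ^ 2 := hx.1
      have h2 : (x 0 + 1) ^ 2 ≤ HY.sq (x - -Pi.single 0 1) := by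
        unfold HY.sq
        have h3 := Finset.single_le_sum (f := fun j => (x - -Pi.single 0 1 : V n) j ^ 2)
          (fun j _ => sq_nonneg _) (Finset.mem_univ (0 : Fin n))
        simpa using h3
      show x 0 < 0
      nlinarith)
    (fun i j => (ts1 i j).contDiffOn) (fun i j => (ts2 i j).contDiffOn)
    (fun x hx => (tp x (hbR x hx)).1) (fun x hx => (tp x (hbR x hx)).2)
    (fun x hx j => (td x (hbR x hx) j).1) (fun x hx j => (td x (hbR x hx) j).2)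
    (fun x hx => tn x (hbR x hx.2) (le_of_lt hx.1)) hSt
  -- equal models
  obtain ⟨d, hd, hdδ, hdR⟩ : ∃ d : ℝ, 0 < d ∧ d ≤ δ ∧ d ≤ R / 2 :=
    ⟨min δ (R / 2), lt_min hδ hR2, min_le_left _ _, min_le_right _ _⟩
  have hdr : d < r₀ := by linarith
  have hdr1 : d ≤ r₁ := by linarith
  have hHd : HB z d ⊆ HB z r₁ := inter_subset_inter_left _ (Metric.ball_subset_ball hdr1)
  have hHV : ∀ x ∈ HB z d, HY.sq (tV z x) < d ^ 2 ∧ 0 ≤ tV z x 0 := by
    intro x hx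
    constructor
    · have h1 := (mem_ball_tE z (tV z x) hd).1
      rw [tE_tV] at h1
      exact h1 hx.1
    · have h1 := tE_apply z (tV z x) 0
      rw [tE_tV, hz, zero_add] at h1
      rw [← h1]
      exact hx.2
  have hRd := CNear_relHB z d
  obtain ⟨cv, cd⟩ := cauchy_rho RM1 RM2 hJ
  obtain ⟨-, hEq⟩ := rm_eq hn hz hd (RM1.mono hRd hHd) (RM2.mono hRd hHd)
    (fun x hx j k => by
      obtain ⟨v1, v2⟩ := hHV x hx
      have v3 : HY.sq (tV z x) < R ^ 2 := by nlinarith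
      have v4 : tV z x ∈ Eb (0 : V n) δ := by
        show HY.sq (tV z x - 0) < δ ^ 2
        rw [sub_zero]
        nlinarith
      obtain ⟨e1, e2⟩ := te (tV z x) v3 v2
      rw [tE_tV] at e1 e2
      rw [← sgE_eq RM1 (hHd hx), ← sgE_eq RM2 (hHd hx), ← e1, ← e2, hδe _ v4])
    (fun x hx hx0 => cv x (hHd hx) hx0) (fun x hx hx0 => cd x (hHd hx) hx0)
  obtain ⟨D₁'', D₂'', e1, e2⟩ := hBd d hd hdr.le
  obtain ⟨O, φ, V, hO, hev⟩ := near_match hPC hsub hD hDt hpull hG hS one_pos b1 b2 e1 e2 hdr hEq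
  have hzt : z ∈ HB z₀ R₀ := b1.sub (b1.bd z (hHB hzm) hz).1
  exact start_of_match hn one_pos hG hS (hPC.m2 z hzt hz) hO hev

end Vale.Agent.P088.R2.H850
end
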