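import Vale.Agent.P088.R2.H710.LX.Step
import Vale.Agent.P088.R2.H935.S.Conv2
import Vale.Agent.P088.R2.H455.S3.Fin
import Vale.Agent.P088.R2.H850.K8

/-!
# P088, stage 3: assembly
-/

set_option linter.all false

open Bundle Manifold MeasureTheory Set Filter Topology
open scoped ContDiff

noncomputable section

namespace Vale.Agent.P088.R2.H850

open Vale.Agent.P088 Vale.Agent.P088.EYM
open Vale.Agent.P088.R2.H509.S3
open Vale.Agent.P088.R2.H710 (RowST3I RowLX rowLX Start StepI rowGLOB)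
open Vale.Agent.P088.R2.H455.S3 (LocS)

universe u

/-- The local statements, for real scalars. -/
theorem locS (hC : HY.T3.RowCORE3) (hT : RowST3I.{u}) {n : ℕ} [NeZero n] {M₁ M₂ : Type u}
    [TopologicalSpace M₁] [ChartedSpace (EuclideanHalfSpace n) M₁]
    [IsManifold (𝓡∂ n) ∞ M₁] [T2Space M₁] [CompactSpace M₁] [ConnectedSpace M₁] [MeasurableSpace M₁]
    [BorelSpace M₁] [TopologicalSpace M₂] [ChartedSpace (EuclideanHalfSpace n) M₂]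
    [IsManifold (𝓡∂ n) ∞ M₂] [T2Space M₂] [CompactSpace M₂] [ConnectedSpace M₂] [MeasurableSpace M₂]
    [BorelSpace M₂] (P : One n 1 M₁) (Q : One n 1 M₂) (G : TM.Gl M₁ M₂) (hn : 3 ≤ n)
    (hA : A0 P.A) (hA' : A0 Q.A) (hG : G.Ok n 1) (hS : TM.SameD P Q G) : LocS P Q G := by
  have hS' : TM.SameD Q P G.symm := (TM.gData n 1 M₁ M₂ P Q G hG hS).1.2.2
  exact ⟨rowSTART hC n M₁ M₂ P Q G hn hA hA' hG hS,
    rowSTART hC n M₂ M₁ Q P G.symm hn hA' hA hG.symm hS',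
    rowLX (R2.H935.Cv.core3E hC) hT n M₁ M₂ P Q G hn hA hA' hG hS,
    rowLX (R2.H935.Cv.core3E hC) hT n M₂ M₁ Q P G.symm hn hA' hA hG.symm hS'⟩

/-- **Two manifolds**, `N = 1`, `A = 0`. -/
theorem ge2 (hC : HY.T3.RowCORE3) (hT : RowST3I.{u}) {n : ℕ} [NeZero n] {M₁ M₂ : Type u}
    [TopologicalSpace M₁] [ChartedSpace (EuclideanHalfSpace n) M₁]
    [IsManifold (𝓡∂ n) ∞ M₁] [T2Space M₁] [CompactSpace M₁] [ConnectedSpace M₁] [MeasurableSpace M₁]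
    [BorelSpace M₁] [TopologicalSpace M₂] [ChartedSpace (EuclideanHalfSpace n) M₂]
    [IsManifold (𝓡∂ n) ∞ M₂] [T2Space M₂] [CompactSpace M₂] [ConnectedSpace M₂] [MeasurableSpace M₂]
    [BorelSpace M₂] (P : One n 1 M₁) (Q : One n 1 M₂) (G : TM.Gl M₁ M₂) (hn : 3 ≤ n)
    (hA : A0 P.A) (hA' : A0 Q.A) (hG : G.Ok n 1) (hS : TM.SameD P Q G) : TM.GE2 P Q G := by
  obtain ⟨h1, h2, h3, h4⟩ := locS hC hT P Q G hn hA hA' hG hS
  exact rowGLOB n 1 M₁ M₂ P Q G hn one_pos hG hS h1 h2 h3 h4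

/-! ### The statement of Q1 -/

open Vale.Agent.P088.B Vale.Agent.P088.B2

theorem a0_one {n : ℕ} [NeZero n] {M : Type u} [TopologicalSpace M]
    [ChartedSpace (EuclideanHalfSpace n) M] [IsManifold (𝓡∂ n) ∞ M] (P : B.Pair (at_ n M) 1)
    (h : ∀ x i, P.A x i = 0) : A0 (@EYM.One.A n 1 _ M _ _ _ (borel M) (one P)) := by
  intro x v
  have h2 : S.formOf ((B.conv P).co x) = 0 := by
    refine ContinuousLinearMap.ext fun w => ?_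
    rw [S.formOf_apply]
    have h1 : ∀ i, (B.conv P).co x i = 0 := h x
    simp only [h1]
    have h3 : S.toE (0 : Matrix (Fin 1) (Fin 1) ℂ) = 0 := map_zero _
    simp only [h3, smul_zero, Finset.sum_const_zero]
    rfl
  exact congrArg (fun T : EuclideanSpace ℝ (Fin n) →L[ℝ] EndF 1 => T v) h2

/-- Two manifolds, in the terms of the hand-ins. -/
theorem cal_two (hC : HY.T3.RowCORE3) (hT : RowST3I.{u}) {n : ℕ} [NeZero n] (hn : 3 ≤ n)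
    {M₁ M₂ : Type u}
    [TopologicalSpace M₁] [ChartedSpace (EuclideanHalfSpace n) M₁] [IsManifold (𝓡∂ n) ∞ M₁]
    [T2Space M₁] [CompactSpace M₁] [ConnectedSpace M₁]
    [TopologicalSpace M₂] [ChartedSpace (EuclideanHalfSpace n) M₂] [IsManifold (𝓡∂ n) ∞ M₂]
    [T2Space M₂] [CompactSpace M₂] [ConnectedSpace M₂]
    (Z₁ : At n M₁) (hZ₁ : Z₁ = at_ n M₁) (Z₂ : At n M₂) (hZ₂ : Z₂ = at_ n M₂)
    (Γ₁ O₁ : Set M₁) (hO₁ : IsOpen O₁) (hΓ₁ : Γ₁ = O₁ ∩ bd Z₁)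
    (Γ₂ O₂ : Set M₂) (hO₂ : IsOpen O₂) (hΓ₂ : Γ₂ = O₂ ∩ bd Z₂) (hne₂ : Γ₂.Nonempty) (ψ : M₂ → M₁)
    (hψ : Iden 1 Z₁ Z₂ Γ₁ Γ₂ ψ) (P : B.Pair Z₁ 1) (Q : B.Pair Z₂ 1)
    (hP : ∀ x i, P.A x i = 0) (hQ : ∀ x i, Q.A x i = 0)
    (hdata : SameData₂ Γ₁ Γ₂ ψ P Q) : UniqueRel₂ Γ₁ Γ₂ ψ P Q := by
  subst hZ₁ hZ₂
  refine R2.H455.S3.fin_two hn le_rfl _ rfl _ rfl Γ₁ O₁ hO₁ hΓ₁ Γ₂ O₂ hO₂ hΓ₂ hne₂ ψ hψ P Q hdata
    fun P' Q' h1 h2 χ hOk hS => ?_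
  rw [heq_eq_eq] at h1 h2
  subst h1 h2
  let _ : MeasurableSpace M₁ := borel M₁
  have _ : BorelSpace M₁ := ⟨rfl⟩
  let _ : MeasurableSpace M₂ := borel M₂
  have _ : BorelSpace M₂ := ⟨rfl⟩
  exact locS hC hT (one P) (one Q) ⟨Γ₁, Γ₂, ψ, χ⟩ hn (a0_one P hP) (a0_one Q hQ) hOk hS

/-- One manifold: the conclusion of Q1. -/
theorem cal_one (hC : HY.T3.RowCORE3) (hT : RowST3I.{u}) {n : ℕ} [NeZero n] (hn : 3 ≤ n)
    {M : Type u}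
    [TopologicalSpace M] [ChartedSpace (EuclideanHalfSpace n) M] [IsManifold (𝓡∂ n) ∞ M]
    [T2Space M] [CompactSpace M] [ConnectedSpace M]
    (Γ O : Set M) (hO : IsOpen O) (hΓ : Γ = O ∩ bd (at_ n M)) (hne : Γ.Nonempty)
    (P Q : B.Pair (at_ n M) 1) (hP : ∀ x i, P.A x i = 0) (hQ : ∀ x i, Q.A x i = 0)
    (hd : B.SameData Γ P Q) : Related Γ P Q :=
  related_of_uniqueRel (cal_two hC hT hn _ rfl _ rfl Γ O hO hΓ Γ O hO hΓ hne id (iden_id Γ) P Q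
    hP hQ (sameData_id hd))

end Vale.Agent.P088.R2.H850
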