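import Vale.Agent.P088.R2.H850.Fin3
import Vale.Agent.P088.R2.H338.T.K

/-!
# P088, stage 3: everything from the local theorem
-/

set_option linter.all false

open Bundle Manifold MeasureTheory Set Filter Topology
open scoped ContDiff

noncomputable section

namespace Vale.Agent.P088.R2.H850.C3

open Vale.Agent.P088 Vale.Agent.P088.EYM
open Vale.Agent.P088.B Vale.Agent.P088.B2

universe u

/-- Two manifolds, real scalars: the metric from the data. -/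
theorem cal_two (hC : HY.T3.RowCORE3) {n : ℕ} [NeZero n] (hn : 3 ≤ n)
    {M₁ M₂ : Type u}
    [TopologicalSpace M₁] [ChartedSpace (EuclideanHalfSpace n) M₁] [IsManifold (𝓡∂ n) ∞ M₁]
    [T2Space M₁] [CompactSpace M₁] [ConnectedSpace M₁]
    [TopologicalSpace M₂] [ChartedSpace (EuclideanHalfSpace n) M₂] [IsManifold (𝓡∂ n) ∞ M₂]
    [T2Space M₂] [CompactSpace M₂] [ConnectedSpace M₂]
    (Z₁ : At n M₁) (hZ₁ : Z₁ = at_ n M₁) (Z₂ : At n M₂) (hZ₂ : Z₂ = at_ n M₂)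
    (Γ₁ O₁ : Set M₁) (hO₁ : IsOpen O₁) (hΓ₁ : Γ₁ = O₁ ∩ bd Z₁)
    (Γ₂ O₂ : Set M₂) (hO₂ : IsOpen O₂) (hΓ₂ : Γ₂ = O₂ ∩ bd Z₂) (hne₂ : Γ₂.Nonempty) (ψ : M₂ → M₁)
    (hψ : Iden 1 Z₁ Z₂ Γ₁ Γ₂ ψ) (P : B.Pair Z₁ 1) (Q : B.Pair Z₂ 1)
    (hP : ∀ x i, P.A x i = 0) (hQ : ∀ x i, Q.A x i = 0)
    (hdata : SameData₂ Γ₁ Γ₂ ψ P Q) : UniqueRel₂ Γ₁ Γ₂ ψ P Q :=
  R2.H850.cal_two hC H338.T3.rowST3I hn Z₁ hZ₁ Z₂ hZ₂ Γ₁ O₁ hO₁ hΓ₁ Γ₂ O₂ hO₂ hΓ₂ hne₂ ψ hψ P Q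
    hP hQ hdata

/-- One manifold, real scalars: the conclusion of Q1 for `N = 1`, `A = B = 0`. -/
theorem cal_one (hC : HY.T3.RowCORE3) {n : ℕ} [NeZero n] (hn : 3 ≤ n) {M : Type u}
    [TopologicalSpace M] [ChartedSpace (EuclideanHalfSpace n) M] [IsManifold (𝓡∂ n) ∞ M]
    [T2Space M] [CompactSpace M] [ConnectedSpace M]
    (Γ O : Set M) (hO : IsOpen O) (hΓ : Γ = O ∩ bd (at_ n M)) (hne : Γ.Nonempty)
    (P Q : B.Pair (at_ n M) 1) (hP : ∀ x i, P.A x i = 0) (hQ : ∀ x i, Q.A x i = 0)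
    (hd : B.SameData Γ P Q) : Related Γ P Q :=
  R2.H850.cal_one hC H338.T3.rowST3I hn Γ O hO hΓ hne P Q hP hQ hd

end Vale.Agent.P088.R2.H850.C3
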