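import Vale.Agent.P088.R2.H31.GSpec
import Vale.Agent.P088.R2.H850.Iso

/-!
# P088, THEOREM S: flat coordinates, change of centre and rotation
-/

set_option linter.all false

open Bundle Manifold MeasureTheory Set Filter Topology Metric
open scoped ContDiff Matrix

noncomputable section

namespace Vale.Agent.P088.R2.H850

open Vale.Agent.P088 Vale.Agent.P088.EYM Vale.Agent.P088.EYM.O Vale.Agent.P088.R2.G31

universe u

variable {n N : ℕ} [NeZero n] {M : Type u} [TopologicalSpace M]
  [ChartedSpace (EuclideanHalfSpace n) M] [IsManifold (𝓡∂ n) ∞ M] [MeasurableSpace M]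

/-- Flat coordinates near another point, after a rotation. -/
theorem flat_move {P : One n N M} {p : M} {D : Set (E n)} {X Y : E n → E n} {om : E n → ℝ}
    {R : ℝ} (h : FlatIn P p D X Y om R) (x₀ : E n) (R' : ℝ) (hR : ball x₀ R' ⊆ ball 0 R)
    (T : E n ≃ₗᵢ[ℝ] E n) :
    FlatIn P p (D ∩ X ⁻¹' ball x₀ R') (fun x => T (X x - x₀)) (fun y => Y (T.symm y + x₀))
      (fun y => om (T.symm y + x₀)) R' := by
  have hmap : ∀ y ∈ ball (0 : E n) R', T.symm y + x₀ ∈ ball x₀ R' := by
    intro y hy
    rw [mem_ball, dist_eq_norm, add_sub_cancel_right, T.symm.norm_map]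
    rwa [mem_ball, dist_zero_right] at hy
  have hφ : ContDiff ℝ ∞ (fun y : E n => T.symm y + x₀) :=
    T.symm.toContinuousLinearEquiv.contDiff.add contDiff_const
  refine ⟨?_, inter_subset_left.trans h.sub, ?_, ?_, ?_, ?_, ?_, ?_, ?_, ?_, ?_, ?_⟩
  · exact h.smX.continuousOn.isOpen_inter_preimage h.isOpen isOpen_ball
  · rintro x ⟨hx, hx2⟩
    rw [mem_ball, dist_zero_right, T.norm_map, ← dist_eq_norm]
    exact hx2
  · intro y hy
    have h1 := hmap y hy
    exact ⟨h.mapsY (hR h1), by rw [mem_preimage, h.inv2 _ (hR h1)]; exact h1⟩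
  · rintro x ⟨hx, hx2⟩
    simp only [LinearIsometryEquiv.symm_apply_apply, sub_add_cancel]
    exact h.inv1 x hx
  · intro y hy
    show T (X (Y (T.symm y + x₀)) - x₀) = y
    rw [h.inv2 _ (hR (hmap y hy)), add_sub_cancel_right, T.apply_symm_apply]
  · exact T.toContinuousLinearEquiv.contDiff.comp_contDiffOn
      ((h.smX.mono inter_subset_left).sub contDiffOn_const)
  · exact h.smY.comp hφ.contDiffOn fun y hy => hR (hmap y hy)
  · exact h.smom.comp hφ.contDiffOn fun y hy => hR (hmap y hy)
  · exact fun y hy => h.posom _ (hR (hmap y hy))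
  · intro y hy
    have h1 := hR (hmap y hy)
    have h2 : ContDiffAt ℝ 2 om (T.symm y + x₀) :=
      (h.smom.contDiffAt (isOpen_ball.mem_nhds h1)).of_le (by norm_cast)
    rw [lap_iso T.symm x₀ h2]
    exact h.harm _ h1
  · intro y hy v w
    have h1 := hR (hmap y hy)
    have h2 : HasFDerivAt (fun y => Y (T.symm y + x₀))
        ((fderiv ℝ Y (T.symm y + x₀)).comp (T.symm.toContinuousLinearEquiv : E n →L[ℝ] E n)) y := by
      have h3 : HasFDerivAt Y (fderiv ℝ Y (T.symm y + x₀)) (T.symm y + x₀) :=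
        ((h.smY.contDiffAt (isOpen_ball.mem_nhds h1)).differentiableAt (by norm_num)).hasFDerivAt
      exact h3.comp y (T.symm.toContinuousLinearEquiv.hasFDerivAt.add_const x₀)
    rw [h2.fderiv]
    have h4 := h.met _ h1 (T.symm v) (T.symm w)
    rw [T.symm.inner_map_map] at h4
    exact h4

end Vale.Agent.P088.R2.H850
end
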