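import Vale.Agent.P088.R2.H850.K1
import Vale.Agent.P088.R2.H850.K2
import Vale.Agent.P088.R2.H710.Glob
import Vale.Agent.P088.TM.Q.H275N

/-!
# P088, stage 3: from equal boundary models to a match near a point of the patch
-/

set_option linter.all false

open Bundle Manifold MeasureTheory Set Filter Topology
open scoped ContDiff

noncomputable section

namespace Vale.Agent.P088.R2.H850

open Vale.Agent.P088 Vale.Agent.P088.EYM Vale.Agent.P088.TM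
open Vale.Agent.P088.R2.H509.S3

universe u

/-- The local representation of the connection `0`. -/
theorem loc_B0 {n N : ℕ} [NeZero n] {M : Type u} [TopologicalSpace M]
    [ChartedSpace (EuclideanHalfSpace n) M] [IsManifold (𝓡∂ n) ∞ M] [MeasurableSpace M]
    {P : One n N M} (hA : A0 P.A) (q : M) (y : E n) (j : Fin n) : (P.loc q).B j y = 0 :=
  hA _ _

/-- Pulling back the connection `0` by a change of coordinates. -/
theorem pull_B0 {n N : ℕ} [NeZero n] {L L' : LD n N} {D D' : Set (E n)} {X Y : E n → E n}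
    (hD : RelOpen D) (hD' : RelOpen D') (h : IsPull L L' D D' X Y (fun _ => 1))
    (hB : ∀ x ∈ D, ∀ j, L.B j x = 0) : ∀ y ∈ D', ∀ j, L'.B j y = 0 := by
  intro y hy j
  have h1 := bSymm n N L L' D D' X Y (fun _ => 1) hD hD' h
  have h2 := h1.B_eq y hy j
  have h3 : pd j (fun y : E n => Ring.inverse ((fun _ : E n => (1 : EndF N)) (Y y))) y = 0 :=
    pd_const _ _ _
  have h4 : ∑ k, Jac Y y k j • L.B k (Y y) = 0 :=
    Finset.sum_eq_zero fun k _ => by rw [hB _ (h.diffeo.mapsY hy) k, smul_zero]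
  rw [h3, h4, mul_zero, zero_add] at h2
  have h5 : Ring.inverse ((fun _ : E n => (1 : EndF N)) (Y y)) = 1 := Ring.inverse_one _
  rw [h5, mul_one] at h2
  exact h2

variable {n N : ℕ} [NeZero n] {M₁ M₂ : Type u}
  [TopologicalSpace M₁] [ChartedSpace (EuclideanHalfSpace n) M₁] [IsManifold (𝓡∂ n) ∞ M₁]
  [TopologicalSpace M₂] [ChartedSpace (EuclideanHalfSpace n) M₂] [IsManifold (𝓡∂ n) ∞ M₂]
  [MeasurableSpace M₁] [MeasurableSpace M₂]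
  {P : One n N M₁} {Q : One n N M₂} {G : Gl M₁ M₂}
  [T2Space M₁] [CompactSpace M₁] [ConnectedSpace M₁] [BorelSpace M₁]
  [T2Space M₂] [CompactSpace M₂] [ConnectedSpace M₂] [BorelSpace M₂]

/-- The local match near a point of the patch, from equal boundary models. -/
theorem near_match {q₁ : M₁} {q₂ : M₂} {D D₀ : Set (E n)} {θ τ : E n → E n} {L₂ : LD n N}
    (hP : PC P Q G (xc n q₁).symm (fun y => (xc n q₂).symm (τ y)) (P.loc q₁) L₂ D₀)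
    (hD₀ : D₀ ⊆ tg n q₁) (hDr : RelOpen D) (hD : D ⊆ tg n q₂)
    (hpull : IsPull (Q.loc q₂) L₂ D D₀ θ τ (fun _ => 1))
    (hG : G.Ok n N) (hS : SameD P Q G) (hN : 0 < N)
    {z : E n} {r₀ r : ℝ} {j0 : Fin N} {s₁ : Fin N → M₁ → Fib N} {s₂ : Fin N → M₂ → Fib N}
    {t₁ : Fin n → M₁ → Fib N} {t₂ : Fin n → M₂ → Fib N}
    {W₁ W₂ : Model n N} {X₁ Y₁ X₂ Y₂ : E n → E n} {S₁ S₂ : E n → EndF N}
    {D₁ D₂ D₁' D₂' : Set (E n)}
    (b1 : BdM (xc n q₁).symm (P.loc q₁) D₀ z r₀ j0 W₁ D₁ X₁ Y₁ S₁ s₁ t₁)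
    (b2 : BdM (fun y => (xc n q₂).symm (τ y)) L₂ D₀ z r₀ j0 W₂ D₂ X₂ Y₂ S₂ s₂ t₂)
    (c1 : BdM (xc n q₁).symm (P.loc q₁) D₀ z r j0 W₁ D₁' X₁ Y₁ S₁ s₁ t₁)
    (c2 : BdM (fun y => (xc n q₂).symm (τ y)) L₂ D₀ z r j0 W₂ D₂' X₂ Y₂ S₂ s₂ t₂)
    (hrr : r < r₀) (hEq : EqOnM W₁ W₂ (HB z r)) :
    ∃ (O : Set M₂) (φ : M₂ → M₁) (V : M₂ → EndF N),
      LMatch P Q G O φ V ∧ ∀ᶠ m in 𝓝 ((xc n q₂).symm (τ z)), m ∈ Mi n M₂ → m ∈ O := by
  have hr : 0 < r := c1.rpos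
  obtain ⟨-, hdat⟩ := pcERel hP hG hS b1 b2 r hr hrr
  have hR := CNear_relHB z r
  -- solutions in model coordinates
  have hsolEq : ∀ u ∈ PP P Q G, ∀ x ∈ HB z r,
      Ring.inverse (S₁ (Y₁ x)) (u.1 ((xc n q₁).symm (Y₁ x))) =
        Ring.inverse (S₂ (Y₂ x)) (u.2 ((xc n q₂).symm (τ (Y₂ x)))) := by
    intro u hu x hx
    obtain ⟨f, f', hf, hf1, hf2⟩ := id hu
    have k1 := (pcSide hP.b1 c1 hf1).2.2
    have k2 := (pcSide hP.b2 c2 hf2).2.2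
    have k3 : Sol W₁.toLD (HB z r)
        (fun y => Ring.inverse (S₁ (Y₁ y)) (u.1 ((xc n q₁).symm (Y₁ y))) -
          Ring.inverse (S₂ (Y₂ y)) (u.2 ((xc n q₂).symm (τ (Y₂ y))))) := by
      refine ⟨k1.1.sub k2.1, fun y hy => ?_⟩
      rw [CNear_Lop_sub hR c1.model.ok k1.1 k2.1 hy, k1.2 y hy,
        CNear_Lop_data hR hEq.g hEq.B _ hy, k2.2 y hy, sub_zero]
    have k4 := fLinBd n N W₁.toLD z r hr b1.z0 c1.model.ok _ k3 (fun y hy hy0 => by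
      obtain ⟨e1, e2⟩ := hdat u hu y hy hy0
      refine ⟨sub_eq_zero.2 e1, ?_⟩
      rw [CNear_flux_sub hR W₁.toLD k1.1 k2.1 0 hy, e2, CNear_flux_data hEq.g hEq.B _ 0 hy,
        sub_self]) x hx
    exact sub_eq_zero.1 k4
  have hz : z ∈ HB z r := ⟨Metric.mem_ball_self hr, by show 0 ≤ z 0; rw [b1.z0]⟩
  have hz2 : z ∈ D₂' := (c2.bd z hz b1.z0).1
  have hd := hpull.diffeo
  have hs2 : D₂' ⊆ D₀ := c2.sub
  have hp2 := c2.pull
  have hrel : RelOpen (D ∩ θ ⁻¹' D₂') :=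
    relOpen_preimage hDr hd.smX.continuousOn hd.mapsX hP.b1.rel c2.rel
  have hpr := pull_restrict hpull hs2
  have hcomp := bComp n N (Q.loc q₂) L₂ W₂.toLD (D ∩ θ ⁻¹' D₂') D₂' (HB z r) θ τ X₂ Y₂
    (fun _ => 1) S₂ hrel c2.rel (cERel_relOpen_HB z r) hpr hp2
  obtain ⟨O, φ, V, hO, hO'⟩ := fMatch n N M₁ M₂ P Q G q₁ q₂ z r W₁.toLD W₂.toLD D₁'
    (D ∩ θ ⁻¹' D₂') X₁ Y₁
    (X₂ ∘ θ) (τ ∘ Y₂) S₁ (fun x => 1 * S₂ (θ x)) c1.rel hrel (c1.sub.trans hD₀)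
    (inter_subset_left.trans hD) c1.pull hcomp hEq.g hEq.B hEq.h (fun u hu x hx => by
      have h1 := hsolEq u hu x hx
      have hY : Y₂ x ∈ D₂' := hp2.diffeo.mapsY hx
      show Ring.inverse (S₁ (Y₁ x)) (u.1 ((xc n q₁).symm (Y₁ x))) =
        Ring.inverse (1 * S₂ (θ (τ (Y₂ x)))) (u.2 ((xc n q₂).symm (τ (Y₂ x))))
      rw [hd.inv2 _ (hs2 hY), one_mul]
      exact h1)
  refine ⟨O, φ, V, hO, ?_⟩
  -- a neighbourhood of the point
  have himg : IsOpen ((fun y => (xc n q₂).symm (τ y)) '' D₂') := hP.b2.op D₂' hs2 c2.rel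
  filter_upwards [himg.mem_nhds (mem_image_of_mem _ hz2)] with m hm hmi
  obtain ⟨y, hy, rfl⟩ := hm
  have hyD : τ y ∈ D := hd.mapsY (hs2 hy)
  refine hO' (τ y) ⟨hyD, ?_⟩ ?_
  · show θ (τ y) ∈ D₂'
    rw [hd.inv2 _ (hs2 hy)]
    exact hy
  · -- the point is interior
    obtain ⟨h1, -, h3, -⟩ := fLoc n N M₂
    have h4 := cUnm_pos h1 h3 ((xc n q₂).map_target (hD hyD)) hmi
    rw [(xc n q₂).right_inv (hD hyD)] at h4
    exact h4

/-- A local match near a point of the patch gives the start. -/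
theorem start_of_match (hn : 3 ≤ n) (hN : 0 < N) (hG : G.Ok n N) (hS : SameD P Q G)
    {p : M₂} (hp : p ∈ G.Γ₂) {O : Set M₂} {φ : M₂ → M₁} {V : M₂ → EndF N}
    (hO : LMatch P Q G O φ V) (hev : ∀ᶠ m in 𝓝 p, m ∈ Mi n M₂ → m ∈ O) :
    H710.Start P Q G := by
  obtain ⟨W, hW1, hW2, hW3⟩ := mem_nhds_iff.1 hev
  obtain ⟨F, H, hFH⟩ := H710.exists_wmatch hn hN hG hS hW2
    (fun x hx => ⟨O, φ, V, hO, hW1 hx.1 hx.2⟩)
  exact ⟨W, F, H, hW2, ⟨p, hW3, hp⟩, hFH⟩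

end Vale.Agent.P088.R2.H850
end
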