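import Vale.Agent.P088.R2.H850.K0
import Vale.Agent.P088.R2.H935.S.Conv

/-!
# P088, stage 3, boundary: extension by zero of a function with vanishing Cauchy data, and the
weak equation of the difference of two solutions
-/

set_option linter.all false

open MeasureTheory Set Metric Filter
open scoped ContDiff Topology

noncomputable section

namespace Vale.Agent.P088.R2.H850

open Vale.Agent.P088.EYM
open Vale.Agent.P088.R2.H935.Cv (pe)

variable {n : ℕ} [NeZero n]

/-- the derivative of the extension by zero -/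
theorem ez_has {W : Type} [NormedAddCommGroup W] [NormedSpace ℝ W] {O : Set (EYM.E n)}
    (hO : IsOpen O) {u : EYM.E n → W} (hu : ContDiffOn ℝ ∞ u (O ∩ Hs n))
    (hv : Van (O ∩ Hs n) 2 u) {x : EYM.E n} (hx : x ∈ O) :
    HasFDerivAt (ez u) (∑ j, (pj j).smulRight (ez (EYM.pd j u) x)) x := by
  have hR : RelOpen (O ∩ Hs n) := ⟨O, hO, rfl⟩
  have hneg : IsOpen {x : EYM.E n | x 0 < 0} :=
    isOpen_lt (EuclideanSpace.proj (𝕜 := ℝ) (0 : Fin n)).continuous continuous_const
  have hpos : IsOpen {x : EYM.E n | 0 < x 0} :=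
    isOpen_lt continuous_const (EuclideanSpace.proj (𝕜 := ℝ) (0 : Fin n)).continuous
  rcases lt_trichotomy (x 0) 0 with h | h | h
  · have e1 : ez u =ᶠ[𝓝 x] fun _ => 0 := by
      filter_upwards [hneg.mem_nhds h] with y hy using ez_neg u hy
    have e2 : ∑ j, (pj j).smulRight (ez (EYM.pd j u) x) = (0 : EYM.E n →L[ℝ] W) := by
      refine Finset.sum_eq_zero fun j _ => ?_
      rw [ez_neg _ h]
      ext; simp
    rw [e2]
    exact (hasFDerivAt_const (0 : W) x).congr_of_eventuallyEq e1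
  · have hxH : x ∈ O ∩ Hs n := ⟨hx, by show 0 ≤ x 0; rw [h]⟩
    have e0 : ∀ j, EYM.pd j u x = 0 := fun j =>
      van_one.1 (Van.pd_any hR hu hv j) x hxH h
    have e2 : ∑ j, (pj j).smulRight (ez (EYM.pd j u) x) = (0 : EYM.E n →L[ℝ] W) := by
      refine Finset.sum_eq_zero fun j _ => ?_
      rw [ez_pos _ h.ge, e0]
      ext; simp
    rw [e2]
    have e3 : u x = 0 := van_one.1 (hv.mono one_le_two) x hxH h
    have e4 : HasFDerivWithinAt u (0 : EYM.E n →L[ℝ] W) (Hs n) x := by
      have h1 := hR.hasD hxH hu (by simp)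
      have h2 : fderivWithin ℝ u (Hs n) x = 0 := by
        ext v
        rw [fderivWithin_eq_sum]
        simp [e0]
      rwa [h2] at h1
    have e5 : HasFDerivWithinAt (ez u) (0 : EYM.E n →L[ℝ] W) (Hs n) x :=
      e4.congr (fun y hy => ez_pos u hy) (ez_pos u h.ge)
    have e6 : HasFDerivWithinAt (ez u) (0 : EYM.E n →L[ℝ] W) {y | y 0 < 0} x :=
      (hasFDerivWithinAt_const (0 : W) x {y : EYM.E n | y 0 < 0}).congr
        (fun y hy => ez_neg u hy) (by rw [ez_pos u h.ge, e3])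
    have e7 := e5.union e6
    have e8 : Hs n ∪ {y : EYM.E n | y 0 < 0} = univ := by
      ext y
      simp only [mem_union, mem_univ, iff_true]
      exact le_or_gt 0 (y 0)
    rw [e8, hasFDerivWithinAt_univ] at e7
    exact e7
  · have hxH : x ∈ O ∩ Hs n := ⟨hx, h.le⟩
    have h1 := hR.hasD hxH hu (by simp)
    have h2 : Hs n ∈ 𝓝 x := mem_of_superset (hpos.mem_nhds h) fun y hy =>
      le_of_lt (show (0 : ℝ) < y 0 from hy)
    have h3 := h1.hasFDerivAt h2
    have e1 : ez u =ᶠ[𝓝 x] u := by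
      filter_upwards [h2] with y hy using ez_pos u hy
    have e2 : ∑ j, (pj j).smulRight (ez (EYM.pd j u) x) = fderivWithin ℝ u (Hs n) x := by
      ext v
      rw [fderivWithin_eq_sum, sum_apply]
      refine Finset.sum_congr rfl fun j _ => ?_
      rw [ez_pos _ h.le]
      rfl
    rw [e2]
    exact h3.congr_of_eventuallyEq e1

/-- the extension by zero of a continuous function which vanishes on `x_0 = 0` -/
theorem ez_cont {W : Type} [NormedAddCommGroup W] [NormedSpace ℝ W] {O : Set (EYM.E n)}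
    (hO : IsOpen O) {u : EYM.E n → W} (hu : ContinuousOn u (O ∩ Hs n))
    (h0 : ∀ x ∈ O ∩ Hs n, x 0 = 0 → u x = 0) : ContinuousOn (ez u) O := by
  have hneg : IsOpen {x : EYM.E n | x 0 < 0} :=
    isOpen_lt (EuclideanSpace.proj (𝕜 := ℝ) (0 : Fin n)).continuous continuous_const
  intro x hx
  rcases lt_or_ge (x 0) 0 with h | h
  · have e1 : ez u =ᶠ[𝓝 x] fun _ => 0 := by
      filter_upwards [hneg.mem_nhds h] with y hy using ez_neg u hy
    exact (continuousAt_const.congr e1.symm).continuousWithinAt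
  · have hxH : x ∈ O ∩ Hs n := ⟨hx, h⟩
    have c1 : ContinuousWithinAt (ez u) (O ∩ Hs n) x :=
      (hu x hxH).congr (fun y hy => ez_pos u hy.2) (ez_pos u h)
    have c2 : ContinuousWithinAt (ez u) (O ∩ {y | y 0 < 0}) x := by
      rcases h.eq_or_lt with h1 | h1
      · have e3 : u x = 0 := h0 x hxH h1.symm
        exact (continuousWithinAt_const (b := (0 : W))).congr (fun y hy => ez_neg u hy.2)
          (by rw [ez_pos u h, e3])
      · -- not a limit point
        have h2 : x ∉ closure (O ∩ {y : EYM.E n | y 0 < 0}) := by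
          intro h3
          have h4 : closure (O ∩ {y : EYM.E n | y 0 < 0}) ⊆ {y : EYM.E n | y 0 ≤ 0} := by
            refine closure_minimal (fun y hy => le_of_lt (show y 0 < 0 from hy.2)) ?_
            exact isClosed_le (EuclideanSpace.proj (𝕜 := ℝ) (0 : Fin n)).continuous
              continuous_const
          exact absurd (h4 h3) (not_le.2 h1)
        exact continuousWithinAt_of_notMem_closure h2
    have h5 := c1.union c2
    rw [← inter_union_distrib_left] at h5
    have e8 : Hs n ∪ {y : EYM.E n | y 0 < 0} = univ := by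
      ext y
      simp only [mem_union, mem_univ, iff_true]
      exact le_or_gt 0 (y 0)
    rwa [e8, inter_univ] at h5

/-- **Extension by zero of a function with vanishing Cauchy data is `C¹`.** -/
theorem ez_C1 {W : Type} [NormedAddCommGroup W] [NormedSpace ℝ W] {O : Set (EYM.E n)}
    (hO : IsOpen O) {u : EYM.E n → W} (hu : ContDiffOn ℝ ∞ u (O ∩ Hs n))
    (hv : Van (O ∩ Hs n) 2 u) : ContDiffOn ℝ 1 (ez u) O := by
  have hR : RelOpen (O ∩ Hs n) := ⟨O, hO, rfl⟩
  have key : ContDiffOn ℝ ((0 : WithTop ℕ∞) + 1) (ez u) O := by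
    rw [contDiffOn_succ_iff_fderiv_of_isOpen hO]
    refine ⟨fun x hx => (ez_has hO hu hv hx).differentiableAt.differentiableWithinAt,
      fun h => absurd h (by simp), ?_⟩
    rw [contDiffOn_zero]
    have h1 : ContinuousOn
        (fun x => ∑ j, (pj j : EYM.E n →L[ℝ] ℝ).smulRight (ez (EYM.pd j u) x)) O := by
      refine continuousOn_finsetSum _ fun j _ => ?_
      have h2 : ContinuousOn (ez (EYM.pd j u)) O :=
        ez_cont hO (hR.pd_smooth hu j).continuousOn fun x hx hx0 =>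
          van_one.1 (Van.pd_any hR hu hv j) x hx hx0
      exact (ContinuousLinearMap.smulRightL ℝ (EYM.E n) W (pj j)).continuous.comp_continuousOn h2
    exact h1.congr fun x hx => (ez_has hO hu hv hx).fderiv
  simpa using key

theorem pe_ez {O : Set (EYM.E n)} (hO : IsOpen O) {u : EYM.E n → ℝ}
    (hu : ContDiffOn ℝ ∞ u (O ∩ Hs n)) (hv : Van (O ∩ Hs n) 2 u) {x : EYM.E n} (hx : x ∈ O)
    (i : Fin n) : pe i (ez u) x = ez (EYM.pd i u) x := by
  unfold pe
  rw [(ez_has hO hu hv hx).fderiv, sum_apply, Finset.sum_eq_single i]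
  · simp
  · intro b _ hb
    simp [hb]
  · simp

/-- equal values and equal first derivatives: from equal values and equal normal fluxes -/
theorem van_two {D : Set (EYM.E n)} (hD : RelOpen D) {u : EYM.E n → ℝ}
    (hu : ContDiffOn ℝ ∞ u D) (h0 : ∀ x ∈ D, x 0 = 0 → u x = 0)
    (h1 : ∀ x ∈ D, x 0 = 0 → EYM.pd 0 u x = 0) : Van D 2 u :=
  van_succ.2 ⟨h0, van_one.2 h1⟩

/-- the normal derivative from the normal flux -/
theorem pd0_of_flux {D : Set (EYM.E n)} (hD : RelOpen D) {u₁ u₂ : EYM.E n → ℝ}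
    {σ₁ σ₂ : EYM.E n → Matrix (Fin n) (Fin n) ℝ}
    (hu₁ : ContDiffOn ℝ ∞ u₁ D) (hu₂ : ContDiffOn ℝ ∞ u₂ D)
    (h0 : ∀ x ∈ D, x 0 = 0 → u₁ x = u₂ x) (hσ : ∀ x ∈ D, x 0 = 0 → σ₁ x = σ₂ x)
    (hp : ∀ x ∈ D, x 0 = 0 → σ₁ x 0 0 ≠ 0)
    (hf : ∀ x ∈ D, x 0 = 0 → ∑ k, σ₁ x 0 k * EYM.pd k u₁ x = ∑ k, σ₂ x 0 k * EYM.pd k u₂ x) :
    Van D 2 (fun x => u₂ x - u₁ x) := by
  have hz : ∀ x ∈ D, x 0 = 0 → u₂ x - u₁ x = 0 := fun x hx hx0 => by rw [h0 x hx hx0, sub_self]
  refine van_two hD (hu₂.sub hu₁) hz fun x hx hx0 => ?_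
  have ht : ∀ k, k ≠ 0 → EYM.pd k (fun x => u₂ x - u₁ x) x = 0 := fun k hk =>
    dc_pd_tan hD (hu₂.sub hu₁) hz hk x hx hx0
  have hs : ∀ k, EYM.pd k (fun x => u₂ x - u₁ x) x = EYM.pd k u₂ x - EYM.pd k u₁ x := fun k =>
    hD.pd_sub hu₂ hu₁ hx k
  have h1 := hf x hx hx0
  rw [← hσ x hx hx0] at h1
  have h2 : ∑ k, σ₁ x 0 k * EYM.pd k (fun x => u₂ x - u₁ x) x = 0 := by
    simp only [hs, mul_sub, Finset.sum_sub_distrib, h1, sub_self]
  rw [Finset.sum_eq_single 0 (fun k _ hk => by rw [ht k hk, mul_zero]) (by simp)] at h2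
  exact (mul_eq_zero.1 h2).resolve_left (hp x hx hx0)

theorem pd_of_smooth {f : EYM.E n → ℝ} (hf : ContDiff ℝ ∞ f) {x : EYM.E n} (hx : x ∈ Hs n)
    (i : Fin n) : EYM.pd i f x = pe i f x :=
  pd_of_has hx (hf.differentiable (by simp) x).hasFDerivAt.hasFDerivWithinAt i

/-- **The weak equation.** -/
theorem weak_diff {z : EYM.E n} {R : ℝ} {F : Fin n → EYM.E n → ℝ}
    (hF : ∀ k, ContDiffOn ℝ ∞ (F k) (HB z R)) (hdiv : ∀ x ∈ HB z R, ∑ k, EYM.pd k (F k) x = 0)
    (h0 : ∀ x ∈ HB z R, x 0 = 0 → F 0 x = 0) {φ : EYM.E n → ℝ} (hφ : ContDiff ℝ ∞ φ)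
    (hc : HasCompactSupport φ) (hs : tsupport φ ⊆ ball z R) :
    ∫ x in HB z R, ∑ k, F k x * pe k φ x = 0 := by
  have hR := AGreen_rel_HB z R
  -- a smaller ball
  obtain ⟨r', hr', hr's⟩ : ∃ r' < R, tsupport φ ⊆ ball z r' := by
    by_cases hne : (tsupport φ).Nonempty
    · obtain ⟨x₀, hx₀, hmax⟩ := (show IsCompact (tsupport φ) from hc).exists_isMaxOn hne
        (continuous_id.dist continuous_const : Continuous fun x : EYM.E n => dist x z).continuousOn
      have h1 : dist x₀ z < R := hs hx₀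
      refine ⟨(dist x₀ z + R) / 2, by linarith, fun x hx => ?_⟩
      have h3 : dist x z ≤ dist x₀ z := hmax hx
      exact mem_ball.2 (by linarith)
    · exact ⟨R - 1, by linarith, fun x hx => absurd ⟨x, hx⟩ hne⟩
  have hr'φ : ∀ x, x ∉ ball z r' → φ x = 0 := fun x hx =>
    image_eq_zero_of_notMem_tsupport fun h => hx (hr's h)
  have hfar : ∀ k, ∀ x ∈ HB z R, x ∉ ball z r' → F k x * φ x = 0 := fun k x _ hx => by
    rw [hr'φ x hx, mul_zero]
  have hint : ∀ k, ∫ x in HB z R, EYM.pd k (fun y => F k y * φ y) x = 0 := by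
    intro k
    refine AGreen_int hr' (((hF k).mul hφ.contDiffOn).of_le (by norm_cast)) (hfar k) k ?_
    by_cases hk : k = 0
    · refine Or.inr fun x hx hx0 => ?_
      subst hk
      rw [h0 x hx hx0, zero_mul]
    · exact Or.inl hk
  have hpm : ∀ k, ∀ x ∈ HB z R, EYM.pd k (fun y => F k y * φ y) x =
      EYM.pd k (F k) x * φ x + F k x * pe k φ x := by
    intro k x hx
    have h1 := hR.pd_mul (hF k) hφ.contDiffOn hx k
    rw [← pd_of_smooth hφ hx.2 k, add_comm]
    exact h1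
  have hI : ∀ k, IntegrableOn (EYM.pd k (fun y => F k y * φ y)) (HB z R) := by
    intro k
    refine AGreen_integrable hr' ?_ ?_
    · exact (hR.pd_smooth ((hF k).mul hφ.contDiffOn) k).continuousOn
    · intro x hx hx'
      rw [hpm k x hx]
      have hφ0 : φ x = 0 := hr'φ x hx'
      have hpe : pe k φ x = 0 := by
        unfold pe
        have h2 : φ =ᶠ[𝓝 x] fun _ => 0 := by
          filter_upwards [(isClosed_tsupport φ).isOpen_compl.mem_nhds fun h => hx' (hr's h)]
            with y hy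
          exact image_eq_zero_of_notMem_tsupport hy
        rw [h2.fderiv_eq]
        simp
      rw [hφ0, hpe, mul_zero, mul_zero, add_zero]
  have hsum : ∫ x in HB z R, ∑ k, EYM.pd k (fun y => F k y * φ y) x = 0 := by
    rw [integral_finset_sum _ fun k _ => hI k]
    exact Finset.sum_eq_zero fun k _ => hint k
  rw [← hsum]
  refine setIntegral_congr_fun (AGreen_meas_HB z R) fun x hx => ?_
  show ∑ k, F k x * pe k φ x = ∑ k, EYM.pd k (fun y => F k y * φ y) x
  simp only [hpm _ x hx, Finset.sum_add_distrib, ← Finset.sum_mul, hdiv x hx, zero_mul, zero_add]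

end Vale.Agent.P088.R2.H850
end
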