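import Vale.Agent.P088.R2.H850.K1

/-!
# P088, stage 3, boundary: norms of real functions on half balls against the energy of a model
-/

set_option linter.all false

open Bundle Manifold MeasureTheory Set Filter Topology
open scoped ContDiff

noncomputable section

namespace Vale.Agent.P088.R2.H850

open Vale.Agent.P088 Vale.Agent.P088.EYM Vale.Agent.P088.TM
open Vale.Agent.P088.R2.H509.S3

variable {n : ℕ} [NeZero n]

/-- `∑_i (∂_i u)²` -/
def gs (u : E n → ℝ) (x : E n) : ℝ := ∑ i, pd i u x ^ 2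

theorem gs_nonneg (u : E n → ℝ) (x : E n) : 0 ≤ gs u x := Finset.sum_nonneg fun i _ => sq_nonneg _

/-- the energy density of a real function -/
def qd (g : E n → Matrix (Fin n) (Fin n) ℝ) (ρ u : E n → ℝ) (x : E n) : ℝ :=
  ∑ j, ∑ k, gg g j k x * (pd j (fun y => ρ y * u y) x * pd k (fun y => ρ y * u y) x)

/-- continuous functions on a bigger half ball are integrable -/
theorem int_HB {z : E n} {R r : ℝ} (hR : R < r) {f : E n → ℝ} (hf : ContinuousOn f (HB z r)) :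
    IntegrableOn f (HB z R) := by
  have hK : IsCompact (Metric.closedBall z R ∩ Hs n) :=
    (isCompact_closedBall z R).inter_right isClosed_Hs
  have hsub : Metric.closedBall z R ∩ Hs n ⊆ HB z r := fun x hx =>
    ⟨Metric.mem_ball.2 (lt_of_le_of_lt (Metric.mem_closedBall.1 hx.1) hR), hx.2⟩
  exact ((hf.mono hsub).integrableOn_compact hK).mono_set
    (inter_subset_inter_left _ Metric.ball_subset_closedBall)

section

variable {W : Model n 1} {ρ : E n → ℝ} {z : E n} {r R : ℝ}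

theorem gs_cont {D : Set (E n)} (hD : RelOpen D) {u : E n → ℝ} (hu : ContDiffOn ℝ ∞ u D) :
    ContinuousOn (gs u) D :=
  continuousOn_finsetSum _ fun i _ => (hD.pd_smooth hu i).continuousOn.pow 2

theorem qd_cont {D : Set (E n)} (h : RM W ρ D) {u : E n → ℝ} (hu : ContDiffOn ℝ ∞ u D) :
    ContinuousOn (qd W.g ρ u) D := by
  have hF : ContDiffOn ℝ ∞ (fun y => ρ y * u y) D := h.sm.mul hu
  exact continuousOn_finsetSum _ fun j _ => continuousOn_finsetSum _ fun k _ =>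
    (h.ggs j k).continuousOn.mul ((h.rel.pd_smooth hF j).continuousOn.mul
      (h.rel.pd_smooth hF k).continuousOn)

theorem En_cf (h : RM W ρ (HB z r)) (hR : R < r) {u : E n → ℝ}
    (hu : ContDiffOn ℝ ∞ u (HB z r)) :
    En W.toLD (HB z R) (cf u) (cf u) = ((∫ x in HB z R, qd W.g ρ u x : ℝ) : ℂ) := by
  have h1 : ∫ x in HB z R, ((qd W.g ρ u x : ℝ) : ℂ) = ((∫ x in HB z R, qd W.g ρ u x : ℝ) : ℂ) :=
    integral_ofReal
  rw [← h1]
  unfold En
  refine setIntegral_congr_fun (AGreen_meas_HB z R) fun x hx => ?_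
  exact h.ed_cf hu hu (inter_subset_inter_left _ (Metric.ball_subset_ball hR.le) hx)

/-- bounds for the coefficients -/
theorem coef_K (h : RM W ρ (HB z r)) (hR : R < r) :
    ∃ l A : ℝ, 0 < l ∧ 0 ≤ A ∧ ∀ x ∈ HB z R,
      (∀ ξ : Fin n → ℝ, l * ∑ j, ξ j ^ 2 ≤ ∑ j, ∑ k, gg W.g j k x * (ξ j * ξ k)) ∧
      (∀ ξ : Fin n → ℝ, ∑ j, ∑ k, gg W.g j k x * (ξ j * ξ k) ≤ A * ∑ j, ξ j ^ 2) ∧
      ρ x ^ 2 ≤ A ∧ 1 ≤ A * ρ x ^ 2 ∧ ∀ j, (pd j ρ x) ^ 2 ≤ A := by
  have hK : IsCompact (Metric.closedBall z R ∩ Hs n) :=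
    (isCompact_closedBall z R).inter_right isClosed_Hs
  have hsub : Metric.closedBall z R ∩ Hs n ⊆ HB z r := fun x hx =>
    ⟨Metric.mem_ball.2 (lt_of_le_of_lt (Metric.mem_closedBall.1 hx.1) hR), hx.2⟩
  have hg := dme_gok (gok_of_ok h.mod.ok)
  obtain ⟨l, hl, hell⟩ := AICacc_ell hK (a := fun j k x => gg W.g j k x)
    (fun j k => (h.ggs j k).continuousOn.mono hsub) (fun x hx => hg.pos x (hsub hx))
  have hb : ∀ f : E n → ℝ, ContinuousOn f (HB z r) → ∃ C : ℝ, ∀ x ∈ HB z R, |f x| ≤ C := by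
    intro f hf
    obtain ⟨C, hC⟩ := hK.exists_bound_of_continuousOn (hf.mono hsub)
    exact ⟨C, fun x hx => hC x ⟨Metric.ball_subset_closedBall hx.1, hx.2⟩⟩
  choose a ha using fun p : Fin n × Fin n => hb _ (h.ggs p.1 p.2).continuousOn
  obtain ⟨C₁, hC₁⟩ := hb (fun x => ρ x ^ 2) (h.sm.continuousOn.pow 2)
  obtain ⟨C₂, hC₂⟩ := hb (fun x => (ρ x ^ 2)⁻¹)
    ((h.sm.continuousOn.pow 2).inv₀ fun x hx => pow_ne_zero 2 (h.pos x hx).ne')
  choose b hb' using fun j : Fin n => hb (fun x => (pd j ρ x) ^ 2)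
    ((h.rel.pd_smooth h.sm j).continuousOn.pow 2)
  set A₁ : ℝ := ∑ p : Fin n × Fin n, |a p| with hA₁
  have hA₁0 : 0 ≤ A₁ := Finset.sum_nonneg fun p _ => abs_nonneg _
  have hB0 : 0 ≤ ∑ j, |b j| := Finset.sum_nonneg fun j _ => abs_nonneg _
  refine ⟨l, n * A₁ + |C₁| + |C₂| + ∑ j, |b j|, hl,
    by positivity, fun x hx => ?_⟩
  have hxr : x ∈ HB z r := inter_subset_inter_left _ (Metric.ball_subset_ball hR.le) hx
  have hxK : x ∈ Metric.closedBall z R ∩ Hs n := ⟨Metric.ball_subset_closedBall hx.1, hx.2⟩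
  have hnA : 0 ≤ n * A₁ := by positivity
  refine ⟨fun ξ => ?_, fun ξ => ?_, ?_, ?_, fun j => ?_⟩
  · refine (hell x hxK ξ).trans (le_of_eq ?_)
    refine Finset.sum_congr rfl fun j _ => Finset.sum_congr rfl fun k _ => ?_
    ring
  · have hs0 : 0 ≤ ∑ j, ξ j ^ 2 := Finset.sum_nonneg fun j _ => sq_nonneg _
    have h1 : ∑ j, ∑ k, gg W.g j k x * (ξ j * ξ k) ≤ ∑ j, ∑ k, A₁ * ((ξ j ^ 2 + ξ k ^ 2) / 2) := by
      refine Finset.sum_le_sum fun j _ => Finset.sum_le_sum fun k _ => ?_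
      have e1 : |gg W.g j k x| ≤ A₁ := by
        refine (ha (j, k) x hx).trans ((le_abs_self _).trans ?_)
        exact Finset.single_le_sum (f := fun p => |a p|) (fun p _ => abs_nonneg _)
          (Finset.mem_univ (j, k))
      have e2 : |ξ j * ξ k| ≤ (ξ j ^ 2 + ξ k ^ 2) / 2 := by
        rw [abs_le]
        constructor <;> nlinarith [sq_nonneg (ξ j - ξ k), sq_nonneg (ξ j + ξ k)]
      calc gg W.g j k x * (ξ j * ξ k) ≤ |gg W.g j k x * (ξ j * ξ k)| := le_abs_self _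
        _ = |gg W.g j k x| * |ξ j * ξ k| := abs_mul _ _
        _ ≤ A₁ * ((ξ j ^ 2 + ξ k ^ 2) / 2) := mul_le_mul e1 e2 (abs_nonneg _) hA₁0
    refine h1.trans ?_
    have h2 : ∑ j, ∑ k, A₁ * ((ξ j ^ 2 + ξ k ^ 2) / 2) = n * A₁ * ∑ j, ξ j ^ 2 := by
      simp only [← Finset.mul_sum, add_div, Finset.sum_add_distrib, ← Finset.sum_div,
        Finset.sum_const, Finset.card_univ, Fintype.card_fin, nsmul_eq_mul]
      ring
    rw [h2]
    refine mul_le_mul_of_nonneg_right ?_ hs0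
    have := abs_nonneg C₁
    have := abs_nonneg C₂
    linarith
  · have h1 := hC₁ x hx
    rw [abs_of_nonneg (sq_nonneg _)] at h1
    have := le_abs_self C₁
    have := abs_nonneg C₂
    linarith
  · have hp : 0 < ρ x ^ 2 := pow_pos (h.pos x hxr) 2
    have h1 := hC₂ x hx
    rw [abs_of_pos (inv_pos.2 hp)] at h1
    have h2 : (ρ x ^ 2)⁻¹ ≤ n * A₁ + |C₁| + |C₂| + ∑ j, |b j| := by
      have := le_abs_self C₂
      have := abs_nonneg C₁
      linarith
    calc (1 : ℝ) = (ρ x ^ 2)⁻¹ * ρ x ^ 2 := (inv_mul_cancel₀ hp.ne').symm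
      _ ≤ _ := mul_le_mul_of_nonneg_right h2 hp.le
  · have h1 := hb' j x hx
    rw [abs_of_nonneg (sq_nonneg _)] at h1
    have h2 : |b j| ≤ ∑ j, |b j| :=
      Finset.single_le_sum (f := fun j => |b j|) (fun p _ => abs_nonneg _) (Finset.mem_univ j)
    have := le_abs_self (b j)
    have := abs_nonneg C₁
    have := abs_nonneg C₂
    linarith

/-- pointwise comparison -/
theorem ptw_K (h : RM W ρ (HB z r)) (hR : R < r) :
    ∃ C : ℝ, 0 < C ∧ ∀ u : E n → ℝ, ContDiffOn ℝ ∞ u (HB z r) → ∀ x ∈ HB z R,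
      0 ≤ qd W.g ρ u x ∧
      gs u x ≤ C * (qd W.g ρ u x + u x ^ 2) ∧ qd W.g ρ u x ≤ C * (gs u x + u x ^ 2) := by
  obtain ⟨l, A, hl, hA, hc⟩ := coef_K h hR
  have hn0 : (0 : ℝ) ≤ n := Nat.cast_nonneg n
  refine ⟨2 * A / l + 2 * A * A * n + 2 * A * A + 2 * A * A * n + 1, by positivity,
    fun u hu x hx => ?_⟩
  have hxr : x ∈ HB z r := inter_subset_inter_left _ (Metric.ball_subset_ball hR.le) hx
  obtain ⟨c1, c2, c3, c4, c5⟩ := hc x hx
  set P : Fin n → ℝ := fun j => pd j (fun y => ρ y * u y) x with hP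
  have hPe : ∀ j, P j = pd j ρ x * u x + ρ x * pd j u x := fun j => pdm h.rel h.sm hu hxr j
  have hq1 : l * ∑ j, P j ^ 2 ≤ qd W.g ρ u x := c1 P
  have hq2 : qd W.g ρ u x ≤ A * ∑ j, P j ^ 2 := c2 P
  have hPs : 0 ≤ ∑ j, P j ^ 2 := Finset.sum_nonneg fun j _ => sq_nonneg _
  have hq0 : 0 ≤ qd W.g ρ u x := le_trans (mul_nonneg hl.le hPs) hq1
  have hu2 : 0 ≤ u x ^ 2 := sq_nonneg _
  have hgs := gs_nonneg u x
  have hsb : ∑ j, (pd j ρ x) ^ 2 ≤ n * A := by
    calc ∑ j, (pd j ρ x) ^ 2 ≤ ∑ j : Fin n, A := Finset.sum_le_sum fun j _ => c5 j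
      _ = n * A := by simp
  refine ⟨hq0, ?_, ?_⟩
  · -- the gradient
    have h1 : ρ x ^ 2 * gs u x ≤ 2 * ∑ j, P j ^ 2 + 2 * (n * A) * u x ^ 2 := by
      have h2 : ∀ j, ρ x ^ 2 * pd j u x ^ 2 ≤ 2 * P j ^ 2 + 2 * (pd j ρ x ^ 2 * u x ^ 2) := by
        intro j
        have h3 : ρ x * pd j u x = P j - pd j ρ x * u x := by rw [hPe]; ring
        have h4 : ρ x ^ 2 * pd j u x ^ 2 = (P j - pd j ρ x * u x) ^ 2 := by
          rw [← h3]; ring
        rw [h4]
        nlinarith [sq_nonneg (P j + pd j ρ x * u x)]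
      calc ρ x ^ 2 * gs u x = ∑ j, ρ x ^ 2 * pd j u x ^ 2 := by
            unfold gs
            rw [Finset.mul_sum]
        _ ≤ ∑ j, (2 * P j ^ 2 + 2 * (pd j ρ x ^ 2 * u x ^ 2)) :=
            Finset.sum_le_sum fun j _ => h2 j
        _ = 2 * ∑ j, P j ^ 2 + 2 * ((∑ j, pd j ρ x ^ 2) * u x ^ 2) := by
            rw [Finset.sum_add_distrib, ← Finset.mul_sum, ← Finset.mul_sum, Finset.sum_mul]
        _ ≤ 2 * ∑ j, P j ^ 2 + 2 * (n * A) * u x ^ 2 := by
            have := mul_le_mul_of_nonneg_right hsb hu2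
            nlinarith
    have h5 : gs u x ≤ A * (ρ x ^ 2 * gs u x) := by
      have := mul_le_mul_of_nonneg_right c4 hgs
      nlinarith
    have h6 : ∑ j, P j ^ 2 ≤ qd W.g ρ u x / l := by
      rw [le_div_iff₀ hl]
      linarith
    have h7 : gs u x ≤ A * (2 * (qd W.g ρ u x / l) + 2 * (n * A) * u x ^ 2) :=
      h5.trans (mul_le_mul_of_nonneg_left (by linarith) hA)
    have h8 : A * (2 * (qd W.g ρ u x / l) + 2 * (n * A) * u x ^ 2) =
        2 * A / l * qd W.g ρ u x + 2 * A * A * n * u x ^ 2 := by ring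
    rw [h8] at h7
    refine h7.trans ?_
    have k1 : 0 ≤ 2 * A / l := by positivity
    have k2 : 0 ≤ 2 * A * A * n := by positivity
    have k3 : 0 ≤ 2 * A * A := by positivity
    nlinarith [mul_nonneg k1 hu2, mul_nonneg k2 hq0, mul_nonneg k3 hq0, mul_nonneg k3 hu2,
      mul_nonneg k2 hu2]
  · have h1 : ∑ j, P j ^ 2 ≤ 2 * (n * A) * u x ^ 2 + 2 * A * gs u x := by
      have h2 : ∀ j, P j ^ 2 ≤ 2 * (pd j ρ x ^ 2 * u x ^ 2) + 2 * (ρ x ^ 2 * pd j u x ^ 2) := by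
        intro j
        rw [hPe]
        nlinarith [sq_nonneg (pd j ρ x * u x - ρ x * pd j u x)]
      calc ∑ j, P j ^ 2 ≤ ∑ j, (2 * (pd j ρ x ^ 2 * u x ^ 2) + 2 * (ρ x ^ 2 * pd j u x ^ 2)) :=
            Finset.sum_le_sum fun j _ => h2 j
        _ = 2 * ((∑ j, pd j ρ x ^ 2) * u x ^ 2) + 2 * (ρ x ^ 2 * gs u x) := by
            simp only [gs, Finset.sum_add_distrib, Finset.mul_sum, Finset.sum_mul]
        _ ≤ _ := by
            have e1 := mul_le_mul_of_nonneg_right hsb hu2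
            have e2 := mul_le_mul_of_nonneg_right c3 hgs
            nlinarith
    have h3 : qd W.g ρ u x ≤ A * (2 * (n * A) * u x ^ 2 + 2 * A * gs u x) :=
      hq2.trans (mul_le_mul_of_nonneg_left h1 hA)
    have h4 : A * (2 * (n * A) * u x ^ 2 + 2 * A * gs u x) =
        2 * A * A * n * u x ^ 2 + 2 * A * A * gs u x := by ring
    rw [h4] at h3
    refine h3.trans ?_
    have k1 : 0 ≤ 2 * A / l := by positivity
    have k2 : 0 ≤ 2 * A * A * n := by positivity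
    have k3 : 0 ≤ 2 * A * A := by positivity
    nlinarith [mul_nonneg k1 hu2, mul_nonneg k1 hgs, mul_nonneg k2 hgs, mul_nonneg k3 hgs,
      mul_nonneg k3 hu2, mul_nonneg k2 hu2]

/-- **Norms against energies**: `‖∇u‖² ≤ C (E(u) + ‖u‖²)`, `E(u) ≤ C (‖∇u‖² + ‖u‖²)`, and
`‖u‖² ≤ C E(u)` if `u = 0` on `x_0 = 0`. -/
theorem norms (h : RM W ρ (HB z r)) (hz : z 0 = 0) (hR0 : 0 < R) (hR : R < r) :
    ∃ C : ℝ, 0 < C ∧ ∀ u : E n → ℝ, ContDiffOn ℝ ∞ u (HB z r) →
      0 ≤ (En W.toLD (HB z R) (cf u) (cf u)).re ∧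
      (∫ x in HB z R, gs u x) ≤
        C * ((En W.toLD (HB z R) (cf u) (cf u)).re + ∫ x in HB z R, u x ^ 2) ∧
      (En W.toLD (HB z R) (cf u) (cf u)).re ≤
        C * ((∫ x in HB z R, gs u x) + ∫ x in HB z R, u x ^ 2) ∧
      ((∀ x ∈ HB z r, x 0 = 0 → u x = 0) →
        (∫ x in HB z R, u x ^ 2) ≤ C * (En W.toLD (HB z R) (cf u) (cf u)).re) := by
  obtain ⟨C, hC, hp⟩ := ptw_K h hR
  obtain ⟨C', hC'⟩ := aHardy n 1 W.toLD z r hz h.mod.ok R hR0 hR
  have hr : 0 < r := hR0.trans hR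
  refine ⟨C + R ^ 2 * |C'|, by positivity, fun u hu => ?_⟩
  have hE : (En W.toLD (HB z R) (cf u) (cf u)).re = ∫ x in HB z R, qd W.g ρ u x := by
    rw [En_cf h hR hu, Complex.ofReal_re]
  have iq : IntegrableOn (qd W.g ρ u) (HB z R) := int_HB hR (qd_cont h hu)
  have ig : IntegrableOn (gs u) (HB z R) := int_HB hR (gs_cont h.rel hu)
  have iu : IntegrableOn (fun x => u x ^ 2) (HB z R) := int_HB hR (hu.continuousOn.pow 2)
  have hm := AGreen_meas_HB z R
  have hE0 : 0 ≤ ∫ x in HB z R, qd W.g ρ u x :=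
    setIntegral_nonneg hm fun x hx => (hp u hu x hx).1
  have hu0 : 0 ≤ ∫ x in HB z R, u x ^ 2 := setIntegral_nonneg hm fun x _ => sq_nonneg _
  have hg0 : 0 ≤ ∫ x in HB z R, gs u x := setIntegral_nonneg hm fun x _ => gs_nonneg u x
  have hCC : 0 ≤ R ^ 2 * |C'| := by positivity
  rw [hE]
  refine ⟨hE0, ?_, ?_, fun h0 => ?_⟩
  · have h1 : (∫ x in HB z R, gs u x) ≤ ∫ x in HB z R, C * (qd W.g ρ u x + u x ^ 2) :=
      setIntegral_mono_on ig ((iq.add iu).const_mul C) hm fun x hx => (hp u hu x hx).2.1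
    rw [integral_const_mul, integral_add iq iu] at h1
    nlinarith [mul_nonneg hCC hE0, mul_nonneg hCC hu0]
  · have h1 : (∫ x in HB z R, qd W.g ρ u x) ≤ ∫ x in HB z R, C * (gs u x + u x ^ 2) :=
      setIntegral_mono_on iq ((ig.add iu).const_mul C) hm fun x hx => (hp u hu x hx).2.2
    rw [integral_const_mul, integral_add ig iu] at h1
    nlinarith [mul_nonneg hCC hg0, mul_nonneg hCC hu0]
  · obtain ⟨i1, h1⟩ := hC' (cf u) (cf_smooth hu) (fun x hx hx0 => by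
      show io (u x) = 0
      rw [h0 x hx hx0, map_zero])
    rw [hE] at h1
    have h2 : (∫ x in HB z R, u x ^ 2) ≤ ∫ x in HB z R, R ^ 2 * (‖cf u x‖ ^ 2 / (x 0) ^ 2) := by
      refine setIntegral_mono_on iu (i1.const_mul _) hm fun x hx => ?_
      have hxr : x ∈ HB z r := inter_subset_inter_left _ (Metric.ball_subset_ball hR.le) hx
      rcases (show (0 : ℝ) ≤ x 0 from hx.2).eq_or_lt with h3 | h3
      · calc u x ^ 2 = 0 := by rw [h0 x hxr h3.symm]; ring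
          _ ≤ R ^ 2 * (‖cf u x‖ ^ 2 / (x 0) ^ 2) := by positivity
      · have h4 : x 0 ≤ R := by
          have h5 : |(x - z) 0| ≤ ‖x - z‖ := by
            have := PiLp.norm_apply_le (x - z) 0
            simpa using this
          have h6 : (x - z) 0 = x 0 := by
            show x 0 - z 0 = x 0
            rw [hz, sub_zero]
          rw [h6, ← dist_eq_norm] at h5
          exact (le_abs_self _).trans (h5.trans (le_of_lt hx.1))
        have h7 : ‖cf u x‖ ^ 2 = u x ^ 2 := by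
          rw [cf_apply, norm_io, sq_abs]
        rw [h7, mul_div_assoc', le_div_iff₀ (pow_pos h3 2), mul_comm]
        exact mul_le_mul_of_nonneg_right (pow_le_pow_left₀ h3.le h4 2) (sq_nonneg _)
    rw [integral_const_mul] at h2
    have h8 : R ^ 2 * ∫ x in HB z R, ‖cf u x‖ ^ 2 / (x 0) ^ 2 ≤
        R ^ 2 * (|C'| * ∫ x in HB z R, qd W.g ρ u x) := by
      refine mul_le_mul_of_nonneg_left (h1.trans ?_) (sq_nonneg R)
      exact mul_le_mul_of_nonneg_right (le_abs_self C') hE0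
    nlinarith [mul_nonneg hC.le hE0]

end

end Vale.Agent.P088.R2.H850
end
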