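import Vale.Agent.P088.TM.H275St
import Vale.Agent.P088.TM.H275N

/-!
# P088, stage 4: normal derivatives of solutions which vanish on a piece of the patch
-/

set_option linter.all false

open Bundle Manifold MeasureTheory Set Filter Topology
open scoped ContDiff Matrix

noncomputable section

namespace Vale.Agent.P088.R2.H850

open Vale.Agent.P088 Vale.Agent.P088.EYM Vale.Agent.P088.TM

universe u

/-! ### Linear algebra -/

section Alg

variable {n N d : ℕ} [NeZero n]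

theorem det_sm {D : Set (E n)} {A : E n → Matrix (Fin d) (Fin d) ℂ}
    (h : ∀ i j, ContDiffOn ℝ ∞ (fun y => A y i j) D) : ContDiffOn ℝ ∞ (fun y => (A y).det) D := by
  simp only [Matrix.det_apply']
  refine ContDiffOn.sum fun σ _ => contDiffOn_const.mul ?_
  exact contDiffOn_prod fun i _ => h _ _

theorem adj_sm {D : Set (E n)} {A : E n → Matrix (Fin d) (Fin d) ℂ}
    (h : ∀ i j, ContDiffOn ℝ ∞ (fun y => A y i j) D) (i j : Fin d) :
    ContDiffOn ℝ ∞ (fun y => (A y).adjugate i j) D := by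
  simp only [Matrix.adjugate_apply]
  refine det_sm fun k l => ?_
  simp only [Matrix.updateRow_apply]
  by_cases hk : k = j
  · simp only [hk, if_true]
    exact contDiffOn_const
  · simp only [hk, if_false]
    exact h k l

/-- the Gram matrix -/
def gram (φ : Fin d → E n → Fib N) (y : E n) : Matrix (Fin d) (Fin d) ℂ :=
  fun i j => inner ℂ (φ i y) (φ j y)

/-- the vector orthogonal to all `φ i y` -/
def orth (φ : Fin d → E n → Fib N) (e : Fib N) (y : E n) : Fib N :=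
  (gram φ y).det • e - ∑ i, ((gram φ y).adjugate *ᵥ fun j => inner ℂ (φ j y) e) i • φ i y

theorem gram_sm {D : Set (E n)} {φ : Fin d → E n → Fib N} (h : ∀ i, ContDiffOn ℝ ∞ (φ i) D)
    (i j : Fin d) : ContDiffOn ℝ ∞ (fun y => gram φ y i j) D := (h i).inner ℂ (h j)

theorem smul_sm {D : Set (E n)} {a : E n → ℂ} {f : E n → Fib N} (ha : ContDiffOn ℝ ∞ a D)
    (hf : ContDiffOn ℝ ∞ f D) : ContDiffOn ℝ ∞ (fun y => a y • f y) D := ha.smul hf

theorem orth_sm {D : Set (E n)} {φ : Fin d → E n → Fib N} (h : ∀ i, ContDiffOn ℝ ∞ (φ i) D)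
    (e : Fib N) : ContDiffOn ℝ ∞ (orth φ e) D := by
  unfold orth
  refine (smul_sm (det_sm (gram_sm h)) contDiffOn_const).sub ?_
  refine ContDiffOn.sum fun i _ => smul_sm ?_ (h i)
  simp only [Matrix.mulVec, dotProduct]
  exact ContDiffOn.sum fun j _ => (adj_sm (gram_sm h) i j).mul ((h j).inner ℂ contDiffOn_const)

theorem orth_perp (φ : Fin d → E n → Fib N) (e : Fib N) (y : E n) (k : Fin d) :
    inner ℂ (φ k y) (orth φ e y) = 0 := by
  unfold orth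
  rw [inner_sub_right, inner_smul_right, inner_sum]
  simp only [inner_smul_right]
  have h1 : ∑ i, ((gram φ y).adjugate *ᵥ fun j => inner ℂ (φ j y) e) i *
      inner ℂ (φ k y) (φ i y) =
      (gram φ y *ᵥ ((gram φ y).adjugate *ᵥ fun j => inner ℂ (φ j y) e)) k := by
    rw [Matrix.mulVec, dotProduct]
    exact Finset.sum_congr rfl fun i _ => mul_comm _ _
  rw [h1, Matrix.mulVec_mulVec, Matrix.mul_adjugate, Matrix.smul_mulVec, Matrix.one_mulVec]
  simp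

theorem gram_det_ne {φ : Fin d → E n → Fib N} {y : E n}
    (h : LinearIndependent ℂ fun i => φ i y) : (gram φ y).det ≠ 0 := by
  intro h0
  obtain ⟨v, hv, hv0⟩ := Matrix.exists_mulVec_eq_zero_iff.2 h0
  have h1 : inner ℂ (∑ i, v i • φ i y) (∑ i, v i • φ i y) = 0 := by
    have h2 : inner ℂ (∑ i, v i • φ i y) (∑ i, v i • φ i y) =
        ∑ k, (starRingEnd ℂ) (v k) * (gram φ y *ᵥ v) k := by
      rw [sum_inner]
      refine Finset.sum_congr rfl fun k _ => ?_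
      rw [inner_smul_left, inner_sum]
      congr 1
      rw [Matrix.mulVec, dotProduct]
      refine Finset.sum_congr rfl fun i _ => ?_
      rw [inner_smul_right, mul_comm]
      rfl
    rw [h2, hv0]
    simp
  rw [inner_self_eq_zero] at h1
  exact hv (funext fun i => Fintype.linearIndependent_iff.1 h v h1 i)

theorem indep_of_gram {φ : Fin d → E n → Fib N} {y : E n} (h : (gram φ y).det ≠ 0) :
    LinearIndependent ℂ fun i => φ i y := by
  rw [Fintype.linearIndependent_iff]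
  intro v hv
  have h1 : gram φ y *ᵥ v = 0 := by
    funext k
    show ∑ i, inner ℂ (φ k y) (φ i y) * v i = 0
    have h2 : ∑ i, inner ℂ (φ k y) (φ i y) * v i = inner ℂ (φ k y) (∑ i, v i • φ i y) := by
      rw [inner_sum]
      exact Finset.sum_congr rfl fun i _ => by rw [inner_smul_right, mul_comm]
    rw [h2, hv, inner_zero_right]
  by_contra hne
  push Not at hne
  obtain ⟨i, hi⟩ := hne
  exact h (Matrix.exists_mulVec_eq_zero_iff.1 ⟨v, fun h0 => hi (by rw [h0]; rfl), h1⟩)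

end Alg

/-! ### Green's formula -/

section Green

variable {n N : ℕ} [NeZero n]

theorem en_zero {L : LD n N} {z : E n} {r r' : ℝ} (hr : r' < r) (hL : L.Ok (HB z r))
    {c d : E n → Fib N} (hc : ContDiffOn ℝ ∞ c (HB z r)) (hd : Sol L (HB z r) d)
    (hc0 : ∀ x ∈ HB z r, x ∉ Metric.ball z r' → c x = 0)
    (h0 : ∀ x ∈ HB z r, x 0 = 0 → inner ℂ (c x) (L.h x (flux L 0 d x)) = 0) :
    En L (HB z r) c d = 0 := by
  have hD := aFlux_relHB z r
  have hYs : ∀ k, ContDiffOn ℝ ∞ (aFlux_Y L d c k) (HB z r) :=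
    fun k => aFlux_Y_smooth hD hL hc hd.1 k
  have hY0 : ∀ k, ∀ x ∈ HB z r, x ∉ Metric.ball z r' → aFlux_Y L d c k x = 0 := by
    intro k x hx hxr
    unfold aFlux_Y
    rw [hc0 x hx hxr, inner_zero_left]
  have h1 : ∀ k, ∫ x in HB z r, pd k (aFlux_Y L d c k) x = 0 := by
    intro k
    refine AGreen_int hr ((hYs k).of_le (by simp)) (hY0 k) k ?_
    by_cases hk : k = 0
    · subst hk
      exact Or.inr fun x hx hx0 => h0 x hx hx0
    · exact Or.inl hk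
  have hint : ∀ k, IntegrableOn (fun x => pd k (aFlux_Y L d c k) x) (HB z r) := by
    intro k
    obtain ⟨r'', hr1, hr2⟩ := exists_between hr
    refine AGreen_integrable hr2 (AGreen_pd_cont hD ((hYs k).of_le (by simp)) k) fun x hx hxr => ?_
    have hmem : x ∈ (Metric.closedBall z r')ᶜ := fun h =>
      hxr (Metric.mem_ball.2 ((Metric.mem_closedBall.1 h).trans_lt hr1))
    have hev : aFlux_Y L d c k =ᶠ[𝓝[Hs n] x] fun _ => (0 : ℂ) := by
      obtain ⟨O, hO, hOe⟩ := id hD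
      have hxO : x ∈ O := by rw [hOe] at hx; exact hx.1
      have h2 : O ∩ (Metric.closedBall z r')ᶜ ∩ Hs n ∈ 𝓝[Hs n] x :=
        Filter.inter_mem (mem_nhdsWithin_of_mem_nhds
          ((hO.inter Metric.isClosed_closedBall.isOpen_compl).mem_nhds ⟨hxO, hmem⟩))
          self_mem_nhdsWithin
      refine Filter.eventuallyEq_of_mem h2 fun y hy => ?_
      refine hY0 k y (by rw [hOe]; exact ⟨hy.1.1, hy.2⟩) fun h => hy.1.2
        (Metric.ball_subset_closedBall h)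
    unfold pd
    rw [hev.fderivWithin_eq (hev.self_of_nhdsWithin (hD.subset hx))]
    simp
  have h2 : En L (HB z r) c d = ∫ x in HB z r, ∑ k, pd k (aFlux_Y L d c k) x := by
    unfold En
    refine setIntegral_congr_fun (dc_meas hD) fun x hx => ?_
    exact (aFlux_div hD hL hc hd hx).symm
  rw [h2, integral_finset_sum _ fun k _ => hint k]
  exact Finset.sum_eq_zero fun k _ => h1 k

end Green

/-! ### The normal derivatives span the fibre -/

section Span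

variable {n N : ℕ} [NeZero n] {M₁ M₂ : Type u}
  [TopologicalSpace M₁] [ChartedSpace (EuclideanHalfSpace n) M₁] [IsManifold (𝓡∂ n) ∞ M₁]
  [TopologicalSpace M₂] [ChartedSpace (EuclideanHalfSpace n) M₂] [IsManifold (𝓡∂ n) ∞ M₂]
  [MeasurableSpace M₁] [MeasurableSpace M₂]
  {P : One n N M₁} {Q : One n N M₂} {G : Gl M₁ M₂} {e₁ : E n → M₁} {e₂ : E n → M₂}
  {L₁ L₂ : LD n N} {D₀ : Set (E n)}

/-- pairs of solutions which vanish on the flat part of `A` -/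
def Zr (P : One n N M₁) (Q : One n N M₂) (G : Gl M₁ M₂) (e₁ : E n → M₁) (e₂ : E n → M₂)
    (A : Set (E n)) : Set ((M₁ → Fib N) × (M₂ → Fib N)) :=
  {u | u ∈ PP P Q G ∧ ∀ y ∈ A, y 0 = 0 → u.1 (e₁ y) = 0 ∧ u.2 (e₂ y) = 0}

/-- the normal derivative -/
def nd (e₁ : E n → M₁) (u : (M₁ → Fib N) × (M₂ → Fib N)) (y : E n) : Fib N :=
  pd 0 (fun y => u.1 (e₁ y)) y

variable [T2Space M₁] [CompactSpace M₁] [ConnectedSpace M₁] [BorelSpace M₁]
  [T2Space M₂] [CompactSpace M₂] [ConnectedSpace M₂] [BorelSpace M₂]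

theorem Zr_lin (hG : G.Ok n N) {A : Set (E n)} (a b : ℂ) {u v : (M₁ → Fib N) × (M₂ → Fib N)}
    (hu : u ∈ Zr P Q G e₁ e₂ A) (hv : v ∈ Zr P Q G e₁ e₂ A) :
    a • u + b • v ∈ Zr P Q G e₁ e₂ A := by
  refine ⟨pp_lin hG a b hu.1 hv.1, fun y hy h0 => ?_⟩
  obtain ⟨h1, h2⟩ := hu.2 y hy h0
  obtain ⟨h3, h4⟩ := hv.2 y hy h0
  constructor
  · show a • u.1 (e₁ y) + b • v.1 (e₁ y) = 0
    rw [h1, h3, smul_zero, smul_zero, add_zero]
  · show a • u.2 (e₂ y) + b • v.2 (e₂ y) = 0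
    rw [h2, h4, smul_zero, smul_zero, add_zero]

theorem pp_sol (hP : PC P Q G e₁ e₂ L₁ L₂ D₀) {u : (M₁ → Fib N) × (M₂ → Fib N)}
    (hu : u ∈ PP P Q G) : Sol L₁ D₀ (fun y => u.1 (e₁ y)) ∧ Sol L₂ D₀ (fun y => u.2 (e₂ y)) := by
  obtain ⟨f, f', -, h1, h2⟩ := hu
  exact ⟨hP.b1.sol f _ h1, hP.b2.sol f' _ h2⟩

theorem nd_lin (hP : PC P Q G e₁ e₂ L₁ L₂ D₀) (a b : ℂ) {u v : (M₁ → Fib N) × (M₂ → Fib N)}
    (hu : u ∈ PP P Q G) (hv : v ∈ PP P Q G) {y : E n} (hy : y ∈ D₀) :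
    nd e₁ (a • u + b • v) y = a • nd e₁ u y + b • nd e₁ v y := by
  have h1 := (pp_sol hP hu).1.1
  have h2 := (pp_sol hP hv).1.1
  have h3 : ContDiffOn ℝ ∞ (fun y => a • u.1 (e₁ y)) D₀ :=
    (((a • ContinuousLinearMap.id ℂ (Fib N)).restrictScalars ℝ).contDiff).comp_contDiffOn h1
  have h4 : ContDiffOn ℝ ∞ (fun y => b • v.1 (e₁ y)) D₀ :=
    (((b • ContinuousLinearMap.id ℂ (Fib N)).restrictScalars ℝ).contDiff).comp_contDiffOn h2
  have h5 : nd e₁ (a • u + b • v) y = pd 0 (fun y => a • u.1 (e₁ y) + b • v.1 (e₁ y)) y := rfl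
  rw [h5, hP.b1.rel.pd_add h3 h4 hy 0, cStart_pd_csmul hP.b1.rel h1 hy,
    cStart_pd_csmul hP.b1.rel h2 hy]
  rfl

theorem nd_sm (hP : PC P Q G e₁ e₂ L₁ L₂ D₀) {u : (M₁ → Fib N) × (M₂ → Fib N)}
    (hu : u ∈ PP P Q G) : ContDiffOn ℝ ∞ (nd e₁ u) D₀ :=
  hP.b1.rel.pd_smooth (pp_sol hP hu).1.1 0

theorem Zr_zero (hG : G.Ok n N) (hS : SameD P Q G) {A : Set (E n)} :
    ∃ u, u ∈ Zr P Q G e₁ e₂ A ∧ u = 0 := by
  have hm : MD n G (0 : M₁ → Fib N) (0 : M₂ → Fib N) := by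
    refine ⟨⟨contMDiff_const, ?_⟩, ⟨contMDiff_const, ?_⟩, fun x hx => rfl⟩
    · simp
    · simp
  obtain ⟨u₁, -, u₂, -, h1, -, h2, -, -⟩ := hS 0 0 0 0 hm hm
  have h3 : ((u₁, u₂) : (M₁ → Fib N) × (M₂ → Fib N)) ∈ PP P Q G := ⟨0, 0, hm, h1, h2⟩
  have h4 := pp_lin hG 0 0 h3 h3
  refine ⟨0, ⟨?_, fun y _ _ => ⟨rfl, rfl⟩⟩, rfl⟩
  have h5 : (0 : ℂ) • ((u₁, u₂) : (M₁ → Fib N) × (M₂ → Fib N)) + (0 : ℂ) • (u₁, u₂) = 0 := by
    rw [zero_smul, add_zero]
  rwa [h5] at h4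

/-- all combinations -/
theorem Zr_comb (hP : PC P Q G e₁ e₂ L₁ L₂ D₀) (hG : G.Ok n N) (hS : SameD P Q G)
    {A : Set (E n)} {d : ℕ} (u : Fin d → (M₁ → Fib N) × (M₂ → Fib N))
    (hu : ∀ i, u i ∈ Zr P Q G e₁ e₂ A) {y : E n} (hy : y ∈ D₀) {v : Fib N}
    (hv : v ∈ Submodule.span ℂ (range fun i => nd e₁ (u i) y)) :
    ∃ w ∈ Zr P Q G e₁ e₂ A, nd e₁ w y = v := by
  induction hv using Submodule.span_induction with
  | mem x h =>
    obtain ⟨i, rfl⟩ := h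
    exact ⟨u i, hu i, rfl⟩
  | zero =>
    obtain ⟨w, hw, hw0⟩ := Zr_zero (e₁ := e₁) (e₂ := e₂) (A := A) hG hS
    have h1 := nd_lin hP 0 0 hw.1 hw.1 hy
    refine ⟨(0 : ℂ) • w + (0 : ℂ) • w, Zr_lin hG 0 0 hw hw, ?_⟩
    rw [h1, zero_smul, add_zero]
  | add x y' _ _ hx hy' =>
    obtain ⟨w, hw, rfl⟩ := hx
    obtain ⟨w', hw', rfl⟩ := hy'
    refine ⟨(1 : ℂ) • w + (1 : ℂ) • w', Zr_lin hG 1 1 hw hw', ?_⟩
    rw [nd_lin hP 1 1 hw.1 hw'.1 hy, one_smul, one_smul]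
  | smul a x _ hx =>
    obtain ⟨w, hw, rfl⟩ := hx
    refine ⟨a • w + (0 : ℂ) • w, Zr_lin hG a 0 hw hw, ?_⟩
    rw [nd_lin hP a 0 hw.1 hw.1 hy, zero_smul, add_zero]

/-- Points of the patch near which solutions vanish, where the normal derivatives fill the
fibre. -/
theorem nd_span (hP : PC P Q G e₁ e₂ L₁ L₂ D₀) (hG : G.Ok n N) (hS : SameD P Q G) (hn : 2 ≤ n)
    {z₀ : E n} (hz₀t : z₀ ∈ D₀) (hz₀0 : z₀ 0 = 0) :
    ∃ (z₁ : E n) (ρ : ℝ), z₁ 0 = 0 ∧ 0 < ρ ∧ HB z₁ ρ ⊆ D₀ ∧ ∃ z ∈ HB z₁ ρ, z 0 = 0 ∧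
      ∀ v : Fib N, ∃ u ∈ Zr P Q G e₁ e₂ (HB z₁ ρ), nd e₁ u z = v := by
  have b1 := hP.b1
  have b2 := hP.b2
  have hbne₁ : ((𝓡∂ n).boundary M₁).Nonempty := bne hG.rel₁ hG.ne₁
  obtain ⟨R, hR, hRt⟩ : ∃ R > 0, HB z₀ R ⊆ D₀ := by
    obtain ⟨O, hO, hOD⟩ := id b1.rel
    have h1 : z₀ ∈ O := by rw [hOD] at hz₀t; exact hz₀t.1
    obtain ⟨R, hR, h2⟩ := Metric.isOpen_iff.1 hO z₀ h1
    refine ⟨R, hR, fun y hy => ?_⟩
    rw [hOD]
    exact ⟨h2 hy.1, hy.2⟩
  obtain ⟨i₁, hi₁⟩ : ∃ i₁ : Fin n, i₁ ≠ 0 := by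
    refine ⟨⟨1, by omega⟩, ?_⟩
    intro h
    have := congrArg Fin.val h
    simp at this
  set z₁ : E n := z₀ + (R / 2) • ev i₁ with hz₁
  have hz₁0 : z₁ 0 = 0 := by
    rw [hz₁]
    simp [hz₀0, hi₁.symm]
  have hdist : dist z₁ z₀ = R / 2 := by
    rw [hz₁, dist_eq_norm, add_sub_cancel_left, norm_smul]
    simp [abs_of_pos hR]
  have hR8 : 0 < R / 8 := by positivity
  have hsub1 : HB z₁ (R / 8) ⊆ HB z₀ R := by
    intro y hy
    refine ⟨?_, hy.2⟩
    have h1 := Metric.mem_ball.1 hy.1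
    have h2 := dist_triangle y z₁ z₀
    rw [Metric.mem_ball]
    linarith only [hR, hdist, h1, h2]
  have hdisj : ∀ y ∈ HB z₁ (R / 8), y ∉ Metric.ball z₀ (R / 8) := by
    intro y hy hy'
    have h1 := Metric.mem_ball.1 hy.1
    have h2 := Metric.mem_ball.1 hy'
    have h3 := dist_triangle z₁ y z₀
    rw [dist_comm z₁ y] at h3
    linarith only [hR, hdist, h1, h2, h3]
  have hsub0 : HB z₀ (R / 8) ⊆ HB z₀ R := fun y hy =>
    ⟨Metric.ball_subset_ball (by linarith only [hR]) hy.1, hy.2⟩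
  have hsubt : HB z₁ (R / 8) ⊆ D₀ := hsub1.trans hRt
  refine ⟨z₁, R / 8, hz₁0, hR8, hsubt, ?_⟩
  by_contra hcon
  push Not at hcon
  set Z := Zr P Q G e₁ e₂ (HB z₁ (R / 8)) with hZ
  -- a maximal independent family
  classical
  set A : ℕ → Prop := fun d => ∃ z ∈ HB z₁ (R / 8), z 0 = 0 ∧
    ∃ u : Fin d → (M₁ → Fib N) × (M₂ → Fib N), (∀ i, u i ∈ Z) ∧
      LinearIndependent ℂ fun i => nd e₁ (u i) z with hA
  have hz₁m : z₁ ∈ HB z₁ (R / 8) :=
    ⟨Metric.mem_ball_self hR8, by show 0 ≤ z₁ 0; rw [hz₁0]⟩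
  have hA0 : A 0 := ⟨z₁, hz₁m, hz₁0, Fin.elim0, fun i => i.elim0, linearIndependent_empty_type⟩
  have hAN : ∀ d, A d → d ≤ N := by
    rintro d ⟨z, -, -, u, -, hu⟩
    have := hu.fintype_card_le_finrank
    simpa using this
  obtain ⟨d, hd, hmax⟩ : ∃ d, A d ∧ ¬ A (d + 1) := by
    by_contra h
    push Not at h
    have : ∀ d, A d := fun d => by
      induction d with
      | zero => exact hA0
      | succ d ih => exact h d ih
    have := hAN (N + 1) (this (N + 1))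
    omega
  obtain ⟨z, hz, hz0, u, hu, hind⟩ := hd
  set φ : Fin d → E n → Fib N := fun i => nd e₁ (u i) with hφ
  have hφs : ∀ i, ContDiffOn ℝ ∞ (φ i) D₀ := fun i => nd_sm hP (hu i).1
  have hzD : z ∈ D₀ := hsubt hz
  obtain ⟨v₀, hv₀⟩ := hcon z hz hz0
  have hspan : Submodule.span ℂ (range fun i => φ i z) ≠ ⊤ := by
    intro h
    have hm : v₀ ∈ Submodule.span ℂ (range fun i => φ i z) := by rw [h]; trivial
    obtain ⟨w, hw, hwv⟩ := Zr_comb hP hG hS u hu hzD hm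
    exact hv₀ w hw hwv
  obtain ⟨e, he, hene⟩ : ∃ e ∈ (Submodule.span ℂ (range fun i => φ i z))ᗮ, e ≠ 0 := by
    have h1 : (Submodule.span ℂ (range fun i => φ i z))ᗮ ≠ ⊥ := fun h =>
      hspan ((Submodule.orthogonal_eq_bot_iff).1 h)
    exact Submodule.exists_mem_ne_zero_of_ne_bot h1
  have heo : ∀ i, inner ℂ (φ i z) e = 0 := fun i =>
    (Submodule.mem_orthogonal _ _).1 he _ (Submodule.subset_span (mem_range_self i))
  have hdz : (gram φ z).det ≠ 0 := gram_det_ne hind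
  have hoz : orth φ e z = (gram φ z).det • e := by
    unfold orth
    have h1 : (fun j => inner ℂ (φ j z) e) = (0 : Fin d → ℂ) := funext heo
    rw [h1, Matrix.mulVec_zero]
    simp
  -- a smaller half ball
  obtain ⟨σ, hσ, hσ1, hσ2⟩ : ∃ σ > 0, HB z σ ⊆ HB z₁ (R / 8) ∧
      ∀ y ∈ HB z σ, (gram φ y).det ≠ 0 := by
    have h1 : ContinuousOn (fun y => (gram φ y).det) D₀ := (det_sm (gram_sm hφs)).continuousOn
    obtain ⟨O, hO, hOD⟩ := id b1.rel
    have h2 : ContinuousWithinAt (fun y => (gram φ y).det) D₀ z := h1 z hzD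
    have h3 : {y | (gram φ y).det ≠ 0} ∈ 𝓝[D₀] z := h2 (isOpen_ne.mem_nhds hdz)
    obtain ⟨O', hO', hzO', hsO'⟩ := mem_nhdsWithin.1 h3
    have hzO : z ∈ O := by rw [hOD] at hzD; exact hzD.1
    obtain ⟨σ, hσ, h4⟩ := Metric.isOpen_iff.1 ((hO'.inter hO).inter Metric.isOpen_ball) z
      ⟨⟨hzO', hzO⟩, hz.1⟩
    refine ⟨σ, hσ, fun y hy => ⟨(h4 hy.1).2, hy.2⟩, fun y hy => ?_⟩
    refine hsO' ⟨(h4 hy.1).1.1, ?_⟩
    rw [hOD]
    exact ⟨(h4 hy.1).1.2, hy.2⟩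
  have hσD : HB z σ ⊆ D₀ := hσ1.trans hsubt
  have hro : RelOpen (HB z σ) := cStart_relOpen_HB z σ
  -- orthogonality at all flat points
  have horth : ∀ w ∈ Z, ∀ y ∈ HB z σ, y 0 = 0 → inner ℂ (nd e₁ w y) (orth φ e y) = 0 := by
    intro w hw y hy hy0
    have hin := indep_of_gram (hσ2 y hy)
    have hmem : nd e₁ w y ∈ Submodule.span ℂ (range fun i => φ i y) := by
      by_contra hno
      refine hmax ⟨y, hσ1 hy, hy0, Fin.cons w u, ?_, ?_⟩
      · intro i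
        refine Fin.cases ?_ (fun j => ?_) i
        · exact hw
        · exact hu j
      · have h1 := linearIndependent_finCons.2 ⟨hin, hno⟩
        have h2 : (fun i => nd e₁ ((Fin.cons w u : Fin (d + 1) → _) i) y) =
            Fin.cons (nd e₁ w y) (fun i => φ i y) := by
          funext i
          refine Fin.cases ?_ (fun j => ?_) i
          · rfl
          · rfl
        rw [h2]
        exact h1
    have hall : ∀ v ∈ Submodule.span ℂ (range fun i => φ i y), inner ℂ v (orth φ e y) = 0 := by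
      intro v hv
      induction hv using Submodule.span_induction with
      | mem x h =>
        obtain ⟨i, rfl⟩ := h
        exact orth_perp φ e y i
      | zero => exact inner_zero_left _
      | add x y' _ _ hx hy' => rw [inner_add_left, hx, hy', add_zero]
      | smul a x _ hx => rw [inner_smul_left, hx, mul_zero]
    exact hall _ hmem
  -- the boundary data
  set χ : ContDiffBump z := ⟨σ / 4, σ / 2, by positivity, by linarith only [hσ]⟩ with hχ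
  set c : E n → Fib N := fun y => χ y • orth φ e y with hc
  have hcs : ContDiffOn ℝ ∞ c (HB z σ) :=
    χ.contDiff.contDiffOn.smul ((orth_sm hφs e).mono hσD)
  set K : Set (E n) := Metric.closedBall z (σ / 2) ∩ Hs n with hK
  have hKc : IsCompact K := (isCompact_closedBall z (σ / 2)).inter_right isClosed_Hs
  have hKD : K ⊆ HB z σ := fun y hy =>
    ⟨Metric.mem_ball.2 ((Metric.mem_closedBall.1 hy.1).trans_lt (by linarith only [hσ])), hy.2⟩
  have hc0 : ∀ y ∈ HB z σ, y ∉ K → c y = 0 := by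
    intro y hy hyK
    have h1 : y ∉ Metric.closedBall z (σ / 2) := fun h' => hyK ⟨h', hy.2⟩
    have h2 : χ y = 0 := by
      refine χ.zero_of_le_dist ?_
      rw [Metric.mem_closedBall, not_le] at h1
      exact h1.le
    show χ y • orth φ e y = 0
    rw [h2, zero_smul]
  obtain ⟨W, W', hm, hWs, hWs', hWc, -, hWz, hWt, -⟩ := hP.lift hG hro hσD hcs hKc hKD hc0
  obtain ⟨v₁, -, v₂, -, hv₁, -, hv₂, -, -⟩ := hS W W W' W' hm hm
  -- the flux of `v₁` near `z₀` vanishes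
  have hro0 : RelOpen (HB z₀ (R / 8)) := cStart_relOpen_HB z₀ (R / 8)
  have hD00 : HB z₀ (R / 8) ⊆ D₀ := hsub0.trans hRt
  obtain ⟨hE1, hE2, hE3, hE4, hE5⟩ := fForm n N M₁ P
  obtain ⟨hU1, hU2, hU3⟩ := fUniq n N M₁ P hbne₁
  have hsolv : Sol L₁ D₀ (fun y => v₁ (e₁ y)) := b1.sol _ _ hv₁
  have hen : ∀ ψ : E n → Fib N, Tst0 (Metric.ball z₀ (R / 8)) ψ →
      En L₁ (HB z₀ (R / 8)) ψ (fun y => v₁ (e₁ y)) = 0 := by
    intro ψ hψ
    obtain ⟨hψ1, hψ2, hψ3⟩ := hψ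
    have hK' : IsCompact (tsupport ψ ∩ Hs n) := IsCompact.inter_right hψ2 isClosed_Hs
    have hKs : tsupport ψ ∩ Hs n ⊆ HB z₀ (R / 8) := fun y hy => ⟨hψ3 hy.1, hy.2⟩
    obtain ⟨F, F', hFF, hF, hF', hFD, -, hFz, hFt, -⟩ := hP.lift hG hro0 hD00
      hψ1.contDiffOn hK' hKs (fun y hy hyK => by
        by_contra hne'
        exact hyK ⟨subset_tsupport _ hne', hy.2⟩)
    obtain ⟨f₁, -, f₂, -, hf₁, -, hf₂, -, -⟩ := hS F F F' F' hFF hFF
    have hfZ : ((f₁, f₂) : (M₁ → Fib N) × (M₂ → Fib N)) ∈ Z := by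
      refine ⟨⟨F, F', hFF, hf₁, hf₂⟩, fun y hy hy0 => ?_⟩
      have hyK : y ∉ tsupport ψ ∩ Hs n := fun h => hdisj y hy (hKs h).1
      obtain ⟨k1, k2⟩ := hFz y (hsubt hy) hyK
      exact ⟨(hf₁.boundary _ ((b1.bd y (hsubt hy)).2 hy0)).trans k1,
        (hf₂.boundary _ ((b2.bd y (hsubt hy)).2 hy0)).trans k2⟩
    have hsolf : Sol L₁ D₀ (fun y => f₁ (e₁ y)) := b1.sol _ _ hf₁
    have s1 : En L₁ (HB z₀ (R / 8)) ψ (fun y => v₁ (e₁ y)) = P.E F v₁ := by
      rw [b1.en (HB z₀ (R / 8)) hro0 hD00 F v₁ hF hv₁.smooth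
        (Or.inl (hFt.trans (image_mono hKs)))]
      exact cStart_En_congr hro0 fun y hy => (hFD y hy).symm
    have s2 : P.E F v₁ = P.E f₁ v₁ :=
      (hU3 _ _ _ _ hv₁ hF hf₁.smooth fun x hx => (hf₁.boundary x hx).symm).2
    have s3 : P.E f₁ v₁ = P.E f₁ W :=
      (hU3 _ _ _ _ hf₁ hv₁.smooth hWs fun x hx => hv₁.boundary x hx).1
    have s4 : P.E f₁ W = (starRingEnd ℂ) (P.E W f₁) := hE3 W f₁ hWs hf₁.smooth
    have s5 : P.E W f₁ = En L₁ (HB z σ) c (fun y => f₁ (e₁ y)) := by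
      rw [b1.en (HB z σ) hro hσD W f₁ hWs hf₁.smooth (Or.inl (hWt.trans (image_mono hKD)))]
      exact cStart_En_congr hro fun y hy => hWc y hy
    have s6 : En L₁ (HB z σ) c (fun y => f₁ (e₁ y)) = 0 := by
      refine en_zero (r' := 3 * σ / 4) (by linarith only [hσ]) (cStart_Ok_mono b1.ok hσD) hcs
        (cStart_Sol_mono hsolf hσD) (fun x hx hxr => hc0 x hx fun h => hxr ?_) fun x hx hx0 => ?_
      · exact Metric.mem_ball.2 ((Metric.mem_closedBall.1 h.1).trans_lt (by linarith only [hσ]))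
      · have hzero : ∀ y ∈ HB z σ, y 0 = 0 → f₁ (e₁ y) = 0 := fun y hy hy0 =>
          (hfZ.2 y (hσ1 hy) hy0).1
        rw [cStart_flux hro (hsolf.1.mono hσD) hzero hx hx0, b1.h1 x (hσD hx), one_apply']
        have h1 := horth _ hfZ x hx hx0
        have h2 : inner ℂ (orth φ e x) (nd e₁ (f₁, f₂) x) = 0 := by
          rw [← inner_conj_symm, h1, map_zero]
        show inner ℂ (χ x • orth φ e x) (gg L₁.g 0 0 x • pd 0 (fun y => f₁ (e₁ y)) x) = 0
        rw [← Complex.coe_smul, ← Complex.coe_smul, inner_smul_left, inner_smul_right]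
        have h3 : inner ℂ (orth φ e x) (pd 0 (fun y => f₁ (e₁ y)) x) = 0 := h2
        rw [h3, mul_zero, mul_zero]
    rw [s1, s2, s3, s4, s5, s6, map_zero]
  -- unique continuation
  have hOk0 : L₁.Ok (HB z₀ (R / 8)) := cStart_Ok_mono b1.ok hD00
  have hnab0 : ∀ (j : Fin n) (x : E n), nab L₁ j (0 : E n → Fib N) x = 0 := by
    intro j x
    unfold nab pd
    have h1 : fderivWithin ℝ (0 : E n → Fib N) (Hs n) x = 0 := by
      rw [show (0 : E n → Fib N) = fun _ => 0 from rfl]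
      simp
    rw [h1]
    simp
  have hflux0 : ∀ j, flux L₁ j (0 : E n → Fib N) = 0 := by
    intro j
    funext x
    unfold flux
    simp only [hnab0, smul_zero, Finset.sum_const_zero]
    rfl
  have hsol0 : Sol L₁ (HB z₀ (R / 8)) (0 : E n → Fib N) := by
    refine ⟨contDiffOn_const, fun x _ => ?_⟩
    unfold Lop
    simp only [hflux0]
    have h1 : ∀ j, pd j (0 : E n → Fib N) x = 0 := by
      intro j
      unfold pd
      rw [show (0 : E n → Fib N) = fun _ => 0 from rfl]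
      simp
    simp [h1]
  have hfl : ∀ x ∈ HB z₀ (R / 8), x 0 = 0 → flux L₁ 0 (fun y => v₁ (e₁ y)) x = 0 := by
    intro x hx hx0
    have h1 := aFlux n N L₁ L₁ z₀ (R / 8) hR8 hz₀0 hOk0 hOk0 (fun _ _ _ => rfl)
      (fun y => v₁ (e₁ y)) 0 (cStart_Sol_mono hsolv hD00) hsol0 (fun ψ hψ => by
        rw [hen ψ hψ]
        unfold En ed
        simp only [hnab0, map_zero, inner_zero_right, mul_zero, Finset.sum_const_zero,
          integral_zero]) x hx hx0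
    rw [h1, hflux0]
    rfl
  have hv0 : ∀ y ∈ HB z₀ (R / 8), y 0 = 0 → v₁ (e₁ y) = 0 := by
    intro y hy hy0
    rw [hv₁.boundary _ ((b1.bd y (hD00 hy)).2 hy0)]
    refine (hWz y (hD00 hy) fun hyK => ?_).1
    exact hdisj y (hσ1 (hKD hyK)) hy.1
  have hz₀m : z₀ ∈ HB z₀ (R / 8) := ⟨Metric.mem_ball_self hR8, by show 0 ≤ z₀ 0; rw [hz₀0]⟩
  have hv1 := fLinBd n N L₁ z₀ (R / 8) hR8 hz₀0 hOk0 (fun y => v₁ (e₁ y))
    (cStart_Sol_mono hsolv hD00) fun x hx hx0 => ⟨hv0 x hx hx0, hfl x hx hx0⟩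
  have hv2 := fUcp n N M₁ P W v₁ hv₁ _ (b1.op _ hD00 hro0) ⟨_, mem_image_of_mem _ hz₀m⟩
    (fun x hx => by
      obtain ⟨y, hy, rfl⟩ := hx
      exact hv1 y hy) (e₁ z)
  have hzσ : z ∈ HB z σ := ⟨Metric.mem_ball_self hσ, hz.2⟩
  have hv3 : v₁ (e₁ z) = c z :=
    (hv₁.boundary _ ((b1.bd z hzD).2 hz0)).trans (hWc z hzσ)
  have hcz : c z = (gram φ z).det • e := by
    show χ z • orth φ e z = _
    rw [χ.one_of_mem_closedBall (Metric.mem_closedBall_self (by positivity)), one_smul, hoz]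
  rw [hv2, hcz] at hv3
  exact (smul_ne_zero hdz hene) hv3.symm

end Span

end Vale.Agent.P088.R2.H850
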