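import Vale.Agent.P088.R2.H850.BdN
import Vale.Agent.P088.R2.H850.K3
import Vale.Agent.P088.R2.H509.S4.N8
import Vale.Agent.P088.R2.H455.S4.Main4

/-!
# P088, stage 4: the start at the patch for pairs
-/

set_option linter.all false

open Bundle Manifold MeasureTheory Set Filter Topology
open scoped ContDiff Matrix

noncomputable section

namespace Vale.Agent.P088.R2.H850

open Vale.Agent.P088 Vale.Agent.P088.EYM Vale.Agent.P088.TM
open Vale.Agent.P088.R2.H509.S3 (BdM pcSide pcERel pcH_eq pcSetup_one em me em_me me_em em_HB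
  em_zero em_ball Gm Eb_open)
open Vale.Agent.P088.LR (V MF)
open Vale.Agent.P088.HY.T3 (Eb)

universe u

section One

variable {n N : ℕ} [NeZero n] {M : Type u} {e : E n → M} {L : LD n N} {D₀ : Set (E n)}

theorem yE_smooth {z : E n} {r : ℝ} {j0 : Fin N} {W : Model n N}
    {D : Set (E n)} {X Y : E n → E n} {S : E n → EndF N} {s : Fin N → M → Fib N}
    {t : Fin n → M → Fib N} (h : BdM e L D₀ z r j0 W D X Y S s t) {τ : Fin N → M → Fib N}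
    (hst : ∀ j, ContDiffOn ℝ ∞ (fun y => τ j (e y)) D₀) :
    ContDiffOn ℝ ∞ (yE e Y S τ) (HB z r) := by
  have hd := h.pull.diffeo
  have sR : ContDiffOn ℝ ∞ (fun x => Ring.inverse (S x)) D :=
    smooth_ringInverse h.pull.smS h.pull.unit
  have sP : ContDiffOn ℝ ∞ (fun x => Ring.inverse (S x) * fr τ (e x)) D :=
    smooth_mul sR ((frS hst).mono h.sub)
  have h1 : ContDiffOn ℝ ∞ (fun y => (fun x => Ring.inverse (S x) * fr τ (e x)) (Y y))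
      (HB z r) := sP.comp hd.smY hd.mapsY
  exact h1

theorem yE_c {z : E n} {r : ℝ} {j0 : Fin N} {W : Model n N}
    {D : Set (E n)} {X Y : E n → E n} {S : E n → EndF N} {s : Fin N → M → Fib N}
    {t : Fin n → Fin N → M → Fib N} (h : BdM e L D₀ z r j0 W D X Y S s (fun a => t a j0))
    {y : E n} (hy : y ∈ HB z r) (a : Fin n) : yE e Y S (t a) y (eN N j0) = W.c a y := by
  have hd := h.pull.diffeo
  have hx := hd.mapsY hy
  show Ring.inverse (S (Y y)) (fr (t a) (e (Y y)) (eN N j0)) = _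
  rw [frE, h.coord _ hx a, hd.inv2 y hy]
  show (Ring.inverse (S (Y y)) * S (Y y)) (W.c a y) = _
  rw [Ring.inverse_mul_cancel _ (h.pull.unit _ hx)]
  rfl

end One

section Two

variable {n N : ℕ} [NeZero n] {M₁ M₂ : Type u}
  [TopologicalSpace M₁] [ChartedSpace (EuclideanHalfSpace n) M₁] [IsManifold (𝓡∂ n) ∞ M₁]
  [TopologicalSpace M₂] [ChartedSpace (EuclideanHalfSpace n) M₂] [IsManifold (𝓡∂ n) ∞ M₂]
  [MeasurableSpace M₁] [MeasurableSpace M₂]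
  {P : One n N M₁} {Q : One n N M₂} {G : Gl M₁ M₂} {e₁ : E n → M₁} {e₂ : E n → M₂}
  {L₁ L₂ : LD n N} {D₀ : Set (E n)}
  [T2Space M₁] [CompactSpace M₁] [ConnectedSpace M₁] [BorelSpace M₁]
  [T2Space M₂] [CompactSpace M₂] [ConnectedSpace M₂] [BorelSpace M₂]

theorem pp_comb (hG : G.Ok n N) (hN : 0 < N) {τ : Fin N → (M₁ → Fib N) × (M₂ → Fib N)}
    (h : ∀ j, τ j ∈ PP P Q G) (v : Fib N) : (∑ j, v j • τ j) ∈ PP P Q G := by
  have key : ∀ F : Finset (Fin N), (∑ j ∈ F, v j • τ j) ∈ PP P Q G := by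
    intro F
    induction F using Finset.induction_on with
    | empty =>
      have := pp_lin hG 0 0 (h ⟨0, hN⟩) (h ⟨0, hN⟩)
      simpa using this
    | insert j F hj ih =>
      rw [Finset.sum_insert hj]
      have := pp_lin hG (v j) 1 (h j) ih
      simpa using this
  exact key Finset.univ

/-- **The hypotheses of `MJ.fields` for the boundary models.** -/
theorem mj_of (hP : PC P Q G e₁ e₂ L₁ L₂ D₀) (hG : G.Ok n N) (hS : SameD P Q G) (hn : 3 ≤ n)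
    (hN : 0 < N) {z : E n} {r₀ ρ : ℝ} {j0 : Fin N}
    {s : Fin N → (M₁ → Fib N) × (M₂ → Fib N)} {t : Fin n → Fin N → (M₁ → Fib N) × (M₂ → Fib N)}
    {W₁ W₂ : Model n N} {X₁ Y₁ X₂ Y₂ : E n → E n} {S₁ S₂ : E n → EndF N} {D₁ D₂ : Set (E n)}
    (hs : ∀ j, s j ∈ PP P Q G) (ht : ∀ a j, t a j ∈ PP P Q G)
    (b1 : BdM e₁ L₁ D₀ z r₀ j0 W₁ D₁ X₁ Y₁ S₁ (fun j => (s j).1) (fun a => (t a j0).1))
    (b2 : BdM e₂ L₂ D₀ z r₀ j0 W₂ D₂ X₂ Y₂ S₂ (fun j => (s j).2) (fun a => (t a j0).2))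
    (hρ : 0 < ρ)
    (hvt : ∀ y ∈ HB z ρ, y 0 = 0 → ∀ a j, (t a j).1 (e₁ y) = EuclideanSpace.single j (y a : ℂ))
    (hns : ∀ j, pd 0 (fun y => (s j).1 (e₁ y)) z = 0)
    (hnt : ∀ a j, pd 0 (fun y => (t a j).1 (e₁ y)) z =
      if a = 0 then EuclideanSpace.single j 1 else 0)
    {r : ℝ} (hr : 0 < r) (hrr : r < r₀) :
    MJ z r j0 W₁ W₂ (fun a => yE e₁ Y₁ S₁ fun j => (t a j).1)
      (fun a => yE e₂ Y₂ S₂ fun j => (t a j).2) := by
  have hJ := pcJet hP hG hS hn hN hs (fun a => ht a j0) b1 b2 hr hrr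
  obtain ⟨-, hdat⟩ := pcERel hP hG hS b1 b2 r hr hrr
  have hHB : HB z r ⊆ HB z r₀ := inter_subset_inter_left _ (Metric.ball_subset_ball hrr.le)
  have hR := relHB z r
  have o₁ : W₁.toLD.Ok (HB z r) := bmodel_ok_mono b1.model.ok hHB
  have o₂ : W₂.toLD.Ok (HB z r) := bmodel_ok_mono b2.model.ok hHB
  have hz : z ∈ HB z r := ⟨Metric.mem_ball_self hr, by show 0 ≤ z 0; rw [b1.z0]⟩
  have hst1 : ∀ a j, ContDiffOn ℝ ∞ (fun y => (t a j).1 (e₁ y)) D₀ := fun a j => by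
    obtain ⟨f, f', -, h1, h2⟩ := ht a j
    exact hP.b1.sm _ h1.smooth
  have hst2 : ∀ a j, ContDiffOn ℝ ∞ (fun y => (t a j).2 (e₂ y)) D₀ := fun a j => by
    obtain ⟨f, f', -, h1, h2⟩ := ht a j
    exact hP.b2.sm _ h2.smooth
  have ey1 : ∀ a (v : Fib N), (fun y => yE e₁ Y₁ S₁ (fun j => (t a j).1) y v) =
      fun y => Ring.inverse (S₁ (Y₁ y)) ((∑ j, v j • t a j).1 (e₁ (Y₁ y))) := by
    intro a v
    funext y
    rw [yE_apply]
    congr 2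
    rw [Prod.fst_sum]
    rfl
  have ey2 : ∀ a (v : Fib N), (fun y => yE e₂ Y₂ S₂ (fun j => (t a j).2) y v) =
      fun y => Ring.inverse (S₂ (Y₂ y)) ((∑ j, v j • t a j).2 (e₂ (Y₂ y))) := by
    intro a v
    funext y
    rw [yE_apply]
    congr 2
    rw [Prod.snd_sum]
    rfl
  have hpp : ∀ a (v : Fib N), (∑ j, v j • t a j) ∈ PP P Q G := fun a v =>
    pp_comb hG hN (ht a) v
  have so1 : ∀ a, ∀ v : Fib N,
      Sol W₁.toLD (HB z r) (fun y => yE e₁ Y₁ S₁ (fun j => (t a j).1) y v) := by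
    intro a v
    rw [ey1]
    obtain ⟨f, f', -, h1, h2⟩ := hpp a v
    exact bmodel_sol_mono (pcSide hP.b1 b1 h1).2.2 hHB
  have so2 : ∀ a, ∀ v : Fib N,
      Sol W₂.toLD (HB z r) (fun y => yE e₂ Y₂ S₂ (fun j => (t a j).2) y v) := by
    intro a v
    rw [ey2]
    obtain ⟨f, f', -, h1, h2⟩ := hpp a v
    exact bmodel_sol_mono (pcSide hP.b2 b2 h2).2.2 hHB
  exact
    { z0 := b1.z0
      r0 := hr
      ok₁ := o₁
      ok₂ := o₂
      fr₁ := fun v => bmodel_sol_mono (b1.model.frame v) hHB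
      fr₂ := fun v => bmodel_sol_mono (b2.model.frame v) hHB
      jet := hJ.jet
      sm₁ := fun a => (yE_smooth b1 (hst1 a)).mono hHB
      sm₂ := fun a => (yE_smooth b2 (hst2 a)).mono hHB
      so₁ := so1
      so₂ := so2
      v2 := fun a v => by
        refine van2_of_cauchy hR o₁ o₂ hJ.jet (so1 a v).1 (so2 a v).1 (fun x hx hx0 => ?_)
          (fun x hx hx0 => ?_)
        · have h1 := (hdat _ (hpp a v) x hx hx0).1
          have h2 := congrFun (ey1 a v) x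
          have h3 := congrFun (ey2 a v) x
          simp only at h1 h2 h3
          rw [h2, h3]
          exact h1
        · have h1 := (hdat _ (hpp a v) x hx hx0).2
          rw [ey1 a v, ey2 a v]
          exact h1
      re₁ := fun a y hy => by
        have h1 := yE_c (t := fun a j => (t a j).1) b1 (hHB hy) a
        show ((yE e₁ Y₁ S₁ (fun j => (t a j).1) y (eN N j0)) j0).re = y a
        rw [h1]
        exact b1.model.re a y (hHB hy)
      re₂ := fun a y hy => by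
        have h1 := yE_c (t := fun a j => (t a j).2) b2 (hHB hy) a
        show ((yE e₂ Y₂ S₂ (fun j => (t a j).2) y (eN N j0)) j0).re = y a
        rw [h1]
        exact b2.model.re a y (hHB hy)
      h1 := (hJ.h1 z hz b1.z0).1
      d1 := fun a i => bdm_jac (t := fun a j => (t a j).1) b1 hst1 hρ hvt hns hnt a i }

/-- Both models near a boundary point at which the normal derivatives are normalised. -/
theorem pcSetupN (hP : PC P Q G e₁ e₂ L₁ L₂ D₀) (hG : G.Ok n N) (hS : SameD P Q G) (hn : 2 ≤ n)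
    (hN : 0 < N) {z₀ : E n} (hz₀t : z₀ ∈ D₀) (hz₀0 : z₀ 0 = 0) :
    ∃ (j0 : Fin N) (z : E n) (r₀ ρ : ℝ) (s : Fin N → (M₁ → Fib N) × (M₂ → Fib N))
      (t : Fin n → Fin N → (M₁ → Fib N) × (M₂ → Fib N)) (W₁ W₂ : Model n N)
      (X₁ Y₁ X₂ Y₂ : E n → E n)
      (S₁ S₂ : E n → EndF N), 0 < r₀ ∧ 0 < ρ ∧ (∀ j, s j ∈ PP P Q G) ∧
      (∀ a j, t a j ∈ PP P Q G) ∧
      (∀ y ∈ HB z ρ, y 0 = 0 → ∀ a j, (t a j).1 (e₁ y) = EuclideanSpace.single j (y a : ℂ)) ∧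
      (∀ j, pd 0 (fun y => (s j).1 (e₁ y)) z = 0) ∧
      (∀ a j, pd 0 (fun y => (t a j).1 (e₁ y)) z =
        if a = 0 then EuclideanSpace.single j 1 else 0) ∧
      ∀ r, 0 < r → r ≤ r₀ → ∃ D₁ D₂ : Set (E n),
        BdM e₁ L₁ D₀ z r j0 W₁ D₁ X₁ Y₁ S₁ (fun j => (s j).1) (fun a => (t a j0).1) ∧
        BdM e₂ L₂ D₀ z r j0 W₂ D₂ X₂ Y₂ S₂ (fun j => (s j).2) (fun a => (t a j0).2) := by
  obtain ⟨z₁, ρ₁, hz₁, hρ₁, hsub₁, z, hz, hz0, hsp⟩ := nd_span hP hG hS hn hz₀t hz₀0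
  -- a half ball about `z`
  obtain ⟨R, hR, hRs⟩ : ∃ R > 0, HB z R ⊆ HB z₁ ρ₁ := by
    obtain ⟨R, hR, h2⟩ := Metric.isOpen_iff.1 (Metric.isOpen_ball (x := z₁) (ε := ρ₁)) z hz.1
    exact ⟨R, hR, fun y hy => ⟨h2 hy.1, hy.2⟩⟩
  have hSp : Sp P Q G e₁ e₂ z R := fun v => by
    obtain ⟨u, hu, huv⟩ := hsp v
    exact ⟨u, ⟨hu.1, fun y hy h0 => hu.2 y (hRs hy) h0⟩, huv⟩
  obtain ⟨r, s, t, hr, hrR, hs, ht, hval, hns, hnt, hpos⟩ :=
    pcStartN hP hG hS hz0 hR (hRs.trans hsub₁) hSp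
  have hsub : HB z r ⊆ D₀ := fun y hy =>
    hsub₁ (hRs ⟨Metric.ball_subset_ball hrR hy.1, hy.2⟩)
  set j0 : Fin N := ⟨0, hN⟩ with hj0
  have hbd₁ : ((𝓡∂ n).boundary M₁).Nonempty := bne hG.rel₁ hG.ne₁
  have hbd₂ : ((𝓡∂ n).boundary M₂).Nonempty := bne hG.rel₂ hG.ne₂
  obtain ⟨W₁, X₁, Y₁, S₁, r₁, hr₁, h₁⟩ := pcSetup_one P hP.b1 hbd₁ j0 z r
    (fun j => (s j).1) (fun a => (t a j0).1) hz0 hr hsub
    (fun j => by obtain ⟨f, f', -, h, -⟩ := hs j; exact ⟨f, h⟩)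
    (fun a => by obtain ⟨f, f', -, h, -⟩ := ht a j0; exact ⟨f, h⟩)
    (fun y hy h0 j => ((hval y hy h0).1 j).1) (fun y hy h0 a => ((hval y hy h0).2 a j0).1) (by
      show 0 < (pd 0 (fun y => (t 0 j0).1 (e₁ y)) z j0).re
      rw [hnt 0 j0, if_pos rfl]
      simp)
  obtain ⟨W₂, X₂, Y₂, S₂, r₂, hr₂, h₂⟩ := pcSetup_one Q hP.b2 hbd₂ j0 z r
    (fun j => (s j).2) (fun a => (t a j0).2) hz0 hr hsub
    (fun j => by obtain ⟨f, f', -, -, h⟩ := hs j; exact ⟨f', h⟩)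
    (fun a => by obtain ⟨f, f', -, -, h⟩ := ht a j0; exact ⟨f', h⟩)
    (fun y hy h0 j => ((hval y hy h0).1 j).2) (fun y hy h0 a => ((hval y hy h0).2 a j0).2)
    (hpos j0)
  refine ⟨j0, z, min r₁ r₂, r, s, t, W₁, W₂, X₁, Y₁, X₂, Y₂, S₁, S₂, lt_min hr₁ hr₂, hr, hs, ht,
    fun y hy h0 a j => ((hval y hy h0).2 a j).1, hns, hnt, ?_⟩
  intro ρ hρ hle
  obtain ⟨D₁, hD₁⟩ := h₁ ρ hρ (hle.trans (min_le_left _ _))
  obtain ⟨D₂, hD₂⟩ := h₂ ρ hρ (hle.trans (min_le_right _ _))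
  exact ⟨D₁, D₂, hD₁, hD₂⟩

end Two

/-- Equal fields give equal models. -/
theorem eqOnM_of {n N : ℕ} [NeZero n] (hn : 3 ≤ n) {D : Set (E n)} (hD : RelOpen D)
    {W₁ W₂ : Model n N} (o₁ : W₁.toLD.Ok D) (o₂ : W₂.toLD.Ok D)
    (hg : ∀ x ∈ D, ∀ i j, gg W₁.g i j x = gg W₂.g i j x) (hh : ∀ x ∈ D, W₁.h x = W₂.h x)
    (hG : ∀ x ∈ D, ∀ i, gE W₁.toLD i x = gE W₂.toLD i x)
    (hc : ∀ x ∈ D, ∀ a, W₁.c a x = W₂.c a x) : EqOnM W₁ W₂ D := by
  refine ⟨fun x hx => ?_, fun x hx i => ?_, hh, hc⟩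
  · refine g_of_GM hn (gok_of_ok o₁) (gok_of_ok o₂) hx ?_
    ext i j
    exact hg x hx i j
  · have e1 := pd_add_gE o₁ i hx
    have e2 := pd_add_gE o₂ i hx
    rw [hD.pd_congr (fun y hy => hh y hy) hx i, hG x hx i, e2, hh x hx] at e1
    have e3 : W₂.h x * W₂.B i x = W₂.h x * W₁.B i x :=
      smul_right_injective (EndF N) (two_ne_zero : (2 : ℝ) ≠ 0) e1
    have hu := h_unit o₂ hx
    have e4 := congrArg (fun T => Ring.inverse (W₂.h x) * T) e3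
    simp only [← mul_assoc, Ring.inverse_mul_cancel _ hu, one_mul] at e4
    exact e4.symm

/-- **START4**: the start at the patch for pairs, from the local theorem. -/
theorem rowSTART4 (hC : S4.RowCORE4) : S4.RowSTART4.{u} := by
  intro n N _ M₁ M₂ _ _ _ _ _ _ _ _ _ _ _ _ _ _ _ _ P Q G hn hN hG hS
  obtain ⟨p₂, hp₂⟩ := hG.ne₂
  obtain ⟨q₂, z₀, R₀, D, θ, τ, L₂, hz₀, hR₀, hsub, hD, hDt, -, hPC, hpull, -⟩ :=
    TM.Q.exists_pc_at (N := N) hN P Q hG (hG.maps hp₂) isOpen_univ (mem_univ _)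
  obtain ⟨j0, z, r₀, ρ, s, t, W₁, W₂, X₁, Y₁, X₂, Y₂, S₁, S₂, hr₀, hρ, hs, ht, hvt, hns, hnt,
    hBd⟩ := pcSetupN hPC hG hS (by omega) hN (cSetup_mem_HB hz₀ hR₀) hz₀
  obtain ⟨D₁, D₂, b1, b2⟩ := hBd r₀ hr₀ le_rfl
  have hz : z 0 = 0 := b1.z0
  set r₁ : ℝ := r₀ / 2 with hr₁d
  have hr₁ : 0 < r₁ := by positivity
  have hr₁0 : r₁ < r₀ := by rw [hr₁d]; linarith
  have hHB : HB z r₁ ⊆ HB z r₀ := inter_subset_inter_left _ (Metric.ball_subset_ball hr₁0.le)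
  have hM := mj_of hPC hG hS hn hN hs ht b1 b2 hρ hvt hns hnt hr₁ hr₁0
  obtain ⟨s₁, s₂, P₁, P₂, G₁, G₂, Y, Dd, R, hR, hRr, fv₁, fv₂, hLP, hP1, hY1, hDe⟩ := hM.fields
  have hRr₀ : R < r₀ := by linarith
  have hSt := R2.H509.S4.st4bV hPC hG hS hs (fun a => ht a j0) b1 b2 hR hRr₀ fv₁ fv₂
  have hGo : IsOpen (Gm n) := isOpen_lt (continuous_apply 0) continuous_const
  obtain ⟨δ, hδ, hδe⟩ := hC n N hn hN R 1 (-Pi.single 0 1) (Gm n) j0 s₁ s₂ P₁ P₂ G₁ G₂ Y Dd hR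
    one_pos
    (by
      unfold HY.sq
      rw [Finset.sum_eq_single 0]
      · simp
      · intro b _ hb
        simp [hb]
      · simp) hGo
    (by
      intro x hx
      have h1 : HY.sq (x - -Pi.single 0 1) < 1 ^ 2 := hx.1
      have h2 : (x 0 + 1) ^ 2 ≤ HY.sq (x - -Pi.single 0 1) := by
        unfold HY.sq
        have h3 := Finset.single_le_sum (f := fun j => (x - -Pi.single 0 1 : V n) j ^ 2)
          (fun j _ => sq_nonneg _) (Finset.mem_univ (0 : Fin n))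
        simpa using h3
      show x 0 < 0
      nlinarith) hLP hP1 hY1 hSt
  -- equal models
  obtain ⟨d, hd, hdδ, hdR⟩ : ∃ d : ℝ, 0 < d ∧ d ≤ δ ∧ d ≤ R :=
    ⟨min δ R, lt_min hδ hR, min_le_left _ _, min_le_right _ _⟩
  have hdr : d < r₀ := by linarith
  have hdr1 : d ≤ r₁ := by linarith
  have hHd : HB z d ⊆ HB z r₁ := inter_subset_inter_left _ (Metric.ball_subset_ball hdr1)
  have hRd := relHB z d
  have hv : ∀ x ∈ HB z d, em z (me z x) = x ∧ me z x ∈ Eb (0 : V n) R ∧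
      me z x ∈ Eb (0 : V n) δ ∧ 0 ≤ me z x 0 := by
    intro x hx
    have h0 : em z (me z x) = x := em_me z x
    refine ⟨h0, ?_, ?_, ?_⟩
    · rw [← em_ball hR (z := z), h0]
      exact Metric.ball_subset_ball hdR hx.1
    · rw [← em_ball hδ (z := z), h0]
      exact Metric.ball_subset_ball hdδ hx.1
    · have h1 : 0 ≤ x 0 := hx.2
      rw [← h0, em_zero hz] at h1
      exact h1
  have o₁ : W₁.toLD.Ok (HB z d) := bmodel_ok_mono hM.ok₁ hHd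
  have o₂ : W₂.toLD.Ok (HB z d) := bmodel_ok_mono hM.ok₂ hHd
  have hEq : EqOnM W₁ W₂ (HB z d) := by
    refine eqOnM_of hn hRd o₁ o₂ (fun x hx i j => ?_) (fun x hx => ?_) (fun x hx i => ?_)
      (fun x hx a => ?_)
    · obtain ⟨h0, h1, h2, h3⟩ := hv x hx
      have e1 := fv₁.s _ h1 h3 i j
      have e2 := fv₂.s _ h1 h3 i j
      rw [h0] at e1 e2
      rw [← e1, ← e2, (hδe _ h2).1]
    · obtain ⟨h0, h1, h2, h3⟩ := hv x hx
      have e1 := fv₁.P _ h1 h3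
      have e2 := fv₂.P _ h1 h3
      rw [h0] at e1 e2
      refine ofE_inj ?_
      rw [← e1, ← e2, (hδe _ h2).2.1]
    · obtain ⟨h0, h1, h2, h3⟩ := hv x hx
      have e1 := fv₁.G i _ h1 h3
      have e2 := fv₂.G i _ h1 h3
      rw [h0] at e1 e2
      refine ofE_inj ?_
      rw [← e1, ← e2, (hδe _ h2).2.2.1 i]
    · obtain ⟨h0, h1, h2, h3⟩ := hv x hx
      have e1 := hDe _ h1 h3 a
      rw [(hδe _ h2).2.2.2 a, h0] at e1
      have e2 := ofE_inj (sub_eq_zero.1 e1.symm)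
      have hx0 : x ∈ HB z r₀ := hHB (hHd hx)
      have e3 := yE_c (t := fun a j => (t a j).1) b1 hx0 a
      have e4 := yE_c (t := fun a j => (t a j).2) b2 hx0 a
      rw [← e3, ← e4]
      exact congrArg (fun T : EndF N => T (eN N j0)) e2.symm
  obtain ⟨D₁'', D₂'', c1, c2⟩ := hBd d hd hdr.le
  obtain ⟨O, φ, V', hO, hev⟩ := near_match hPC hsub hD hDt hpull hG hS hN b1 b2 c1 c2 hdr hEq
  have hzt : z ∈ HB z₀ R₀ := b1.sub (b1.bd z (hHB ⟨Metric.mem_ball_self hr₁, by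
    show 0 ≤ z 0; rw [hz]⟩) hz).1
  exact start_of_match hn hN hG hS (hPC.m2 z hzt hz) hO hev

end Vale.Agent.P088.R2.H850
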