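import Vale.Agent.P088.TM.H275BC
import Vale.Agent.P088.R2.H850.Iso

/-!
# P088, THEOREM S: unique continuation for harmonic functions in a Euclidean ball
-/

set_option linter.all false

open MeasureTheory Set Filter Topology Metric
open scoped ContDiff Matrix

noncomputable section

namespace Vale.Agent.P088.R2.H850

open Vale.Agent.P088 Vale.Agent.P088.EYM

variable {n : ℕ} [NeZero n]

/-- The Euclidean local data. -/
def euc (n : ℕ) [NeZero n] : LD n 1 := ⟨fun _ => 1, fun _ _ => 0, fun _ => 1⟩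

theorem euc_ok (D : Set (E n)) : (euc n).Ok D := by
  refine ⟨fun i j => contDiffOn_const, fun x _ => Matrix.PosDef.one, fun i => contDiffOn_const,
    contDiffOn_const, fun x _ => ?_, fun x _ v hv => ?_, fun x _ j => ?_⟩
  · exact ContinuousLinearMap.adjoint_id
  · show 0 < (inner ℂ v v : ℂ).re
    rw [inner_self_eq_norm_sq_to_K]
    norm_cast
    exact pow_pos (norm_pos_iff.2 hv) 2
  · show pd j (fun _ => (1 : EndF 1)) x = ContinuousLinearMap.adjoint (0 : EndF 1) * 1 + 1 * 0
    rw [pd_const, map_zero, zero_mul, mul_zero, add_zero]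

/-- The embedding of the real numbers. -/
def emb : ℝ →L[ℝ] Fib 1 :=
  (Complex.ofRealCLM).smulRight (EuclideanSpace.single (0 : Fin 1) (1 : ℂ))

theorem emb_apply (t : ℝ) : emb t = (t : ℂ) • EuclideanSpace.single (0 : Fin 1) (1 : ℂ) := rfl

theorem emb_inj {t : ℝ} (h : emb t = 0) : t = 0 := by
  rw [emb_apply] at h
  rcases smul_eq_zero.1 h with h | h
  · exact_mod_cast h
  · exfalso
    have := congrArg (fun v : Fib 1 => v 0) h
    simp at this

theorem pd_eq_dj {D : Set (E n)} (hD : IsOpen D) (hDs : D ⊆ Hs n) (g : E n → ℝ) {x : E n}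
    (hx : x ∈ D) (i : Fin n) : pd i g x = H31.dj i g x := by
  unfold pd H31.dj
  rw [fderivWithin_of_mem_nhds (mem_of_superset (hD.mem_nhds hx) hDs)]

theorem flux_euc {D : Set (E n)} (hD : RelOpen D) {f : E n → ℝ} (hf : ContDiffOn ℝ ∞ f D)
    {x : E n} (hx : x ∈ D) (j : Fin n) :
    flux (euc n) j (fun y => emb (f y)) x = emb (pd j f x) := by
  have h1 : ∀ k, nab (euc n) k (fun y => emb (f y)) x = emb (pd k f x) := by
    intro k
    show pd k (fun y => emb (f y)) x + (0 : EndF 1) (emb (f x)) = _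
    rw [hD.pd_clm emb hf hx k, ContinuousLinearMap.zero_apply, add_zero]
  unfold flux
  simp only [h1]
  have h2 : ∀ k, gg (euc n).g j k x = if j = k then 1 else 0 := by
    intro k
    show √(1 : Matrix (Fin n) (Fin n) ℝ).det * (1 : Matrix (Fin n) (Fin n) ℝ)⁻¹ j k = _
    rw [Matrix.det_one, Real.sqrt_one, one_mul, inv_one, Matrix.one_apply]
  simp only [h2, ite_smul, one_smul, zero_smul]
  simp

theorem lop_euc {D : Set (E n)} (hD : RelOpen D) {f : E n → ℝ} (hf : ContDiffOn ℝ ∞ f D)
    {x : E n} (hx : x ∈ D) :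
    Lop (euc n) (fun y => emb (f y)) x = emb (∑ j, pd j (pd j f) x) := by
  unfold Lop
  rw [map_sum]
  refine Finset.sum_congr rfl fun j _ => ?_
  show pd j (flux (euc n) j fun y => emb (f y)) x + (0 : EndF 1) _ = _
  rw [ContinuousLinearMap.zero_apply, add_zero,
    hD.pd_congr (fun y hy => flux_euc hD hf hy j) hx j, hD.pd_clm emb (hD.pd_smooth hf j) hx j]

/-- Unique continuation for harmonic functions in a ball. -/
theorem ucp_ball {w : E n → ℝ} {δ : ℝ} (hw : ContDiffOn ℝ ∞ w (ball 0 δ))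
    (h : ∀ x ∈ ball (0 : E n) δ, H31.lap w x = 0) {U : Set (E n)} (hU : IsOpen U)
    (hUs : U ⊆ ball 0 δ) (hne : U.Nonempty) (h0 : ∀ x ∈ U, w x = 0) :
    ∀ x ∈ ball (0 : E n) δ, w x = 0 := by
  set a : E n := (|δ| + 1) • ev 0 with ha
  set D : Set (E n) := ball a δ with hDdef
  have hDs : D ⊆ Hs n := by
    intro x hx
    have h1 : ‖(x - a) 0‖ ≤ ‖x - a‖ := PiLp.norm_apply_le _ _
    rw [hDdef, mem_ball, dist_eq_norm] at hx
    have h2 : (x - a) 0 = x 0 - (|δ| + 1) := by
      rw [PiLp.sub_apply, ha, PiLp.smul_apply]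
      simp
    rw [h2, Real.norm_eq_abs] at h1
    have h3 := neg_abs_le (x 0 - (|δ| + 1))
    have h4 := le_abs_self δ
    show 0 ≤ x 0
    linarith
  have hRel : RelOpen D := ⟨D, isOpen_ball, (inter_eq_left.2 hDs).symm⟩
  have hmap : ∀ x ∈ D, x - a ∈ ball (0 : E n) δ := by
    intro x hx
    rw [mem_ball, dist_zero_right, ← dist_eq_norm]
    exact hx
  set f : E n → ℝ := fun x => w (x - a) with hf
  have hfs : ContDiffOn ℝ ∞ f D :=
    hw.comp (contDiff_id.sub contDiff_const).contDiffOn fun x hx => hmap x hx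
  have hlap : ∀ x ∈ D, ∑ j, pd j (pd j f) x = 0 := by
    intro x hx
    have e1 : ∀ j, pd j (pd j f) x = H31.dj j (H31.dj j f) x := by
      intro j
      rw [hRel.pd_congr (g := H31.dj j f) (fun y hy => pd_eq_dj isOpen_ball hDs f hy j) hx j,
        pd_eq_dj isOpen_ball hDs _ hx j]
    simp only [e1]
    have e2 : ContDiffAt ℝ 2 w ((LinearIsometryEquiv.refl ℝ (E n)) x + -a) := by
      have := hw.contDiffAt (isOpen_ball.mem_nhds (hmap x hx))
      rw [sub_eq_add_neg] at this
      exact this.of_le (by norm_cast)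
    have e3 := lap_iso (LinearIsometryEquiv.refl ℝ (E n)) (-a) e2
    have e4 : (fun y => w ((LinearIsometryEquiv.refl ℝ (E n)) y + -a)) = f := by
      funext y
      rw [hf]
      simp [sub_eq_add_neg]
    rw [e4] at e3
    show H31.lap f x = 0
    rw [e3]
    have e5 := h _ (hmap x hx)
    rwa [sub_eq_add_neg] at e5
  have hSol : Sol (euc n) D (fun y => emb (f y)) :=
    ⟨emb.contDiff.comp_contDiffOn hfs, fun x hx => by
      rw [lop_euc hRel hfs hx, hlap x hx, map_zero]⟩
  have hU' : IsOpen ((fun x => x - a) ⁻¹' U) := hU.preimage (by fun_prop)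
  have key := TM.fLinInt n 1 (euc n) D isOpen_ball hDs (euc_ok D)
    (convex_ball a δ).isPreconnected _ hSol ((fun x => x - a) ⁻¹' U) hU' (by
      intro x hx
      have := hUs hx
      rw [mem_ball, dist_zero_right] at this
      rw [hDdef, mem_ball, dist_eq_norm]
      exact this) (by
      obtain ⟨u, hu⟩ := hne
      exact ⟨u + a, by simpa using hu⟩) (fun x hx => by
      show emb (w (x - a)) = 0
      rw [h0 _ hx, map_zero])
  intro x hx
  have hxa : x + a ∈ D := by
    rw [hDdef, mem_ball, dist_eq_norm, add_sub_cancel_right]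
    rwa [mem_ball, dist_zero_right] at hx
  have := emb_inj (key (x + a) hxa)
  rw [hf] at this
  simpa using this

end Vale.Agent.P088.R2.H850
end
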