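import Vale.Agent.P088.R2.H850.Flat
import Vale.Agent.P088.R2.H850.Ucp

/-!
# P088, THEOREM S: topology (maximal matched set, touching ball, conclusion)
-/

set_option linter.all false

open Bundle Manifold MeasureTheory Set Filter Topology Metric
open scoped ContDiff Matrix

noncomputable section

namespace Vale.Agent.P088.R2.H850

open Vale.Agent.P088 Vale.Agent.P088.EYM Vale.Agent.P088.EYM.O Vale.Agent.P088.R2.G31

universe u

variable {n N : ℕ} [NeZero n] {M : Type u} [TopologicalSpace M]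
  [ChartedSpace (EuclideanHalfSpace n) M] [IsManifold (𝓡∂ n) ∞ M]

section One

variable [MeasurableSpace M]

/-- Conformal metrics, trivial connections, equal data. -/
structure Hyp (P Q : One n N M) (Γ : Set M) (c : M → ℝ) : Prop where
  hn : 3 ≤ n
  hN : 0 < N
  A1 : ∀ x X, P.A.form x X = 0
  A2 : ∀ x X, Q.A.form x X = 0
  bd : RelBd n Γ
  data : SameD P Q Γ
  sm : SmR n c
  pos : ∀ x, 0 < c x
  conf : ∀ (x : M) (v w : TangentSpace (𝓡∂ n) x), Q.g.inner x v w = c x * P.g.inner x v w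

/-- The parametrisation `y ↦ (xc n p).symm (Y y)`. -/
def par (p : M) (Y : E n → E n) (y : E n) : M := (xc n p).symm (Y y)

variable {P Q : One n N M} {Γ : Set M} {c : M → ℝ} {p : M} {D : Set (E n)} {X Y : E n → E n}
  {om : E n → ℝ} {R : ℝ}

theorem par_cont (h : FlatIn P p D X Y om R) : ContinuousOn (par p Y) (ball 0 R) :=
  (continuousOn_extChartAt_symm p).comp h.smY.continuousOn fun y hy => h.sub (h.mapsY hy)

theorem smR_par (hc : SmR n c) (h : FlatIn P p D X Y om R) :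
    ContDiffOn ℝ ∞ (fun y => c (par p Y y)) (ball 0 R) := by
  have h1 : ContMDiffOn 𝓘(ℝ, E n) (𝓡∂ n) ∞ (xc n p).symm (tg n p) :=
    contMDiffOn_extChartAt_symm p
  have h2 : ContMDiffOn 𝓘(ℝ, E n) 𝓘(ℝ, ℝ) ∞ (fun y => c ((xc n p).symm y)) (tg n p) :=
    hc.comp_contMDiffOn h1
  exact (contMDiffOn_iff_contDiffOn.1 h2).comp h.smY fun y hy => h.sub (h.mapsY hy)

/-- `τ = c^{(n-2)/4} ω`. -/
def tau (c : M → ℝ) (p : M) (Y : E n → E n) (om : E n → ℝ) (z : E n) : ℝ :=
  (c ((xc n p).symm (Y z))) ^ (((n : ℝ) - 2) / 4) * om z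

theorem tau_sm (hc : SmR n c) (hpos : ∀ x, 0 < c x) (h : FlatIn P p D X Y om R) :
    ContDiffOn ℝ ∞ (tau c p Y om) (ball 0 R) :=
  ((smR_par hc h).rpow_const_of_ne fun y _ => (hpos _).ne').mul h.smom

theorem tau_one {z : E n} (h : c ((xc n p).symm (Y z)) = 1) : tau c p Y om z = om z := by
  unfold tau
  rw [h, Real.one_rpow, one_mul]

theorem one_of_tau (hn : 3 ≤ n) {z : E n} (hc : 0 < c ((xc n p).symm (Y z))) (ho : 0 < om z)
    (h : tau c p Y om z = om z) : c ((xc n p).symm (Y z)) = 1 := by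
  unfold tau at h
  have h1 : (c ((xc n p).symm (Y z))) ^ (((n : ℝ) - 2) / 4) = 1 := by
    have h2 : (c ((xc n p).symm (Y z))) ^ (((n : ℝ) - 2) / 4) * om z = 1 * om z := by
      rw [h, one_mul]
    exact mul_right_cancel₀ ho.ne' h2
  have h3 : (3 : ℝ) ≤ n := by exact_mod_cast hn
  have h4 : ((n : ℝ) - 2) / 4 ≠ 0 := by
    have : 0 < ((n : ℝ) - 2) / 4 := by linarith
    exact this.ne'
  exact (Real.rpow_left_inj hc.le zero_le_one h4).1 (by rw [h1, Real.one_rpow])

end One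

section Step

variable [T2Space M] [CompactSpace M] [ConnectedSpace M] [MeasurableSpace M] [BorelSpace M]
  {P Q : One n N M} {Γ : Set M} {c : M → ℝ} {p : M} {D : Set (E n)} {X Y : E n → E n}
  {om : E n → ℝ} {R : ℝ}

/-- The step at a touching point, in normalised coordinates. -/
theorem step_touch (hC : H31.Core_statement) (hG : GI_statement.{u}) (h : Hyp P Q Γ c)
    {V : Set M} (hV : IsOpen V) (hVc : IsPreconnected V) (hVΓ : (V ∩ Γ).Nonempty)
    (h1 : ∀ x ∈ V, c x = 1) (hR : 0 < R) (hF : FlatIn P p D X Y om (2 * R)) {r : ℝ} (hr : 0 < r)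
    (ht : ∀ y ∈ ball (r • (ev 1 : E n)) r ∩ ball 0 R, (xc n p).symm (Y y) ∈ V) :
    ∃ δ > 0, δ ≤ R ∧ ∀ y ∈ ball (0 : E n) δ, c ((xc n p).symm (Y y)) = 1 := by
  have hStep := hG n N M P Q Γ V c p D X Y om R h.hn h.hN hR h.A1 h.A2 h.bd hV hVc hVΓ h.data
    h.sm h.pos h.conf h1 hF
  set G : Set (E n) := {y | y ∈ ball (0 : E n) (2 * R) ∧ (xc n p).symm (Y y) ∈ V} with hGdef
  have hGo : IsOpen G := (par_cont hF).isOpen_inter_preimage isOpen_ball hV
  have hsub : ball (0 : E n) R ⊆ ball 0 (2 * R) := ball_subset_ball (by linarith)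
  have hts : ContDiffOn ℝ ∞ (tau c p Y om) (ball 0 (2 * R)) := tau_sm h.sm h.pos hF
  have htp : ∀ y ∈ ball (0 : E n) (2 * R), 0 < tau c p Y om y := fun y hy =>
    mul_pos (Real.rpow_pos_of_pos (h.pos _) _) (hF.posom y hy)
  set q : E n → ℝ := fun y => H31.lap (tau c p Y om) y / tau c p Y om y with hq
  have hqc : ContinuousOn q (ball 0 R) := by
    refine ContinuousOn.mono ?_ hsub
    exact (cont_lap isOpen_ball (hts.of_le (by norm_cast))).div hts.continuousOn
      fun y hy => (htp y hy).ne'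
  have hq0 : ∀ x ∈ G ∩ ball 0 R, q x = 0 := by
    rintro x ⟨hx, hxR⟩
    have e1 : tau c p Y om =ᶠ[𝓝 x] om := by
      filter_upwards [hGo.mem_nhds hx] with y hy
      exact tau_one (h1 _ hy.2)
    show H31.lap (tau c p Y om) x / tau c p Y om x = 0
    rw [H31.lap_congr e1, hF.harm x hx.1, zero_div]
  have hball : ball (r • (ev 1 : E n)) r ∩ ball 0 R ⊆ G := fun y hy => ⟨hsub hy.2, ht y hy⟩
  replace hStep : H31.Step n R G q := hStep
  have hcore : ∃ δ > 0, ∀ x ∈ ball (0 : E n) δ, q x = 0 := by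
    have hn := h.hn
    clear_value q G
    clear hGdef hq hF htp hts ht h h1 hV hVc hVΓ
    obtain ⟨k, rfl⟩ : ∃ k, n = k + 3 := ⟨n - 3, by omega⟩
    exact hC k R r G q hR hr hGo hqc hq0 hball hStep
  obtain ⟨δ₀, hδ₀, hδ⟩ := hcore
  set δ : ℝ := min δ₀ R with hδd
  have hδp : 0 < δ := lt_min hδ₀ hR
  have hδR : ball (0 : E n) δ ⊆ ball 0 R := ball_subset_ball (min_le_right _ _)
  have hlap : ∀ y ∈ ball (0 : E n) δ, H31.lap (tau c p Y om) y = 0 := by
    intro y hy
    have e1 : H31.lap (tau c p Y om) y / tau c p Y om y = 0 :=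
      hδ y (ball_subset_ball (min_le_left _ _) hy)
    rcases div_eq_zero_iff.1 e1 with e2 | e2
    · exact e2
    · exact absurd e2 (htp y (hsub (hδR hy))).ne'
  refine ⟨δ, hδp, min_le_right _ _, fun y hy => ?_⟩
  have hC2 : ∀ {f : E n → ℝ}, ContDiffOn ℝ ∞ f (ball 0 (2 * R)) → ∀ y ∈ ball (0 : E n) δ,
      ContDiffAt ℝ 2 f y := fun hf y hy =>
    (hf.contDiffAt (isOpen_ball.mem_nhds (hsub (hδR hy)))).of_le (by norm_cast)
  have hucp : ∀ x ∈ ball (0 : E n) δ, tau c p Y om x - om x = 0 := by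
    refine ucp_ball (U := G ∩ ball 0 δ) ((hts.sub hF.smom).mono (hδR.trans hsub)) (fun x hx => ?_)
      (hGo.inter isOpen_ball) inter_subset_right ?_ fun x hx => ?_
    · rw [H31.lap_sub (hC2 hts x hx) (hC2 hF.smom x hx), hlap x hx,
        hF.harm x (hsub (hδR hx)), sub_zero]
    · have e1 : (0 : E n) ∈ closure (ball (r • (ev 1 : E n)) r) := by
        rw [closure_ball _ hr.ne', mem_closedBall, dist_zero_left, norm_smul]
        simp [abs_of_pos hr]
      obtain ⟨z, hz, hz'⟩ := _root_.mem_closure_iff.1 e1 (ball 0 δ) isOpen_ball (mem_ball_self hδp)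
      exact ⟨z, hball ⟨hz', hδR hz⟩, hz⟩
    · rw [tau_one (h1 _ hx.1.2), sub_self]
  exact one_of_tau h.hn (h.pos _) (hF.posom y (hsub (hδR hy))) (sub_eq_zero.1 (hucp y hy))

/-- The set where the coordinates lie in `B`, an open set of `M`. -/
theorem open_chart (hF : FlatIn P p D X Y om R) {B : Set (E n)} (hB : IsOpen B) :
    IsOpen {m | m ∈ (xc n p).source ∧ xc n p m ∈ D ∧ X (xc n p m) ∈ B} := by
  have h1 : IsOpen (D ∩ X ⁻¹' B) := hF.smX.continuousOn.isOpen_inter_preimage hF.isOpen hB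
  exact (continuousOn_extChartAt p).isOpen_inter_preimage (isOpen_extChartAt_source p) h1

theorem par_left (hF : FlatIn P p D X Y om R) {m : M} (hm : m ∈ (xc n p).source)
    (hD : xc n p m ∈ D) : (xc n p).symm (Y (X (xc n p m))) = m := by
  rw [hF.inv1 _ hD, (xc n p).left_inv hm]

theorem par_mem (hF : FlatIn P p D X Y om R) {y : E n} (hy : y ∈ ball (0 : E n) R) :
    (xc n p).symm (Y y) ∈ (xc n p).source ∧ xc n p ((xc n p).symm (Y y)) ∈ D ∧
      X (xc n p ((xc n p).symm (Y y))) = y := by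
  have h1 := hF.sub (hF.mapsY hy)
  rw [(xc n p).right_inv h1, hF.inv2 y hy]
  exact ⟨(xc n p).map_target h1, hF.mapsY hy, rfl⟩

/-- The topological argument. -/
theorem top (hC : H31.Core_statement) (hG : GI_statement.{u}) (h : Hyp P Q Γ c)
    (hflat : ∀ x ∈ Mi n M, ∃ (p : M) (D : Set (E n)) (X Y : E n → E n) (om : E n → ℝ) (R : ℝ),
      x ∈ (xc n p).source ∧ xc n p x ∈ D ∧ 0 < R ∧ FlatIn P p D X Y om R)
    {y₀ : M} (hy₀ : y₀ ∈ Γ) (hb : ∀ᶠ x in 𝓝 y₀, c x = 1) : ∀ x, c x = 1 := by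
  haveI : LocallyConnectedSpace M := ChartedSpace.locallyConnectedSpace (EuclideanHalfSpace n) M
  obtain ⟨hMo, hMc, hMd⟩ := TM.fConn n M
  set S : Set M := interior {x | c x = 1} with hS
  have hyS : y₀ ∈ S := mem_interior_iff_mem_nhds.2 hb
  set V : Set M := connectedComponentIn S y₀ with hVdef
  have hV : IsOpen V := isOpen_interior.connectedComponentIn
  have hVc : IsPreconnected V := isPreconnected_connectedComponentIn
  have hyV : y₀ ∈ V := mem_connectedComponentIn hyS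
  have hVS : V ⊆ S := connectedComponentIn_subset _ _
  have hV1 : ∀ x ∈ V, c x = 1 := fun x hx =>
    (interior_subset (hVS hx) : x ∈ {x | c x = 1})
  have hsub : Mi n M ⊆ V := by
    have hne : (Mi n M ∩ V).Nonempty := by
      obtain ⟨x, hx, hx'⟩ := _root_.mem_closure_iff.1 (hMd y₀) V hV hyV
      exact ⟨x, hx', hx⟩
    refine hMc.subset_of_closure_inter_subset hV hne ?_
    rintro x ⟨hxV, hxM⟩
    by_contra hx
    obtain ⟨p, D, X, Y, om, R, hxs, hxD, hR, hF⟩ := hflat x hxM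
    set x₁ : E n := X (xc n p x) with hx₁
    have hx₁R : x₁ ∈ ball (0 : E n) R := hF.mapsX hxD
    have hx₁p : (xc n p).symm (Y x₁) = x := par_left hF hxs hxD
    set W : Set (E n) := {y | y ∈ ball (0 : E n) R ∧ (xc n p).symm (Y y) ∈ V} with hW
    have hWo : IsOpen W := (par_cont hF).isOpen_inter_preimage isOpen_ball hV
    have hx₁W : x₁ ∉ W := fun hh => hx (by rw [← hx₁p]; exact hh.2)
    have hx₁c : x₁ ∈ closure W := by
      rw [_root_.mem_closure_iff]
      intro B hB hxB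
      obtain ⟨m, ⟨hm1, hm2, hm3⟩, hm⟩ := _root_.mem_closure_iff.1 hxV _
        (open_chart hF (hB.inter (isOpen_ball : IsOpen (ball (0 : E n) R)))) ⟨hxs, hxD, hxB, hx₁R⟩
      exact ⟨X (xc n p m), hm3.1, hm3.2, by rw [par_left hF hm1 hm2]; exact hm⟩
    have hρ : 0 < (R - ‖x₁‖) / 3 := by
      rw [mem_ball, dist_zero_right] at hx₁R
      linarith
    set ρ : ℝ := (R - ‖x₁‖) / 3 with hρd
    obtain ⟨z, x₀, hx₀, hx₀W, hr0, hrρ, hball⟩ := touching hWo hρ hx₁W hx₁c
    have hx₀n : ‖x₀‖ < ‖x₁‖ + ρ := by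
      rw [mem_ball, dist_eq_norm] at hx₀
      calc ‖x₀‖ = ‖(x₀ - x₁) + x₁‖ := by rw [sub_add_cancel]
        _ ≤ ‖x₀ - x₁‖ + ‖x₁‖ := norm_add_le _ _
        _ < ‖x₁‖ + ρ := by linarith
    have hx₀R : ball x₀ (2 * ρ) ⊆ ball 0 R := by
      intro y hy
      rw [mem_ball, dist_eq_norm] at hy
      rw [mem_ball, dist_zero_right]
      calc ‖y‖ = ‖(y - x₀) + x₀‖ := by rw [sub_add_cancel]
        _ ≤ ‖y - x₀‖ + ‖x₀‖ := norm_add_le _ _
        _ < R := by rw [hρd] at hy hx₀n; linarith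
    have hx₀b : x₀ ∈ ball (0 : E n) R := hx₀R (mem_ball_self (by linarith))
    obtain ⟨T, hT⟩ := exists_rot (z - x₀) (ev 1 : E n) (by simp)
    have hF' := flat_move hF x₀ (2 * ρ) hx₀R T
    rw [← dist_eq_norm] at hT
    have htouch : ∀ y ∈ ball (dist z x₀ • (ev 1 : E n)) (dist z x₀) ∩ ball 0 ρ,
        (xc n p).symm (Y (T.symm y + x₀)) ∈ V := by
      rintro y ⟨hy, -⟩
      have e1 : T.symm y + x₀ ∈ ball z (dist z x₀) := by
        rw [mem_ball, dist_eq_norm] at hy ⊢
        have e2 : y - dist z x₀ • (ev 1 : E n) = T (T.symm y + x₀ - z) := by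
          rw [← hT, ← T.apply_symm_apply y, ← map_sub, T.symm_apply_apply]
          congr 1
          abel
        rw [e2, T.norm_map] at hy
        exact hy
      exact (hball e1).2
    obtain ⟨δ, hδ, hδρ, hδ1⟩ := step_touch hC hG h hV hVc ⟨y₀, hyV, hy₀⟩ hV1 hρ hF' hr0 htouch
    -- the neighbourhood of the touching point
    set B : Set M := {m | m ∈ (xc n p).source ∧ xc n p m ∈ D ∧ X (xc n p m) ∈ ball x₀ δ} with hB
    have hBo : IsOpen B := open_chart hF isOpen_ball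
    have hδR : ball x₀ δ ⊆ ball 0 R := (ball_subset_ball (by linarith)).trans hx₀R
    have hBeq : B = par p Y '' ball x₀ δ := by
      ext m
      constructor
      · rintro ⟨m1, m2, m3⟩
        exact ⟨_, m3, par_left hF m1 m2⟩
      · rintro ⟨y, hy, rfl⟩
        obtain ⟨a1, a2, a3⟩ := par_mem hF (hδR hy)
        exact ⟨a1, a2, by
          show X (xc n p ((xc n p).symm (Y y))) ∈ ball x₀ δ
          rw [a3]
          exact hy⟩
    have hBc : IsPreconnected B := by
      rw [hBeq]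
      exact (convex_ball x₀ δ).isPreconnected.image _ ((par_cont hF).mono hδR)
    have hB1 : B ⊆ S := by
      refine interior_maximal ?_ hBo
      rw [hBeq]
      rintro m ⟨y, hy, rfl⟩
      have e1 : T (y - x₀) ∈ ball (0 : E n) δ := by
        rw [mem_ball, dist_zero_right, T.norm_map, ← dist_eq_norm]
        exact hy
      have e2 := hδ1 _ e1
      simp only [T.symm_apply_apply, sub_add_cancel] at e2
      exact e2
    have hx₀B : (xc n p).symm (Y x₀) ∈ B := by
      rw [hBeq]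
      exact ⟨x₀, mem_ball_self hδ, rfl⟩
    have hBV : (V ∩ B).Nonempty := by
      have e1 : x₀ ∈ closure (ball z (dist z x₀)) := by
        rw [closure_ball _ hr0.ne', mem_closedBall, dist_comm]
      obtain ⟨w, hw, hw'⟩ := _root_.mem_closure_iff.1 e1 (ball x₀ δ) isOpen_ball (mem_ball_self hδ)
      refine ⟨(xc n p).symm (Y w), (hball hw').2, ?_⟩
      rw [hBeq]
      exact ⟨w, hw, rfl⟩
    have hun : IsPreconnected (V ∪ B) := hVc.union' hBV hBc
    have hfin : V ∪ B ⊆ V := hun.subset_connectedComponentIn (Or.inl hyV) (union_subset hVS hB1)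
    exact hx₀W ⟨hx₀b, hfin (Or.inr hx₀B)⟩
  have hcl : IsClosed {x | c x = 1} := isClosed_eq h.sm.continuous continuous_const
  intro x
  exact hcl.closure_subset_iff.2 (fun m hm => hV1 m (hsub hm)) (hMd x)

end Step

end Vale.Agent.P088.R2.H850
end
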