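import Vale.Agent.P088.R2.H850.Top
import Vale.Agent.P088.R2.H850.Cf
import Vale.Agent.P088.R2.H338.LSpec
import Vale.Agent.P088.H5.LP861
import Vale.Agent.P088.H5.LD779

/-!
# P088, THEOREM S: topology, local form
-/

set_option linter.all false

open Bundle Manifold MeasureTheory Set Filter Topology Metric
open scoped ContDiff Matrix

noncomputable section

namespace Vale.Agent.P088.R2.H850

open Vale.Agent.P088 Vale.Agent.P088.EYM Vale.Agent.P088.EYM.O Vale.Agent.P088.R2.G31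
open Vale.Agent.P088.R2.H509

universe u

variable {n N : ℕ} [NeZero n] {M : Type u} [TopologicalSpace M]
  [ChartedSpace (EuclideanHalfSpace n) M] [IsManifold (𝓡∂ n) ∞ M]

section One

variable [MeasurableSpace M]

/-- The metrics agree at `x`. -/
def EqM (P Q : One n N M) (x : M) : Prop :=
  ∀ v w : TangentSpace (𝓡∂ n) x, Q.g.inner x v w = P.g.inner x v w

/-- The hypotheses on an open set `U₀`: conformal metrics, a parallel unit section. -/
structure HypL (P Q : One n N M) (Γ U₀ : Set M) (c : M → ℝ) (e : M → Fib N) : Prop where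
  hn : 3 ≤ n
  bd : RelBd n Γ
  data : SameD P Q Γ
  isO : IsOpen U₀
  sm : ContMDiffOn (𝓡∂ n) 𝓘(ℝ, ℝ) ∞ c U₀
  pos : ∀ x ∈ U₀, 0 < c x
  conf : ∀ x ∈ U₀, ∀ v w : TangentSpace (𝓡∂ n) x, Q.g.inner x v w = c x * P.g.inner x v w
  esm : ContMDiffOn (𝓡∂ n) 𝓘(ℝ, Fib N) ∞ e U₀
  enorm : ∀ x ∈ U₀, ‖e x‖ = 1
  eP : ∀ x ∈ U₀, ∀ X : TangentSpace (𝓡∂ n) x, cov P.A e x X = 0
  con : ∀ x ∈ U₀, ∀ X : TangentSpace (𝓡∂ n) x, P.A.form x X = Q.A.form x X

variable {P Q : One n N M} {Γ U₀ : Set M} {c : M → ℝ} {e : M → Fib N} {p : M} {D : Set (E n)}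
  {X Y : E n → E n} {om : E n → ℝ} {R : ℝ}

theorem HypL.eQ (h : HypL P Q Γ U₀ c e) :
    ∀ x ∈ U₀, ∀ X : TangentSpace (𝓡∂ n) x, cov Q.A e x X = 0 := by
  intro x hx X
  have h1 := h.eP x hx X
  unfold cov at h1 ⊢
  rw [← h.con x hx X]
  exact h1

theorem HypL.eqM_iff (h : HypL P Q Γ U₀ c e) {x : M} (hx : x ∈ U₀) : EqM P Q x ↔ c x = 1 := by
  constructor
  · intro h1
    have hne : (es n 0 : E n) ≠ 0 := by
      intro h2
      have := congrArg (fun v : E n => v 0) h2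
      simp [es] at this
    have h2 := (h.conf x hx (es n 0) (es n 0)).symm.trans (h1 (es n 0) (es n 0))
    have h3 : 0 < P.g.inner x (es n 0) (es n 0) := P.g.pos x _ hne
    exact mul_right_cancel₀ h3.ne' (h2.trans (one_mul _).symm)
  · intro h1 v w
    exact (h.conf x hx v w).trans (by rw [h1, one_mul])

theorem smR_par_loc (hc : ContMDiffOn (𝓡∂ n) 𝓘(ℝ, ℝ) ∞ c U₀) (h : FlatIn P p D X Y om R)
    (hD : ∀ x ∈ D, (xc n p).symm x ∈ U₀) :
    ContDiffOn ℝ ∞ (fun y => c ((xc n p).symm (Y y))) (ball 0 R) := by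
  have h1 : ContMDiffOn 𝓘(ℝ, E n) (𝓡∂ n) ∞ (xc n p).symm D :=
    (contMDiffOn_extChartAt_symm p).mono h.sub
  have h2 : ContMDiffOn 𝓘(ℝ, E n) 𝓘(ℝ, ℝ) ∞ (fun y => c ((xc n p).symm y)) D :=
    hc.comp h1 fun y hy => hD y hy
  exact (contMDiffOn_iff_contDiffOn.1 h2).comp h.smY fun y hy => h.mapsY hy

theorem tau_sm_loc (hc : ContMDiffOn (𝓡∂ n) 𝓘(ℝ, ℝ) ∞ c U₀) (hpos : ∀ x ∈ U₀, 0 < c x)
    (h : FlatIn P p D X Y om R) (hD : ∀ x ∈ D, (xc n p).symm x ∈ U₀) :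
    ContDiffOn ℝ ∞ (tau c p Y om) (ball 0 R) :=
  ((smR_par_loc hc h hD).rpow_const_of_ne fun y hy => (hpos _ (hD _ (h.mapsY hy))).ne').mul h.smom

/-- Restriction of flat coordinates. -/
theorem cf_mono (h : CF P p D X om) {O : Set M} (hO : IsOpen O) (hp : p ∈ O) :
    CF P p (D ∩ (tg n p ∩ (xc n p).symm ⁻¹' O)) X om := by
  obtain ⟨h1, h2, h3, h4, h5, h6, h7, h8⟩ := h
  refine ⟨?_, inter_subset_left.trans h2, ⟨h3, h2 h3, ?_⟩, h4.mono inter_subset_left,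
    h5.mono inter_subset_left, fun x hx => h6 x hx.1, fun x hx => h7 x hx.1,
    fun x hx => h8 x hx.1⟩
  · obtain ⟨O₁, hO₁, e₁⟩ := h1
    obtain ⟨O₂, hO₂, e₂⟩ := cLoc_relOpen (n := n) p
    obtain ⟨O', hO', e'⟩ := continuousOn_iff'.1 (continuousOn_extChartAt_symm (I := 𝓡∂ n) p) O hO
    have e'' : (xc n p).symm ⁻¹' O ∩ tg n p = O' ∩ tg n p := e'
    refine ⟨O₁ ∩ (O' ∩ O₂), hO₁.inter (hO'.inter hO₂), ?_⟩
    rw [inter_comm (tg n p), e'', e₁, e₂]
    ext x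
    simp only [mem_inter_iff]
    tauto
  · rw [mem_preimage, extChartAt_to_inv]
    exact hp

end One

section Step

variable [T2Space M] [CompactSpace M] [ConnectedSpace M] [MeasurableSpace M] [BorelSpace M]
  {P Q : One n N M} {Γ U₀ : Set M} {c : M → ℝ} {e : M → Fib N} {p : M} {D : Set (E n)}
  {X Y : E n → E n} {om : E n → ℝ} {R : ℝ}

/-- The step at a touching point, in normalised coordinates, local form. -/
theorem step_touch_loc (hC : H31.Core_statement) (hG : H338.GL_statement.{u})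
    (h : HypL P Q Γ U₀ c e) {V : Set M} (hV : IsOpen V) (hVc : IsPreconnected V)
    (hVΓ : (V ∩ Γ).Nonempty) (hVA : AgreeOn P Q V) (hR : 0 < R)
    (hF : FlatIn P p D X Y om (2 * R)) (hD : ∀ x ∈ D, (xc n p).symm x ∈ U₀) {r : ℝ} (hr : 0 < r)
    (ht : ∀ y ∈ ball (r • (ev 1 : E n)) r ∩ ball 0 R, (xc n p).symm (Y y) ∈ V) :
    ∃ δ > 0, δ ≤ R ∧ ∀ y ∈ ball (0 : E n) δ, c ((xc n p).symm (Y y)) = 1 := by
  have hStep := hG n N M P Q Γ V U₀ c e p D X Y om R h.hn hR h.bd hV hVc hVΓ h.data hVA h.isO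
    h.sm h.pos h.conf h.esm h.enorm h.eP h.eQ hD hF
  set G : Set (E n) := {y | y ∈ ball (0 : E n) (2 * R) ∧ (xc n p).symm (Y y) ∈ V} with hGdef
  have hGo : IsOpen G := (par_cont hF).isOpen_inter_preimage isOpen_ball hV
  have hsub : ball (0 : E n) R ⊆ ball 0 (2 * R) := ball_subset_ball (by linarith)
  have hYU : ∀ y ∈ ball (0 : E n) (2 * R), (xc n p).symm (Y y) ∈ U₀ := fun y hy =>
    hD _ (hF.mapsY hy)
  have h1 : ∀ y ∈ G, c ((xc n p).symm (Y y)) = 1 := fun y hy =>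
    (h.eqM_iff (hYU y hy.1)).1 fun v w => hVA.met _ hy.2 v w
  have hts : ContDiffOn ℝ ∞ (tau c p Y om) (ball 0 (2 * R)) := tau_sm_loc h.sm h.pos hF hD
  have htp : ∀ y ∈ ball (0 : E n) (2 * R), 0 < tau c p Y om y := fun y hy =>
    mul_pos (Real.rpow_pos_of_pos (h.pos _ (hYU y hy)) _) (hF.posom y hy)
  set q : E n → ℝ := fun y => H31.lap (tau c p Y om) y / tau c p Y om y with hq
  have hqc : ContinuousOn q (ball 0 R) := by
    refine ContinuousOn.mono ?_ hsub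
    exact (cont_lap isOpen_ball (hts.of_le (by norm_cast))).div hts.continuousOn
      fun y hy => (htp y hy).ne'
  have hq0 : ∀ x ∈ G ∩ ball 0 R, q x = 0 := by
    rintro x ⟨hx, hxR⟩
    have e1 : tau c p Y om =ᶠ[𝓝 x] om := by
      filter_upwards [hGo.mem_nhds hx] with y hy
      exact tau_one (h1 _ hy)
    show H31.lap (tau c p Y om) x / tau c p Y om x = 0
    rw [H31.lap_congr e1, hF.harm x hx.1, zero_div]
  have hball : ball (r • (ev 1 : E n)) r ∩ ball 0 R ⊆ G := fun y hy => ⟨hsub hy.2, ht y hy⟩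
  replace hStep : H31.Step n R G q := hStep
  have hcore : ∃ δ > 0, ∀ x ∈ ball (0 : E n) δ, q x = 0 := by
    have hn := h.hn
    clear_value q G
    clear hGdef hq hF htp hts ht h h1 hV hVc hVΓ hVA hYU hD
    obtain ⟨k, rfl⟩ : ∃ k, n = k + 3 := ⟨n - 3, by omega⟩
    exact hC k R r G q hR hr hGo hqc hq0 hball hStep
  obtain ⟨δ₀, hδ₀, hδ⟩ := hcore
  set δ : ℝ := min δ₀ R with hδd
  have hδp : 0 < δ := lt_min hδ₀ hR
  have hδR : ball (0 : E n) δ ⊆ ball 0 R := ball_subset_ball (min_le_right _ _)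
  have hlap : ∀ y ∈ ball (0 : E n) δ, H31.lap (tau c p Y om) y = 0 := by
    intro y hy
    have e1 : H31.lap (tau c p Y om) y / tau c p Y om y = 0 :=
      hδ y (ball_subset_ball (min_le_left _ _) hy)
    rcases div_eq_zero_iff.1 e1 with e2 | e2
    · exact e2
    · exact absurd e2 (htp y (hsub (hδR hy))).ne'
  refine ⟨δ, hδp, min_le_right _ _, fun y hy => ?_⟩
  have hC2 : ∀ {f : E n → ℝ}, ContDiffOn ℝ ∞ f (ball 0 (2 * R)) → ∀ y ∈ ball (0 : E n) δ,
      ContDiffAt ℝ 2 f y := fun hf y hy =>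
    (hf.contDiffAt (isOpen_ball.mem_nhds (hsub (hδR hy)))).of_le (by norm_cast)
  have hucp : ∀ x ∈ ball (0 : E n) δ, tau c p Y om x - om x = 0 := by
    refine ucp_ball (U := G ∩ ball 0 δ) ((hts.sub hF.smom).mono (hδR.trans hsub)) (fun x hx => ?_)
      (hGo.inter isOpen_ball) inter_subset_right ?_ fun x hx => ?_
    · rw [H31.lap_sub (hC2 hts x hx) (hC2 hF.smom x hx), hlap x hx,
        hF.harm x (hsub (hδR hx)), sub_zero]
    · have e1 : (0 : E n) ∈ closure (ball (r • (ev 1 : E n)) r) := by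
        rw [closure_ball _ hr.ne', mem_closedBall, dist_zero_left, norm_smul]
        simp [abs_of_pos hr]
      obtain ⟨z, hz, hz'⟩ := _root_.mem_closure_iff.1 e1 (ball 0 δ) isOpen_ball (mem_ball_self hδp)
      exact ⟨z, hball ⟨hz', hδR hz⟩, hz⟩
    · rw [tau_one (h1 _ hx.1), sub_self]
  exact one_of_tau h.hn (h.pos _ (hYU y (hsub (hδR hy)))) (hF.posom y (hsub (hδR hy)))
    (sub_eq_zero.1 (hucp y hy))

/-- The propagation through a region where the metrics are conformal and `g₁` is flat. -/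
theorem fc_step (hC : H31.Core_statement) (hG : H338.GL_statement.{u})
    (h : HypL P Q Γ U₀ c e) (hU₀c : IsPreconnected U₀)
    (hflat : ∀ x ∈ U₀ ∩ Mi n M, ∃ D X om, CF P x D X om)
    {V₀ : Set M} (hV₀ : IsOpen V₀) (hV₀c : IsPreconnected V₀) (hV₀Γ : (V₀ ∩ Γ).Nonempty)
    (hV₀A : AgreeOn P Q V₀) (hne : (U₀ ∩ V₀).Nonempty) : ∀ x ∈ U₀, EqM P Q x := by
  haveI : LocallyConnectedSpace M := ChartedSpace.locallyConnectedSpace (EuclideanHalfSpace n) M
  obtain ⟨hMo, hMc, hMd⟩ := TM.fConn n M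
  obtain ⟨y₀, hy₀V, hy₀⟩ := hV₀Γ
  set S : Set M := interior {x | (x ∈ V₀ ∨ x ∈ U₀) ∧ EqM P Q x} with hS
  have hV₀S : V₀ ⊆ S := interior_maximal (fun x hx => ⟨Or.inl hx, hV₀A.met x hx⟩) hV₀
  set V : Set M := connectedComponentIn S y₀ with hVdef
  have hV : IsOpen V := isOpen_interior.connectedComponentIn
  have hVc : IsPreconnected V := isPreconnected_connectedComponentIn
  have hyV : y₀ ∈ V := mem_connectedComponentIn (hV₀S hy₀V)
  have hVS : V ⊆ S := connectedComponentIn_subset _ _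
  have hV₀V : V₀ ⊆ V := hV₀c.subset_connectedComponentIn hy₀V hV₀S
  have hVE : ∀ x ∈ V, (x ∈ V₀ ∨ x ∈ U₀) ∧ EqM P Q x := fun x hx =>
    (interior_subset (hVS hx) : x ∈ {x | (x ∈ V₀ ∨ x ∈ U₀) ∧ EqM P Q x})
  have hVA : AgreeOn P Q V :=
    ⟨fun x hx X => (hVE x hx).1.elim (fun h1 => hV₀A.conn x h1 X) fun h1 => h.con x h1 X,
      fun x hx v w => (hVE x hx).2 v w⟩
  have hIc : IsPreconnected (U₀ ∩ Mi n M) := D779.conn_int h.isO hU₀c
  have hIo : IsOpen (U₀ ∩ Mi n M) := h.isO.inter hMo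
  have hsub : U₀ ∩ Mi n M ⊆ V := by
    have hne' : ((U₀ ∩ Mi n M) ∩ V).Nonempty := by
      obtain ⟨x, hx1, hx2⟩ := hne
      obtain ⟨y, hy, hy'⟩ := _root_.mem_closure_iff.1 (hMd x) (U₀ ∩ V₀) (h.isO.inter hV₀)
        ⟨hx1, hx2⟩
      exact ⟨y, ⟨hy.1, hy'⟩, hV₀V hy.2⟩
    refine hIc.subset_of_closure_inter_subset hV hne' ?_
    rintro x ⟨hxV, hxU, hxM⟩
    by_contra hx
    obtain ⟨D₀, X₀, om₀, hcf₀⟩ := hflat x ⟨hxU, hxM⟩
    have hcf := cf_mono hcf₀ h.isO hxU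
    have hx0 : 0 < xc n x x 0 := by
      have h1 : x ∉ (𝓡∂ n).boundary M := by
        intro h2
        rw [← (𝓡∂ n).compl_interior] at h2
        exact h2 hxM
      have h2 : xc n x x 0 ≠ 0 := fun h3 => h1 ((cLoc_bd x x (mem_extChartAt_source x)).2 h3)
      have h3 : (0 : ℝ) ≤ xc n x x 0 := hcf.rel.subset hcf.mem
      exact lt_of_le_of_ne h3 (Ne.symm h2)
    obtain ⟨p, D, X, Y, om, R, hxs, hxD, hDU, hR, hF⟩ : ∃ (p : M) (D : Set (E n))
        (X Y : E n → E n) (om : E n → ℝ) (R : ℝ), x ∈ (xc n p).source ∧ xc n p x ∈ D ∧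
        (∀ z ∈ D, (xc n p).symm z ∈ U₀) ∧ 0 < R ∧ FlatIn P p D X Y om R := by
      obtain ⟨D, X, Y, om, R, hDs, hxD, hR, hF⟩ := cf_flat hcf hcf.mem hx0
      exact ⟨x, D, X, Y, om, R, mem_extChartAt_source x, hxD, fun z hz => (hDs hz).2.2, hR, hF⟩
    set x₁ : E n := X (xc n p x) with hx₁
    have hx₁R : x₁ ∈ ball (0 : E n) R := hF.mapsX hxD
    have hx₁p : (xc n p).symm (Y x₁) = x := par_left hF hxs hxD
    set W : Set (E n) := {y | y ∈ ball (0 : E n) R ∧ (xc n p).symm (Y y) ∈ V} with hW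
    have hWo : IsOpen W := (par_cont hF).isOpen_inter_preimage isOpen_ball hV
    have hx₁W : x₁ ∉ W := fun hh => hx (by rw [← hx₁p]; exact hh.2)
    have hx₁c : x₁ ∈ closure W := by
      rw [_root_.mem_closure_iff]
      intro B hB hxB
      obtain ⟨m, ⟨hm1, hm2, hm3⟩, hm⟩ := _root_.mem_closure_iff.1 hxV _
        (open_chart hF (hB.inter (isOpen_ball : IsOpen (ball (0 : E n) R)))) ⟨hxs, hxD, hxB, hx₁R⟩
      exact ⟨X (xc n p m), hm3.1, hm3.2, by rw [par_left hF hm1 hm2]; exact hm⟩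
    have hρ : 0 < (R - ‖x₁‖) / 3 := by
      rw [mem_ball, dist_zero_right] at hx₁R
      linarith
    set ρ : ℝ := (R - ‖x₁‖) / 3 with hρd
    obtain ⟨z, x₀, hx₀, hx₀W, hr0, hrρ, hball⟩ := touching hWo hρ hx₁W hx₁c
    have hx₀n : ‖x₀‖ < ‖x₁‖ + ρ := by
      rw [mem_ball, dist_eq_norm] at hx₀
      calc ‖x₀‖ = ‖(x₀ - x₁) + x₁‖ := by rw [sub_add_cancel]
        _ ≤ ‖x₀ - x₁‖ + ‖x₁‖ := norm_add_le _ _
        _ < ‖x₁‖ + ρ := by linarith
    have hx₀R : ball x₀ (2 * ρ) ⊆ ball 0 R := by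
      intro y hy
      rw [mem_ball, dist_eq_norm] at hy
      rw [mem_ball, dist_zero_right]
      calc ‖y‖ = ‖(y - x₀) + x₀‖ := by rw [sub_add_cancel]
        _ ≤ ‖y - x₀‖ + ‖x₀‖ := norm_add_le _ _
        _ < R := by rw [hρd] at hy hx₀n; linarith
    have hx₀b : x₀ ∈ ball (0 : E n) R := hx₀R (mem_ball_self (by linarith))
    obtain ⟨T, hT⟩ := exists_rot (z - x₀) (ev 1 : E n) (by simp)
    have hF' := flat_move hF x₀ (2 * ρ) hx₀R T
    rw [← dist_eq_norm] at hT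
    have htouch : ∀ y ∈ ball (dist z x₀ • (ev 1 : E n)) (dist z x₀) ∩ ball 0 ρ,
        (xc n p).symm (Y (T.symm y + x₀)) ∈ V := by
      rintro y ⟨hy, -⟩
      have e1 : T.symm y + x₀ ∈ ball z (dist z x₀) := by
        rw [mem_ball, dist_eq_norm] at hy ⊢
        have e2 : y - dist z x₀ • (ev 1 : E n) = T (T.symm y + x₀ - z) := by
          rw [← hT, ← T.apply_symm_apply y, ← map_sub, T.symm_apply_apply]
          congr 1
          abel
        rw [e2, T.norm_map] at hy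
        exact hy
      exact (hball e1).2
    obtain ⟨δ, hδ, hδρ, hδ1⟩ := step_touch_loc hC hG h hV hVc ⟨y₀, hyV, hy₀⟩ hVA hρ hF'
      (fun z hz => hDU z hz.1) hr0 htouch
    set B : Set M := {m | m ∈ (xc n p).source ∧ xc n p m ∈ D ∧ X (xc n p m) ∈ ball x₀ δ} with hB
    have hBo : IsOpen B := open_chart hF isOpen_ball
    have hδR : ball x₀ δ ⊆ ball 0 R := (ball_subset_ball (by linarith)).trans hx₀R
    have hBeq : B = par p Y '' ball x₀ δ := by
      ext m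
      constructor
      · rintro ⟨m1, m2, m3⟩
        exact ⟨_, m3, par_left hF m1 m2⟩
      · rintro ⟨y, hy, rfl⟩
        obtain ⟨a1, a2, a3⟩ := par_mem hF (hδR hy)
        exact ⟨a1, a2, by
          show X (xc n p ((xc n p).symm (Y y))) ∈ ball x₀ δ
          rw [a3]
          exact hy⟩
    have hBc : IsPreconnected B := by
      rw [hBeq]
      exact (convex_ball x₀ δ).isPreconnected.image _ ((par_cont hF).mono hδR)
    have hB1 : B ⊆ S := by
      refine interior_maximal ?_ hBo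
      rw [hBeq]
      rintro m ⟨y, hy, rfl⟩
      have hyU : (xc n p).symm (Y y) ∈ U₀ := hDU _ (hF.mapsY (hδR hy))
      have e1 : T (y - x₀) ∈ ball (0 : E n) δ := by
        rw [mem_ball, dist_zero_right, T.norm_map, ← dist_eq_norm]
        exact hy
      have e2 := hδ1 _ e1
      simp only [T.symm_apply_apply, sub_add_cancel] at e2
      exact ⟨Or.inr hyU, (h.eqM_iff hyU).2 e2⟩
    have hx₀B : (xc n p).symm (Y x₀) ∈ B := by
      rw [hBeq]
      exact ⟨x₀, mem_ball_self hδ, rfl⟩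
    have hBV : (V ∩ B).Nonempty := by
      have e1 : x₀ ∈ closure (ball z (dist z x₀)) := by
        rw [closure_ball _ hr0.ne', mem_closedBall, dist_comm]
      obtain ⟨w, hw, hw'⟩ := _root_.mem_closure_iff.1 e1 (ball x₀ δ) isOpen_ball (mem_ball_self hδ)
      refine ⟨(xc n p).symm (Y w), (hball hw').2, ?_⟩
      rw [hBeq]
      exact ⟨w, hw, rfl⟩
    have hun : IsPreconnected (V ∪ B) := hVc.union' hBV hBc
    have hfin : V ∪ B ⊆ V := hun.subset_connectedComponentIn (Or.inl hyV) (union_subset hVS hB1)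
    exact hx₀W ⟨hx₀b, hfin (Or.inr hx₀B)⟩
  intro x hx
  refine (h.eqM_iff hx).2 ?_
  have hcl : x ∈ closure (U₀ ∩ Mi n M) := by
    rw [_root_.mem_closure_iff]
    intro B hB hxB
    obtain ⟨y, ⟨hy1, hy2⟩, hy3⟩ := _root_.mem_closure_iff.1 (hMd x) (B ∩ U₀) (hB.inter h.isO)
      ⟨hxB, hx⟩
    exact ⟨y, hy1, hy2, hy3⟩
  have hcon : ContinuousAt c x := (h.sm.continuousOn x hx).continuousAt (h.isO.mem_nhds hx)
  have hone : ∀ y ∈ U₀ ∩ Mi n M, c y = 1 := fun y hy => (h.eqM_iff hy.1).1 (hVE y (hsub hy)).2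
  have hmem : c x ∈ closure (c '' (U₀ ∩ Mi n M)) :=
    hcon.continuousWithinAt.mem_closure_image hcl
  have himg : c '' (U₀ ∩ Mi n M) ⊆ {1} := by
    rintro _ ⟨y, hy, rfl⟩
    exact hone y hy
  have := closure_mono himg hmem
  rwa [closure_singleton] at this

end Step

end Vale.Agent.P088.R2.H850
end
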